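import Vale.Agent.P114.Inc

/-! Counting the scales with sizeable variance, and the excess entropy bound. -/

namespace Vale.Agent.P114

open MeasureTheory Set Real

universe u

namespace FM

/-- convolution power -/
def pw (ν : FM.{u} ℝ) : ℕ → FM.{u} ℝ
  | 0 => dirac 0
  | n + 1 => ν.conv (pw ν n)

/-- all positions are combinations of `θ` with coefficients in `0..K` -/
def Sp {A : Type*} [Fintype A] (θ : A → ℝ) (ν : FM.{u} ℝ) (K : ℕ) : Prop :=
  ∀ i, ∃ c : A → ℕ, (∀ j, c j ≤ K) ∧ ν.x i = ∑ j, (c j : ℝ) * θ j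

variable {ν : FM.{u} ℝ}

theorem Prob.pw (h : ν.Prob) (n : ℕ) : (ν.pw n).Prob := by
  induction n with
  | zero => exact prob_dirac 0
  | succ n ih => exact h.conv ih

theorem Sp.pw {A : Type*} [Fintype A] {θ : A → ℝ} (h : Sp θ ν 1) (n : ℕ) : Sp θ (ν.pw n) n := by
  induction n with
  | zero => exact fun _ => ⟨fun _ => 0, fun _ => le_rfl, by simp [FM.pw, dirac]⟩
  | succ n ih =>
    rintro ⟨i, j⟩
    obtain ⟨c, hc, e⟩ := h i
    obtain ⟨c', hc', e'⟩ := ih j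
    refine ⟨fun a => c a + c' a, fun a => by
      have := hc a; have := hc' a; show c a + c' a ≤ n + 1; omega, ?_⟩
    show ν.x i + (ν.pw n).x j = _
    rw [e, e', ← Finset.sum_add_distrib]
    exact Finset.sum_congr rfl (fun a _ => by push_cast; ring)

theorem Sp.Sh_le {A : Type*} [Fintype A] {θ : A → ℝ} {K : ℕ} (h : Sp θ ν K) (hν : ν.Prob) :
    ν.Sh ≤ Fintype.card A * Real.log (K + 1) := by
  classical
  set T : Finset ℝ := Finset.univ.image
    (fun c : A → Fin (K + 1) => ∑ j, ((c j : ℕ) : ℝ) * θ j) with hT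
  have h1 := hν.Sh_le_log_card T (fun i _ => by
    obtain ⟨c, hc, e⟩ := h i
    exact Finset.mem_image.2 ⟨fun j => ⟨c j, Nat.lt_succ_of_le (hc j)⟩, Finset.mem_univ _, e.symm⟩)
  have h2 : T.card ≤ (K + 1) ^ Fintype.card A := by
    refine Finset.card_image_le.trans ?_
    simp
  have h3 : 0 < T.card := Finset.card_pos.2 ⟨_, Finset.mem_image.2 ⟨fun _ => 0, Finset.mem_univ _, rfl⟩⟩
  refine h1.trans ?_
  rw [← Real.log_pow]
  exact Real.log_le_log (by exact_mod_cast h3) (by exact_mod_cast h2)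

theorem Cpl.good_pw (hν : ν.Prob) {R v ρ M V₀ : ℝ} (h : ν.Cpl R v) (hR : 0 ≤ R) (hρ : 0 < ρ)
    (hM : 0 < M) (hV : 0 < V₀) (hv : 0 ≤ v) (j : ℕ) (hj : j * v ≤ V₀) :
    Good R ρ M V₀ (j * v) ((ν.pw j).T ρ) := by
  obtain ⟨W, hW, hWv⟩ := h
  induction j with
  | zero =>
    simp only [Nat.cast_zero, zero_mul]
    exact good_zero hR hρ hM hV (fun z => (hν.pw 0).T_le_one hρ z)
  | succ j ih =>
    have hj' : (j : ℝ) * v ≤ V₀ := by push_cast at hj; nlinarith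
    refine good_of_mid hR hρ hM hV hj (fun z => (hν.pw _).T_le_one hρ z)
      (fun z hz => (hν.pw _).T_le_div hρ hz) (fun z h1 h2 => ?_)
    refine (T_conv_cpl hW (ν.pw j) hρ z).trans ((psi_step hν hW (ih hj') h1 h2).trans ?_)
    have : v / V₀ ≤ W.ev (fun p => (p.1 - p.2) ^ 2) / V₀ := by gcongr
    have e : psi R ρ M V₀ (((j + 1 : ℕ) : ℝ) * v) z = psi R ρ M V₀ (j * v) z - v / V₀ := by
      unfold psi; push_cast; ring
    linarith

theorem Cpl.I_pw (hν : ν.Prob) {R V : ℝ} (h : ν.Cpl R (V * R ^ 2)) (hR : 0 < R) {K : ℕ}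
    (hK : 1156 ≤ K * V) : Real.log 2 / 4 ≤ (ν.pw K).I (4 * R) := by
  have hV : 0 < V := by
    by_contra hV
    have : (K : ℝ) * V ≤ 0 := mul_nonpos_of_nonneg_of_nonpos (Nat.cast_nonneg K) (not_lt.1 hV)
    linarith
  have hV0 : 1156 * R ^ 2 ≤ K * (V * R ^ 2) := by
    have := mul_le_mul_of_nonneg_right hK (sq_nonneg R)
    linarith
  have hV1 : 0 < K * (V * R ^ 2) := lt_of_lt_of_le (by positivity) hV0
  have h1 := h.good_pw hν hR.le (ρ := 4 * R) (M := 16 * R) (by positivity) (by positivity) hV1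
    (by positivity) K le_rfl (4 * R) (by positivity) (by linarith)
  have h2 : psi R (4 * R) (16 * R) (K * (V * R ^ 2)) (K * (V * R ^ 2)) (4 * R) ≤ 3 / 4 := by
    unfold psi
    have a1 : R / (4 * R) = 1 / 4 := by field_simp
    have a2 : 4 * R / (16 * R) = 1 / 4 := by field_simp; ring
    have a3 : ((16 * R + R) ^ 2 - (4 * R) ^ 2) / (K * (V * R ^ 2)) ≤ 1 / 4 := by
      rw [div_le_iff₀ hV1]; nlinarith [sq_nonneg R]
    rw [a1, a2, sub_self, zero_div]
    linarith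
  have h3 := (hν.pw K).I_ge (r := 4 * R) (by positivity)
  have h4 : 0 < Real.log 2 := Real.log_pos (by norm_num)
  nlinarith

theorem sum_I (ν : FM.{u} ℝ) (c : ℝ) (S : ℕ) :
    ∑ s ∈ Finset.range S, ν.I (c * (1 / 2) ^ (s + 1)) = ν.H (c * (1 / 2) ^ S) - ν.H c := by
  induction S with
  | zero => simp
  | succ S ih =>
    rw [Finset.sum_range_succ, ih, FM.I]
    have : 2 * (c * (1 / 2) ^ (S + 1)) = c * (1 / 2) ^ S := by ring
    rw [this]; ring

open Classical in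
/-- normalised variance of the explicit coupling at scale `2⁻ˢ` -/
noncomputable def Vf (ν : FM.{u} ℝ) (s : ℕ) : ℝ :=
  if h : ν.Prob then Classical.choose (h.exists_V (r := (1 / 2) ^ (s + 1)) (by positivity)) else 0

theorem Prob.Vf_spec (h : ν.Prob) (s : ℕ) : 0 ≤ ν.Vf s ∧ ν.Vf s ≤ 1 ∧
    ν.Cpl ((1 / 2) ^ s) (ν.Vf s * ((1 / 2) ^ s) ^ 2) ∧
      ∀ i : ℕ, ν.Vf s ≤ (1 / 64) ^ i → ν.I ((1 / 2) ^ (s + 1)) ≤ 18 * (1 / 2) ^ i := by
  have := Classical.choose_spec (h.exists_V (r := (1 / 2) ^ (s + 1)) (by positivity))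
  have e : (2 : ℝ) * (1 / 2) ^ (s + 1) = (1 / 2) ^ s := by ring
  unfold FM.Vf
  rw [dif_pos h]
  generalize Classical.choose (h.exists_V (r := (1 / 2) ^ (s + 1)) (by positivity)) = V at this ⊢
  rwa [e] at this

theorem Prob.count (h : ν.Prob) {A : Type*} [Fintype A] {θ : A → ℝ} (hθ : Sp θ ν 1) (S i : ℕ) :
    ∑ s ∈ Finset.range S, (if (1 / 64 : ℝ) ^ (i + 1) ≤ ν.Vf s then (1 : ℝ) else 0) ≤
      4 * Fintype.card A * (6 * i + 17) := by
  set K : ℕ := 1156 * 64 ^ (i + 1) with hK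
  have hl : 0 < Real.log 2 := Real.log_pos (by norm_num)
  have h1 : ∀ s, (if (1 / 64 : ℝ) ^ (i + 1) ≤ ν.Vf s then (1 : ℝ) else 0) * (Real.log 2 / 4) ≤
      (ν.pw K).I (8 * (1 / 2) ^ (s + 1)) := by
    intro s
    split_ifs with hs
    · have e : (8 : ℝ) * (1 / 2) ^ (s + 1) = 4 * (1 / 2) ^ s := by ring
      rw [one_mul, e]
      refine (h.Vf_spec s).2.2.1.I_pw h (by positivity) ?_
      have e2 : (K : ℝ) * (1 / 64) ^ (i + 1) = 1156 := by
        rw [hK]; push_cast; rw [mul_assoc, ← mul_pow]; norm_num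
      rw [← e2]
      exact mul_le_mul_of_nonneg_left hs (Nat.cast_nonneg K)
    · rw [zero_mul]; exact (h.pw K).I_nonneg (by positivity)
  have h2 := Finset.sum_le_sum (fun s (_ : s ∈ Finset.range S) => h1 s)
  rw [sum_I, ← Finset.sum_mul] at h2
  have h3 := (h.pw K).H_le_Sh (r := 8 * (1 / 2) ^ S) (by positivity)
  have h4 := (h.pw K).H_nonneg (r := 8) (by norm_num)
  have h5 := (hθ.pw K).Sh_le (h.pw K)
  have h6 : Real.log (K + 1) ≤ (6 * i + 17) * Real.log 2 := by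
    have : ((6 * i + 17 : ℕ) : ℝ) * Real.log 2 = Real.log (2 ^ (6 * i + 17)) := by
      rw [Real.log_pow]
    push_cast at this
    rw [this]
    refine Real.log_le_log (by positivity) ?_
    have h7 : K + 1 ≤ 2 ^ (6 * i + 17) := by
      have e : 2 ^ (6 * i + 17) = 2048 * 64 ^ (i + 1) := by
        rw [show (64 : ℕ) = 2 ^ 6 by norm_num, ← pow_mul]; ring
      have : 1 ≤ 64 ^ (i + 1) := Nat.one_le_pow _ _ (by norm_num)
      omega
    exact_mod_cast h7
  have h7 : (Fintype.card A : ℝ) * Real.log (K + 1) ≤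
      Fintype.card A * ((6 * i + 17) * Real.log 2) :=
    mul_le_mul_of_nonneg_left h6 (Nat.cast_nonneg _)
  refine le_of_mul_le_mul_right (a := Real.log 2 / 4) ?_ (by positivity)
  linarith

theorem layer {V I : ℝ} (hV0 : 0 ≤ V) (hV1 : V ≤ 1)
    (h : ∀ i : ℕ, V ≤ (1 / 64) ^ i → I ≤ 18 * (1 / 2) ^ i) (i₀ N : ℕ) :
    I ≤ 18 * 64 ^ i₀ * V + ∑ j ∈ Finset.range N, 18 * (1 / 2 : ℝ) ^ (i₀ + j) *
      (if (1 / 64 : ℝ) ^ (i₀ + j + 1) ≤ V then (1 : ℝ) else 0) + 18 * (1 / 2) ^ (i₀ + N) := by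
  have hs : ∀ N, 0 ≤ ∑ j ∈ Finset.range N, 18 * (1 / 2 : ℝ) ^ (i₀ + j) *
      (if (1 / 64 : ℝ) ^ (i₀ + j + 1) ≤ V then (1 : ℝ) else 0) := fun N =>
    Finset.sum_nonneg (fun j _ => mul_nonneg (by positivity) (by split_ifs <;> norm_num))
  have hA : 0 ≤ 18 * 64 ^ i₀ * V := by positivity
  have key : V ≤ (1 / 64) ^ (i₀ + N) ∨ I ≤ 18 * 64 ^ i₀ * V + ∑ j ∈ Finset.range N,
      18 * (1 / 2 : ℝ) ^ (i₀ + j) * (if (1 / 64 : ℝ) ^ (i₀ + j + 1) ≤ V then (1 : ℝ) else 0) := by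
    induction N with
    | zero =>
      by_cases hV : V ≤ (1 / 64) ^ i₀
      · exact Or.inl hV
      · right
        have h1 := h 0 (by simpa using hV1)
        have h2 : (64 : ℝ) ^ i₀ * (1 / 64) ^ i₀ = 1 := by rw [← mul_pow]; norm_num
        have h3 : (64 : ℝ) ^ i₀ * (1 / 64) ^ i₀ ≤ 64 ^ i₀ * V :=
          mul_le_mul_of_nonneg_left (not_le.1 hV).le (by positivity)
        simp only [Finset.range_zero, Finset.sum_empty, pow_zero] at h1 ⊢
        linarith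
    | succ N ih =>
      rw [Finset.sum_range_succ]
      rcases ih with ih | ih
      · by_cases hV : (1 / 64 : ℝ) ^ (i₀ + N + 1) ≤ V
        · right
          rw [if_pos hV]
          linarith [h _ ih, hs N]
        · exact Or.inl (not_le.1 hV).le
      · right
        have : 0 ≤ 18 * (1 / 2 : ℝ) ^ (i₀ + N) *
            (if (1 / 64 : ℝ) ^ (i₀ + N + 1) ≤ V then (1 : ℝ) else 0) :=
          mul_nonneg (by positivity) (by split_ifs <;> norm_num)
        linarith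
  have hB : (0 : ℝ) ≤ 18 * (1 / 2) ^ (i₀ + N) := by positivity
  rcases key with key | key
  · linarith [h _ key, hs N]
  · linarith

theorem geo_sum (i₀ N : ℕ) : ∑ j ∈ Finset.range N, (1 / 2 : ℝ) ^ (i₀ + j) * (6 * (i₀ + j : ℕ) + 17)
    ≤ (12 * i₀ + 46) * (1 / 2) ^ i₀ := by
  have : ∑ j ∈ Finset.range N, (1 / 2 : ℝ) ^ (i₀ + j) * (6 * (i₀ + j : ℕ) + 17) =
      (12 * i₀ + 46) * (1 / 2) ^ i₀ - (12 * (i₀ + N) + 46) * (1 / 2) ^ (i₀ + N) := by
    induction N with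
    | zero => simp
    | succ N ih => rw [Finset.sum_range_succ, ih]; push_cast; ring
  rw [this]
  have : (0 : ℝ) ≤ (12 * (i₀ + N) + 46) * (1 / 2) ^ (i₀ + N) := by positivity
  linarith

/-- Excess entropy below the unit scale is controlled by the total variance. -/
theorem excess {η : ℝ} (hη : 0 < η) : ∃ C, 0 < C ∧ ∀ (ν : FM.{u} ℝ), ν.Prob →
    ∀ (A : Type u) [Fintype A] (θ : A → ℝ), Sp θ ν 1 → ∀ᶠ S in Filter.atTop,
      ν.Sh - ν.H 1 ≤ C * ∑ s ∈ Finset.range S, ν.Vf s + η * Fintype.card A + 1 := by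
  have hlim : Filter.Tendsto (fun i : ℕ => 72 * ((12 * (i : ℝ) + 46) * (1 / 2) ^ i))
      Filter.atTop (nhds 0) := by
    have h1 := tendsto_self_mul_const_pow_of_lt_one (r := (1 / 2 : ℝ)) (by norm_num) (by norm_num)
    have h2 := tendsto_pow_atTop_nhds_zero_of_lt_one (r := (1 / 2 : ℝ)) (by norm_num) (by norm_num)
    have := ((h1.const_mul 12).add (h2.const_mul 46)).const_mul 72
    simp only [mul_zero, add_zero] at this
    exact this.congr (fun i => by ring)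
  obtain ⟨i₀, hi₀⟩ := (hlim.eventually (ge_mem_nhds hη)).exists
  refine ⟨18 * 64 ^ i₀, by positivity, fun ν h A _ θ hθ => ?_⟩
  obtain ⟨δ, hδ, hSh⟩ := h.Sh_le_H
  have h2 := tendsto_pow_atTop_nhds_zero_of_lt_one (r := (1 / 2 : ℝ)) (by norm_num) (by norm_num)
  filter_upwards [h2.eventually (ge_mem_nhds hδ)] with S hS
  have h3 := hSh _ (by positivity) hS
  have h4 := ν.sum_I 1 S
  simp only [one_mul] at h4
  have h5 := Finset.sum_le_sum (fun s (_ : s ∈ Finset.range S) =>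
    layer (h.Vf_spec s).1 (h.Vf_spec s).2.1 (h.Vf_spec s).2.2.2 i₀ (S + 5))
  rw [h4, Finset.sum_add_distrib, Finset.sum_add_distrib, ← Finset.mul_sum, Finset.sum_comm] at h5
  have h6 : ∑ j ∈ Finset.range (S + 5), ∑ s ∈ Finset.range S, 18 * (1 / 2 : ℝ) ^ (i₀ + j) *
      (if (1 / 64 : ℝ) ^ (i₀ + j + 1) ≤ ν.Vf s then (1 : ℝ) else 0) ≤ η * Fintype.card A := by
    calc _ ≤ ∑ j ∈ Finset.range (S + 5), (72 * Fintype.card A) *
          ((1 / 2 : ℝ) ^ (i₀ + j) * (6 * (i₀ + j : ℕ) + 17)) := by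
          refine Finset.sum_le_sum (fun j _ => ?_)
          rw [← Finset.mul_sum]
          have := mul_le_mul_of_nonneg_left (h.count hθ S (i₀ + j))
            (show 0 ≤ 18 * (1 / 2 : ℝ) ^ (i₀ + j) by positivity)
          refine this.trans (le_of_eq ?_)
          ring
      _ ≤ (72 * Fintype.card A) * ((12 * i₀ + 46) * (1 / 2) ^ i₀) := by
          rw [← Finset.mul_sum]
          exact mul_le_mul_of_nonneg_left (geo_sum _ _) (by positivity)
      _ ≤ η * Fintype.card A := by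
          have := mul_le_mul_of_nonneg_right hi₀ (Nat.cast_nonneg (α := ℝ) (Fintype.card A))
          linarith
  have h7 : ∑ s ∈ Finset.range S, 18 * (1 / 2 : ℝ) ^ (i₀ + (S + 5)) ≤ 1 := by
    rw [Finset.sum_const, Finset.card_range, nsmul_eq_mul]
    have a1 : (S : ℝ) ≤ 2 ^ S := by exact_mod_cast (Nat.lt_two_pow_self).le
    have a2 : (1 / 2 : ℝ) ^ i₀ ≤ 1 := pow_le_one₀ (by norm_num) (by norm_num)
    have a3 : (2 : ℝ) ^ S * (1 / 2) ^ S = 1 := by rw [← mul_pow]; norm_num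
    have a4 : (0 : ℝ) < (1 / 2) ^ S := by positivity
    have a5 : (S : ℝ) * (1 / 2) ^ S ≤ 1 := by nlinarith
    have a6 : (0 : ℝ) ≤ S * (1 / 2) ^ S := by positivity
    have e : (S : ℝ) * (18 * (1 / 2) ^ (i₀ + (S + 5))) =
        (18 / 32) * ((1 / 2) ^ i₀ * (S * (1 / 2) ^ S)) := by ring
    rw [e]
    have : (1 / 2 : ℝ) ^ i₀ * (S * (1 / 2) ^ S) ≤ 1 := mul_le_one₀ a2 a6 a5
    linarith
  linarith

end FM

end Vale.Agent.P114
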