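import Mathlib.Topology.MetricSpace.HausdorffDimension
import Mathlib.Analysis.SpecialFunctions.Log.Base

/-! Definitions used in the statement of the entropy-rate dimension formula. -/

namespace Vale.Agent.P114

open MeasureTheory
open scoped ENNReal

variable {Λ : Type*}

/-- For the word `w = i₁ ⋯ iₙ`, the composed map `φ_{i₁} ∘ ⋯ ∘ φ_{iₙ}`, `φ_i x = r i * x + t i`. -/
def wordMap (r t : Λ → ℝ) (w : List Λ) : ℝ → ℝ :=
  fun x => w.foldr (fun i y => r i * y + t i) x

open Classical in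
/-- `ℙ(Gₙ = g)`: the sum of `p_w` over the words `w` of length `n` with `φ_w = g`. -/
noncomputable def probG [Fintype Λ] (r t p : Λ → ℝ) (n : ℕ) (g : ℝ → ℝ) : ℝ :=
  ∑ w : Fin n → Λ, if wordMap r t (List.ofFn w) = g then ∏ j, p (w j) else 0

open Classical in
/-- `H(Gₙ)`: Shannon entropy, base 2, of the random map `Gₙ`. -/
noncomputable def entG [Fintype Λ] (r t p : Λ → ℝ) (n : ℕ) : ℝ :=
  ∑ g ∈ Finset.univ.image (fun w : Fin n → Λ => wordMap r t (List.ofFn w)),
    -(probG r t p n g * Real.logb 2 (probG r t p n g))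

/-- Random-walk entropy rate: the infimum of `H(Gₙ) / n` over `n ≥ 1`. -/
noncomputable def hRW [Fintype Λ] (r t p : Λ → ℝ) : ℝ :=
  ⨅ n : ℕ, entG r t p (n + 1) / ((n + 1 : ℕ) : ℝ)

/-- Lyapunov exponent, base 2. -/
noncomputable def lyap [Fintype Λ] (r p : Λ → ℝ) : ℝ :=
  -∑ i, p i * Real.logb 2 |r i|

/-- Lower Hausdorff dimension of a Borel measure on the line. -/
noncomputable def lowerDim (μ : Measure ℝ) : ℝ≥0∞ :=
  ⨅ (E : Set ℝ) (_ : MeasurableSet E) (_ : 0 < μ E), dimH E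

end Vale.Agent.P114
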