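import Vale.Agent.P114.FM
import Mathlib.Analysis.Convex.Jensen

/-! Entropy at a scale, averaged over translations. -/

namespace Vale.Agent.P114

open MeasureTheory Set Real

universe u

theorem integrable_k_mul {F : ℝ → ℝ} (hF : Measurable F) {B : ℝ} (hB : ∀ x, |F x| ≤ B)
    (r y : ℝ) : Integrable (fun x => k r (x - y) * F x) := by
  refine ((integrable_k_sub r y).mul_const B).mono'
    (((measurable_k r).comp (measurable_id.sub_const y)).mul hF).aestronglyMeasurable
    (Filter.Eventually.of_forall (fun x => ?_))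
  rw [Real.norm_eq_abs, abs_mul, abs_of_nonneg (k_nonneg _ _)]
  exact mul_le_mul_of_nonneg_left (hB x) (k_nonneg _ _)

theorem integral_k_mul (F : ℝ → ℝ) {r : ℝ} (hr : 0 < r) (y : ℝ) :
    ∫ x, k r (x - y) * F x = r * ∫ u, k 1 u * F (y + r * u) := by
  have h1 := Measure.integral_comp_mul_left (fun v => k r v * F (y + v)) r
  have h2 : ∫ v, k r v * F (y + v) = ∫ x, k r (x - y) * F x := by
    rw [← integral_add_left_eq_self (fun x => k r (x - y) * F x) y]
    simp
  have h3 : ∀ u, k r (r * u) = k 1 u := fun u => by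
    have := k_mul hr.ne' 1 u
    rwa [abs_of_pos hr, mul_one] at this
  simp only [h3] at h1
  rw [h1, h2, abs_of_pos (inv_pos.2 hr), smul_eq_mul, ← mul_assoc, mul_inv_cancel₀ hr.ne', one_mul]

namespace FM

/-- entropy at scale `r` -/
noncomputable def H (ν : FM.{u} ℝ) (r : ℝ) : ℝ := (1 / r) * ∫ x, negMulLog (ν.m r x)

open Classical in
/-- mass of a point -/
noncomputable def pt {α : Type} (ν : FM.{u} α) (y : α) : ℝ :=
  ν.ev (fun y' => if y' = y then 1 else 0)

/-- Shannon entropy -/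
noncomputable def Sh {α : Type} (ν : FM.{u} α) : ℝ := ν.ev (fun y => -Real.log (ν.pt y))

theorem Eqv.H {ν ν' : FM.{u} ℝ} (h : ν.Eqv ν') : ν.H = ν'.H := by
  funext r; unfold FM.H; rw [h.m]

variable {ν σ : FM.{u} ℝ}

theorem Prob.log_bdd (h : ν.Prob) : ∃ B, 0 ≤ B ∧ ∀ r x, |Real.log (ν.m r x)| ≤ B := by
  refine ⟨∑ i, |Real.log (ν.q i)|, Finset.sum_nonneg (fun _ _ => abs_nonneg _), fun r x => ?_⟩
  by_cases hx : ν.m r x = 0
  · rw [hx, Real.log_zero, abs_zero]; exact Finset.sum_nonneg (fun _ _ => abs_nonneg _)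
  · obtain ⟨i, hi, hw⟩ := ν.exists_of_m_ne hx
    have hq : 0 < ν.q i := lt_of_le_of_ne (ν.q_nonneg i) (Ne.symm hi)
    have h1 := ν.q_le_m hw
    have h2 := h.m_le_one r x
    have h3 : Real.log (ν.m r x) ≤ 0 := Real.log_nonpos (ν.m_nonneg _ _) h2
    have h4 : Real.log (ν.q i) ≤ Real.log (ν.m r x) := Real.log_le_log hq h1
    calc |Real.log (ν.m r x)| ≤ |Real.log (ν.q i)| := by
          rw [abs_of_nonpos h3, abs_of_nonpos (h4.trans h3)]; linarith
      _ ≤ _ := Finset.single_le_sum (f := fun i => |Real.log (ν.q i)|)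
          (fun _ _ => abs_nonneg _) (Finset.mem_univ i)

theorem Prob.integrable_eta (h : ν.Prob) (r : ℝ) : Integrable (fun x => negMulLog (ν.m r x)) :=
  h.integrable_comp r continuous_negMulLog.measurable negMulLog_zero (C := 1) (fun t h0 h1 => by
    rw [abs_of_nonneg (negMulLog_nonneg h0 h1)]
    linarith [negMulLog_le_one_sub_self h0])

theorem m_mul_eq (ν : FM.{u} ℝ) (r : ℝ) (F : ℝ → ℝ) (x : ℝ) :
    ν.m r x * F x = ν.ev (fun y => k r (x - y) * F x) := by
  unfold FM.m; rw [ev_mul_const]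

theorem integrable_m_mul (ν : FM.{u} ℝ) (r : ℝ) {F : ℝ → ℝ} (hF : Measurable F) {B : ℝ}
    (hB : ∀ x, |F x| ≤ B) : Integrable (fun x => ν.m r x * F x) := by
  simp only [m_mul_eq]
  exact ν.integrable_ev (F := fun y x => k r (x - y) * F x) (fun y => integrable_k_mul hF hB r y)

/-- atom form of integrals against the window mass -/
theorem integral_m_mul (ν : FM.{u} ℝ) {r : ℝ} (hr : 0 < r) {F : ℝ → ℝ} (hF : Measurable F) {B : ℝ}
    (hB : ∀ x, |F x| ≤ B) :
    (1 / r) * ∫ x, ν.m r x * F x = ν.ev (fun y => ∫ u, k 1 u * F (y + r * u)) := by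
  simp only [m_mul_eq]
  rw [ν.integral_ev (F := fun y x => k r (x - y) * F x) (fun y => integrable_k_mul hF hB r y)]
  simp only [integral_k_mul F hr]
  rw [ev_const_mul, ← mul_assoc, one_div, inv_mul_cancel₀ hr.ne', one_mul]

theorem integrable_k_one_mul {F : ℝ → ℝ} (hF : Measurable F) {B : ℝ} (hB : ∀ x, |F x| ≤ B)
    (r y : ℝ) : Integrable (fun u => k 1 u * F (y + r * u)) := by
  have := integrable_k_mul (F := fun u => F (y + r * u))
    (hF.comp ((measurable_id.const_mul r).const_add y)) (fun x => hB _) 1 0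
  simpa using this

theorem integral_k_one_le {F G : ℝ → ℝ} (hF : Integrable (fun u => k 1 u * F u))
    (hG : Integrable (fun u => k 1 u * G u)) (h : ∀ u, |u| < 1 / 2 → F u ≤ G u) :
    ∫ u, k 1 u * F u ≤ ∫ u, k 1 u * G u := by
  refine integral_mono hF hG (fun u => ?_)
  by_cases hu : |u| < 1 / 2
  · simp only [k_of_lt hu, one_mul]; exact h u hu
  · simp only [k, if_neg hu, zero_mul, le_refl]

theorem integral_k_one_const (c : ℝ) : ∫ u, k 1 u * c = c := by
  rw [integral_mul_const, integral_k zero_le_one, one_mul]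

theorem measurable_neg_log_m (ν : FM.{u} ℝ) (r : ℝ) :
    Measurable (fun x => -Real.log (ν.m r x)) :=
  (Real.measurable_log.comp (ν.measurable_m r)).neg

theorem Prob.H_atom (h : ν.Prob) {r : ℝ} (hr : 0 < r) :
    ν.H r = ν.ev (fun y => ∫ u, k 1 u * (-Real.log (ν.m r (y + r * u)))) := by
  obtain ⟨B, -, hB⟩ := h.log_bdd
  rw [← ν.integral_m_mul hr (ν.measurable_neg_log_m r) (B := B) (fun x => by
    rw [abs_neg]; exact hB r x)]
  unfold FM.H
  congr 2
  funext x
  simp only [negMulLog]; ring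

theorem Prob.integrable_atom (h : ν.Prob) (r y : ℝ) :
    Integrable (fun u => k 1 u * (-Real.log (ν.m r (y + r * u)))) := by
  obtain ⟨B, -, hB⟩ := h.log_bdd
  exact integrable_k_one_mul (ν.measurable_neg_log_m r) (B := B)
    (fun x => by rw [abs_neg]; exact hB r x) r y

theorem Prob.H_nonneg (h : ν.Prob) {r : ℝ} (hr : 0 < r) : 0 ≤ ν.H r :=
  mul_nonneg (by positivity)
    (integral_nonneg (fun x => negMulLog_nonneg (ν.m_nonneg _ _) (h.m_le_one _ _)))

theorem q_le_m_atom (ν : FM.{u} ℝ) {r : ℝ} (hr : 0 < r) (i : ν.ι) {u : ℝ} (hu : |u| < 1 / 2) :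
    ν.q i ≤ ν.m r (ν.x i + r * u) := by
  refine ν.q_le_m ?_
  rw [add_sub_cancel_left, abs_mul, abs_of_pos hr]
  nlinarith

theorem Prob.H_anti (h : ν.Prob) {r r' : ℝ} (hr' : 0 < r') (hr : r' ≤ r) : ν.H r ≤ ν.H r' := by
  have hr0 : 0 < r := hr'.trans_le hr
  rw [h.H_atom hr0, h.H_atom hr']
  refine ν.ev_mono' (fun i hi => ?_)
  refine integral_k_one_le (h.integrable_atom _ _) (h.integrable_atom _ _) (fun u hu => ?_)
  have hq : 0 < ν.q i := lt_of_le_of_ne (ν.q_nonneg i) (Ne.symm hi)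
  refine neg_le_neg (Real.log_le_log (hq.trans_le (ν.q_le_m_atom hr' i hu)) ?_)
  refine ν.m_le_m (fun y hy => ?_)
  have e : ν.x i + r * u - y = (ν.x i + r' * u - y) + (r - r') * u := by ring
  rw [e]
  have h1 : |(r - r') * u| ≤ (r - r') / 2 := by
    rw [abs_mul, abs_of_nonneg (by linarith)]
    nlinarith
  calc _ ≤ |ν.x i + r' * u - y| + |(r - r') * u| := abs_add_le _ _
    _ < r' / 2 + (r - r') / 2 := by linarith
    _ = r / 2 := by ring

theorem pt_nonneg {α : Type} (ν : FM.{u} α) (y : α) : 0 ≤ ν.pt y :=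
  ν.ev_nonneg (fun a => by split_ifs <;> norm_num)

theorem q_le_pt {α : Type} (ν : FM.{u} α) (i : ν.ι) : ν.q i ≤ ν.pt (ν.x i) := by
  classical
  have := ν.single_le_ev (F := fun y' => if y' = ν.x i then 1 else 0)
    (fun a => by split_ifs <;> norm_num) i
  simpa [FM.pt] using this

theorem Prob.H_le_Sh (h : ν.Prob) {r : ℝ} (hr : 0 < r) : ν.H r ≤ ν.Sh := by
  rw [h.H_atom hr]
  refine ν.ev_mono' (fun i hi => ?_)
  have hq : 0 < ν.q i := lt_of_le_of_ne (ν.q_nonneg i) (Ne.symm hi)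
  rw [← integral_k_one_const (-Real.log (ν.pt (ν.x i)))]
  refine integral_k_one_le (h.integrable_atom _ _) ((integrable_k 1).mul_const _) (fun u hu => ?_)
  refine neg_le_neg (Real.log_le_log (hq.trans_le (ν.q_le_pt i)) ?_)
  refine ν.ev_mono (fun y => ?_)
  split_ifs with hy
  · rw [k_of_lt]
    rw [hy, add_sub_cancel_left, abs_mul, abs_of_pos hr]
    nlinarith
  · exact k_nonneg _ _

theorem Prob.Sh_le_H (h : ν.Prob) : ∃ δ, 0 < δ ∧ ∀ r, 0 < r → r ≤ δ → ν.Sh ≤ ν.H r := by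
  have hδ : ∃ δ, 0 < δ ∧ ∀ i j, ν.x i ≠ ν.x j → δ ≤ |ν.x i - ν.x j| := by
    have : ∀ᶠ δ in nhdsWithin (0 : ℝ) (Ioi 0), ∀ p : ν.ι × ν.ι,
        ν.x p.1 ≠ ν.x p.2 → δ ≤ |ν.x p.1 - ν.x p.2| := by
      rw [Filter.eventually_all]
      intro p
      by_cases hp : ν.x p.1 = ν.x p.2
      · exact Filter.Eventually.of_forall (fun _ h => (h hp).elim)
      · have h0 : 0 < |ν.x p.1 - ν.x p.2| := abs_pos.2 (sub_ne_zero.2 hp)
        filter_upwards [Ioo_mem_nhdsGT h0] with δ hδ _ using hδ.2.le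
    obtain ⟨δ, h1, h2⟩ := (this.and self_mem_nhdsWithin).exists
    exact ⟨δ, h2, fun i j => h1 (i, j)⟩
  obtain ⟨δ, hδ0, hδ⟩ := hδ
  refine ⟨δ, hδ0, fun r hr hrδ => ?_⟩
  rw [h.H_atom hr]
  refine ν.ev_mono' (fun i hi => ?_)
  have hq : 0 < ν.q i := lt_of_le_of_ne (ν.q_nonneg i) (Ne.symm hi)
  rw [← integral_k_one_const (-Real.log (ν.pt (ν.x i)))]
  refine integral_k_one_le ((integrable_k 1).mul_const _) (h.integrable_atom _ _) (fun u hu => ?_)
  refine neg_le_neg (Real.log_le_log (hq.trans_le (ν.q_le_m_atom hr i hu)) ?_)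
  refine ν.ev_mono' (fun j _ => ?_)
  split_ifs with hy
  · exact k_le_one _ _
  · rw [k, if_neg]
    intro hlt
    have h1 := hδ j i hy
    have h2 : |r * u| < r / 2 := by rw [abs_mul, abs_of_pos hr]; nlinarith
    have e : ν.x j - ν.x i = r * u - (ν.x i + r * u - ν.x j) := by ring
    have h3 : |ν.x j - ν.x i| ≤ |r * u| + |ν.x i + r * u - ν.x j| := by
      rw [e]; exact abs_sub _ _
    linarith

theorem Prob.Sh_le_log_card {α : Type} {ν : FM.{u} α} (h : ν.Prob) (T : Finset α)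
    (hT : ∀ i, ν.q i ≠ 0 → ν.x i ∈ T) : ν.Sh ≤ Real.log T.card := by
  classical
  have hne : T.Nonempty := by
    have : ∑ i, ν.q i ≠ 0 := by rw [h]; norm_num
    obtain ⟨i, -, hi⟩ := Finset.exists_ne_zero_of_sum_ne_zero this
    exact ⟨_, hT i hi⟩
  have hc : (0 : ℝ) < T.card := by exact_mod_cast hne.card_pos
  have h1 : ν.ev (fun y => (ν.pt y)⁻¹) ≤ T.card := by
    calc ν.ev (fun y => (ν.pt y)⁻¹)
        = ν.ev (fun y => ∑ v ∈ T, (ν.pt v)⁻¹ * if y = v then 1 else 0) := by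
          refine ν.ev_congr' (fun i hi => ?_)
          simp only [mul_ite, mul_one, mul_zero]
          rw [Finset.sum_ite_eq, if_pos (hT i hi)]
      _ = ∑ v ∈ T, (ν.pt v)⁻¹ * ν.pt v := by
          rw [ev_sum]
          refine Finset.sum_congr rfl (fun v _ => ?_)
          rw [ev_const_mul]
          congr 1
      _ ≤ ∑ v ∈ T, (1 : ℝ) := Finset.sum_le_sum (fun v _ => by
          by_cases hv : ν.pt v = 0
          · simp [hv]
          · rw [inv_mul_cancel₀ hv])
      _ = T.card := by simp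
  calc ν.Sh ≤ ν.ev (fun y => Real.log T.card + ((T.card : ℝ)⁻¹ * (ν.pt y)⁻¹ - 1)) := by
        refine ν.ev_mono' (fun i hi => ?_)
        have hq : 0 < ν.q i := lt_of_le_of_ne (ν.q_nonneg i) (Ne.symm hi)
        have hp : 0 < ν.pt (ν.x i) := hq.trans_le (ν.q_le_pt i)
        have := Real.log_le_sub_one_of_pos (x := (T.card : ℝ)⁻¹ * (ν.pt (ν.x i))⁻¹) (by positivity)
        rw [Real.log_mul (by positivity) (by positivity), Real.log_inv, Real.log_inv] at this
        linarith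
    _ = Real.log T.card + ((T.card : ℝ)⁻¹ * ν.ev (fun y => (ν.pt y)⁻¹) - 1) := by
        rw [ev_add, ev_sub, ev_const_mul, h.ev_const, h.ev_const]
    _ ≤ Real.log T.card := by
        have : (T.card : ℝ)⁻¹ * ν.ev (fun y => (ν.pt y)⁻¹) ≤ 1 := by
          rw [inv_mul_le_iff₀ hc]; linarith
        linarith

theorem Prob.H_conv_ge (hσ : σ.Prob) (h : ν.Prob) {r : ℝ} (hr : 0 < r) :
    ν.H r ≤ (σ.conv ν).H r := by
  unfold FM.H
  refine mul_le_mul_of_nonneg_left ?_ (by positivity)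
  have hi : ∀ y, Integrable (fun x => negMulLog (ν.m r (x - y))) :=
    fun y => (h.integrable_eta r).comp_sub_right y
  calc ∫ x, negMulLog (ν.m r x) = σ.ev (fun y => ∫ x, negMulLog (ν.m r (x - y))) := by
        simp only [integral_sub_right_eq_self (fun x => negMulLog (ν.m r x)), hσ.ev_const]
    _ = ∫ x, σ.ev (fun y => negMulLog (ν.m r (x - y))) :=
        (σ.integral_ev (F := fun y x => negMulLog (ν.m r (x - y))) hi).symm
    _ ≤ _ := by
        refine integral_mono (σ.integrable_ev (F := fun y x => negMulLog (ν.m r (x - y))) hi)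
          ((hσ.conv h).integrable_eta r) (fun x => ?_)
        simp only [m_conv]
        have := concaveOn_negMulLog.le_map_sum (t := Finset.univ) (w := σ.q)
          (p := fun i => ν.m r (x - σ.x i)) (fun i _ => σ.q_nonneg i) hσ
          (fun i _ => ν.m_nonneg _ _)
        simp only [smul_eq_mul] at this
        exact this

theorem integral_comp_m_scale {c : ℝ} (hc : c ≠ 0) (ν : FM.{u} ℝ) (r : ℝ) (Φ : ℝ → ℝ) :
    ∫ x, Φ ((ν.scale c).m (|c| * r) x) = |c| * ∫ x, Φ (ν.m r x) := by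
  have h1 := Measure.integral_comp_mul_left (fun x => Φ ((ν.scale c).m (|c| * r) x)) c
  simp only [m_scale hc] at h1
  have hc' : 0 < |c| := abs_pos.2 hc
  rw [h1, abs_inv, smul_eq_mul, ← mul_assoc, mul_inv_cancel₀ hc'.ne', one_mul]

theorem H_scale {c : ℝ} (hc : c ≠ 0) (ν : FM.{u} ℝ) (r : ℝ) :
    (ν.scale c).H (|c| * r) = ν.H r := by
  unfold FM.H
  rw [integral_comp_m_scale hc]
  have hc' : 0 < |c| := abs_pos.2 hc
  by_cases hr : r = 0
  · simp [hr]
  · field_simp

end FM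

end Vale.Agent.P114
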