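import Mathlib.MeasureTheory.Integral.Bochner.Set
import Mathlib.MeasureTheory.Measure.Lebesgue.Basic
import Mathlib.MeasureTheory.Measure.Haar.NormedSpace
import Mathlib.MeasureTheory.Group.Integral
import Mathlib.Analysis.SpecialFunctions.Log.NegMulLog

/-! Finitely supported measures given by weights and positions, and their window masses. -/

namespace Vale.Agent.P114

open MeasureTheory Set

universe u

/-- A finite family of weighted points. -/
structure FM (α : Type) where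
  ι : Type u
  fin : Fintype ι
  q : ι → ℝ
  x : ι → α
  q_nonneg : ∀ i, 0 ≤ q i

instance FM.instFintype {α : Type} (ν : FM.{u} α) : Fintype ν.ι := ν.fin

namespace FM

variable {α β : Type}

/-- integral of `F` -/
def ev (ν : FM.{u} α) (F : α → ℝ) : ℝ := ∑ i, ν.q i * F (ν.x i)

/-- total mass one -/
def Prob (ν : FM.{u} α) : Prop := ∑ i, ν.q i = 1

/-- same integrals -/
def Eqv (ν ν' : FM.{u} α) : Prop := ∀ F, ν.ev F = ν'.ev F

def map (f : α → β) (ν : FM.{u} α) : FM.{u} β :=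
  ⟨ν.ι, ν.fin, ν.q, fun i => f (ν.x i), ν.q_nonneg⟩

def dirac (a : α) : FM.{u} α := ⟨PUnit, inferInstance, fun _ => 1, fun _ => a, fun _ => zero_le_one⟩

def conv (σ ν : FM.{u} ℝ) : FM.{u} ℝ :=
  ⟨σ.ι × ν.ι, inferInstance, fun p => σ.q p.1 * ν.q p.2, fun p => σ.x p.1 + ν.x p.2,
    fun _ => mul_nonneg (σ.q_nonneg _) (ν.q_nonneg _)⟩

def scale (c : ℝ) (ν : FM.{u} ℝ) : FM.{u} ℝ := ν.map (fun y => c * y)

@[simp] theorem ev_map (f : α → β) (ν : FM.{u} α) (F : β → ℝ) :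
    (ν.map f).ev F = ν.ev (fun a => F (f a)) := rfl

@[simp] theorem ev_scale (c : ℝ) (ν : FM.{u} ℝ) (F : ℝ → ℝ) :
    (ν.scale c).ev F = ν.ev (fun a => F (c * a)) := rfl

@[simp] theorem ev_dirac (a : α) (F : α → ℝ) : (dirac.{u} a).ev F = F a := by
  unfold ev
  rw [show (∑ i : (dirac.{u} a).ι, (dirac.{u} a).q i * F ((dirac.{u} a).x i)) =
    ∑ _i : PUnit.{u + 1}, 1 * F a from rfl]
  simp

theorem ev_conv (σ ν : FM.{u} ℝ) (F : ℝ → ℝ) :
    (σ.conv ν).ev F = σ.ev (fun y => ν.ev (fun y' => F (y + y'))) := by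
  unfold ev
  rw [show (∑ i : (σ.conv ν).ι, (σ.conv ν).q i * F ((σ.conv ν).x i)) =
    ∑ p : σ.ι × ν.ι, σ.q p.1 * ν.q p.2 * F (σ.x p.1 + ν.x p.2) from rfl, Fintype.sum_prod_type]
  refine Finset.sum_congr rfl (fun i _ => ?_)
  rw [Finset.mul_sum]
  exact Finset.sum_congr rfl (fun j _ => by ring)

theorem prob_iff (ν : FM.{u} α) : ν.Prob ↔ ν.ev (fun _ => 1) = 1 := by
  simp [Prob, ev]

theorem ev_add (ν : FM.{u} α) (F G : α → ℝ) :
    ν.ev (fun a => F a + G a) = ν.ev F + ν.ev G := by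
  simp [ev, mul_add, Finset.sum_add_distrib]

theorem ev_sub (ν : FM.{u} α) (F G : α → ℝ) :
    ν.ev (fun a => F a - G a) = ν.ev F - ν.ev G := by
  simp [ev, mul_sub, Finset.sum_sub_distrib]

theorem ev_const_mul (ν : FM.{u} α) (c : ℝ) (F : α → ℝ) :
    ν.ev (fun a => c * F a) = c * ν.ev F := by
  simp only [ev, Finset.mul_sum]
  exact Finset.sum_congr rfl (fun i _ => by ring)

theorem ev_mul_const (ν : FM.{u} α) (c : ℝ) (F : α → ℝ) :
    ν.ev (fun a => F a * c) = ν.ev F * c := by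
  simp only [ev, Finset.sum_mul]
  exact Finset.sum_congr rfl (fun i _ => by ring)

theorem Prob.ev_const {ν : FM.{u} α} (h : ν.Prob) (c : ℝ) : ν.ev (fun _ => c) = c := by
  unfold Prob at h
  simp only [ev, ← Finset.sum_mul, h, one_mul]

theorem ev_sum {κ : Type*} (ν : FM.{u} α) (s : Finset κ) (F : κ → α → ℝ) :
    ν.ev (fun a => ∑ j ∈ s, F j a) = ∑ j ∈ s, ν.ev (F j) := by
  simp only [ev, Finset.mul_sum]
  exact Finset.sum_comm

theorem ev_comm (ν : FM.{u} α) (σ : FM.{u} β) (F : α → β → ℝ) :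
    ν.ev (fun a => σ.ev (fun b => F a b)) = σ.ev (fun b => ν.ev (fun a => F a b)) := by
  simp only [ev, Finset.mul_sum]
  rw [Finset.sum_comm]
  exact Finset.sum_congr rfl (fun i _ => Finset.sum_congr rfl (fun j _ => by ring))

theorem ev_mono' (ν : FM.{u} α) {F G : α → ℝ} (h : ∀ i, ν.q i ≠ 0 → F (ν.x i) ≤ G (ν.x i)) :
    ν.ev F ≤ ν.ev G := by
  refine Finset.sum_le_sum (fun i _ => ?_)
  by_cases hi : ν.q i = 0
  · simp [hi]
  · exact mul_le_mul_of_nonneg_left (h i hi) (ν.q_nonneg i)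

theorem ev_mono (ν : FM.{u} α) {F G : α → ℝ} (h : ∀ a, F a ≤ G a) : ν.ev F ≤ ν.ev G :=
  ν.ev_mono' (fun _ _ => h _)

theorem ev_nonneg (ν : FM.{u} α) {F : α → ℝ} (h : ∀ a, 0 ≤ F a) : 0 ≤ ν.ev F :=
  Finset.sum_nonneg (fun i _ => mul_nonneg (ν.q_nonneg i) (h _))

theorem ev_congr' (ν : FM.{u} α) {F G : α → ℝ} (h : ∀ i, ν.q i ≠ 0 → F (ν.x i) = G (ν.x i)) :
    ν.ev F = ν.ev G :=
  le_antisymm (ν.ev_mono' (fun i hi => (h i hi).le)) (ν.ev_mono' (fun i hi => (h i hi).ge))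

theorem Prob.ev_le {ν : FM.{u} α} (h : ν.Prob) {F : α → ℝ} {c : ℝ}
    (hF : ∀ i, ν.q i ≠ 0 → F (ν.x i) ≤ c) : ν.ev F ≤ c :=
  (ν.ev_mono' (G := fun _ => c) hF).trans (h.ev_const c).le

theorem single_le_ev (ν : FM.{u} α) {F : α → ℝ} (h : ∀ a, 0 ≤ F a) (i : ν.ι) :
    ν.q i * F (ν.x i) ≤ ν.ev F :=
  Finset.single_le_sum (f := fun i => ν.q i * F (ν.x i))
    (fun j _ => mul_nonneg (ν.q_nonneg j) (h _)) (Finset.mem_univ i)

theorem abs_ev_le (ν : FM.{u} α) (F : α → ℝ) : |ν.ev F| ≤ ν.ev (fun a => |F a|) := by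
  refine (Finset.abs_sum_le_sum_abs _ _).trans (le_of_eq ?_)
  exact Finset.sum_congr rfl (fun i _ => by rw [abs_mul, abs_of_nonneg (ν.q_nonneg i)])

theorem Prob.q_le_one {ν : FM.{u} α} (h : ν.Prob) (i : ν.ι) : ν.q i ≤ 1 := by
  have := Finset.single_le_sum (f := ν.q) (fun j _ => ν.q_nonneg j) (Finset.mem_univ i)
  unfold Prob at h
  linarith

theorem prob_dirac (a : α) : (dirac.{u} a).Prob := by rw [prob_iff]; simp

theorem Prob.map {ν : FM.{u} α} (h : ν.Prob) (f : α → β) : (ν.map f).Prob := h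

theorem Prob.scale {ν : FM.{u} ℝ} (h : ν.Prob) (c : ℝ) : (ν.scale c).Prob := h

theorem Prob.conv {σ ν : FM.{u} ℝ} (h : σ.Prob) (k : ν.Prob) : (σ.conv ν).Prob := by
  rw [prob_iff, ev_conv]; simp [k.ev_const, h.ev_const]

theorem integrable_ev (ν : FM.{u} α) {F : α → ℝ → ℝ} (h : ∀ a, Integrable (F a)) :
    Integrable (fun x => ν.ev (fun a => F a x)) :=
  integrable_finsetSum _ (fun _ _ => (h _).const_mul _)

theorem integral_ev (ν : FM.{u} α) {F : α → ℝ → ℝ} (h : ∀ a, Integrable (F a)) :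
    ∫ x, ν.ev (fun a => F a x) = ν.ev (fun a => ∫ x, F a x) := by
  unfold ev
  rw [integral_finsetSum _ (fun i _ => (h _).const_mul _)]
  exact Finset.sum_congr rfl (fun i _ => integral_const_mul _ _)

end FM

/-- indicator of the open window of length `r` centred at `0` -/
noncomputable def k (r d : ℝ) : ℝ := if |d| < r / 2 then 1 else 0

theorem k_nonneg (r d : ℝ) : 0 ≤ k r d := by unfold k; split_ifs <;> norm_num
theorem k_le_one (r d : ℝ) : k r d ≤ 1 := by unfold k; split_ifs <;> norm_num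
theorem k_of_lt {r d : ℝ} (h : |d| < r / 2) : k r d = 1 := if_pos h
theorem lt_of_k_ne {r d : ℝ} (h : k r d ≠ 0) : |d| < r / 2 := by
  by_contra h'; exact h (if_neg h')

theorem k_le_k {r d r' d' : ℝ} (h : |d| < r / 2 → |d'| < r' / 2) : k r d ≤ k r' d' := by
  by_cases h1 : |d| < r / 2
  · rw [k_of_lt h1, k_of_lt (h h1)]
  · rw [k, if_neg h1]; exact k_nonneg _ _

theorem k_eq_indicator (r : ℝ) : k r = indicator (Ioo (-(r / 2)) (r / 2)) (fun _ => (1 : ℝ)) := by
  funext d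
  simp only [k, indicator, mem_Ioo, abs_lt]

theorem measurable_k (r : ℝ) : Measurable (k r) := by
  rw [k_eq_indicator]; exact measurable_const.indicator measurableSet_Ioo

theorem integrable_k (r : ℝ) : Integrable (k r) := by
  rw [k_eq_indicator, integrable_indicator_iff measurableSet_Ioo]
  exact integrableOn_const (by simp)

theorem integral_k {r : ℝ} (hr : 0 ≤ r) : ∫ d, k r d = r := by
  rw [k_eq_indicator, integral_indicator measurableSet_Ioo]
  simp [hr]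

theorem integrable_k_sub (r y : ℝ) : Integrable (fun x => k r (x - y)) :=
  (integrable_k r).comp_sub_right y

theorem integral_k_sub {r : ℝ} (hr : 0 ≤ r) (y : ℝ) : ∫ x, k r (x - y) = r := by
  rw [integral_sub_right_eq_self (k r) y, integral_k hr]

theorem k_mul {c : ℝ} (hc : c ≠ 0) (r d : ℝ) : k (|c| * r) (c * d) = k r d := by
  have : 0 < |c| := abs_pos.2 hc
  unfold k
  rw [abs_mul, mul_div_assoc]
  simp only [mul_lt_mul_iff_right₀ this]

namespace FM

/-- mass of the open window of length `r` centred at `x` -/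
noncomputable def m (ν : FM.{u} ℝ) (r x : ℝ) : ℝ := ν.ev (fun y => k r (x - y))

theorem Eqv.m {ν ν' : FM.{u} ℝ} (h : ν.Eqv ν') : ν.m = ν'.m := by
  funext r x; exact h _

theorem m_nonneg (ν : FM.{u} ℝ) (r x : ℝ) : 0 ≤ ν.m r x := ν.ev_nonneg (fun _ => k_nonneg _ _)

theorem Prob.m_le_one {ν : FM.{u} ℝ} (h : ν.Prob) (r x : ℝ) : ν.m r x ≤ 1 :=
  h.ev_le (fun _ _ => k_le_one _ _)

theorem measurable_m (ν : FM.{u} ℝ) (r : ℝ) : Measurable (ν.m r) := by
  unfold FM.m ev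
  exact Finset.measurable_sum _ (fun i _ =>
    ((measurable_k r).comp (measurable_id.sub_const _)).const_mul _)

theorem integrable_m (ν : FM.{u} ℝ) (r : ℝ) : Integrable (ν.m r) :=
  ν.integrable_ev (F := fun y x => k r (x - y)) (fun y => integrable_k_sub r y)

theorem Prob.integral_m {ν : FM.{u} ℝ} (h : ν.Prob) {r : ℝ} (hr : 0 ≤ r) : ∫ x, ν.m r x = r := by
  unfold FM.m
  rw [ν.integral_ev (F := fun y x => k r (x - y)) (fun y => integrable_k_sub r y)]
  simp only [integral_k_sub hr, h.ev_const]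

theorem m_conv (σ ν : FM.{u} ℝ) (r x : ℝ) :
    (σ.conv ν).m r x = σ.ev (fun y => ν.m r (x - y)) := by
  unfold FM.m
  rw [ev_conv]
  simp only [sub_sub]

theorem m_scale {c : ℝ} (hc : c ≠ 0) (ν : FM.{u} ℝ) (r x : ℝ) :
    (ν.scale c).m (|c| * r) (c * x) = ν.m r x := by
  unfold FM.m
  rw [ev_scale]
  simp only [← mul_sub, k_mul hc]

theorem q_le_m (ν : FM.{u} ℝ) {r x : ℝ} {i : ν.ι} (h : |x - ν.x i| < r / 2) : ν.q i ≤ ν.m r x := by
  have := ν.single_le_ev (F := fun y => k r (x - y)) (fun _ => k_nonneg _ _) i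
  rwa [k_of_lt h, mul_one] at this

theorem m_le_m (ν : FM.{u} ℝ) {r x r' x' : ℝ}
    (h : ∀ y, |x - y| < r / 2 → |x' - y| < r' / 2) : ν.m r x ≤ ν.m r' x' :=
  ν.ev_mono (fun y => k_le_k (h y))

theorem exists_of_m_ne (ν : FM.{u} ℝ) {r x : ℝ} (h : ν.m r x ≠ 0) :
    ∃ i, ν.q i ≠ 0 ∧ |x - ν.x i| < r / 2 := by
  obtain ⟨i, -, hi⟩ := Finset.exists_ne_zero_of_sum_ne_zero h
  exact ⟨i, left_ne_zero_of_mul hi, lt_of_k_ne (right_ne_zero_of_mul hi)⟩

/-- functions of the window mass vanishing at zero are integrable -/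
theorem Prob.integrable_comp {ν : FM.{u} ℝ} (h : ν.Prob) (r : ℝ) {Φ : ℝ → ℝ} (hΦ : Measurable Φ)
    (h0 : Φ 0 = 0) {C : ℝ} (hC : ∀ t, 0 ≤ t → t ≤ 1 → |Φ t| ≤ C) :
    Integrable (fun x => Φ (ν.m r x)) := by
  have hC0 : 0 ≤ C := (abs_nonneg _).trans (hC 0 le_rfl zero_le_one)
  have hint : Integrable (fun x => C * ∑ i, k r (x - ν.x i)) :=
    (integrable_finsetSum _ (fun i _ => integrable_k_sub r _)).const_mul C
  refine hint.mono' (hΦ.comp (ν.measurable_m r)).aestronglyMeasurable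
    (Filter.Eventually.of_forall (fun x => ?_))
  rw [Real.norm_eq_abs]
  by_cases hx : ν.m r x = 0
  · rw [hx, h0, abs_zero]
    exact mul_nonneg hC0 (Finset.sum_nonneg (fun i _ => k_nonneg _ _))
  · obtain ⟨i, -, hi⟩ := ν.exists_of_m_ne hx
    have h1 : (1 : ℝ) ≤ ∑ i, k r (x - ν.x i) := by
      have := Finset.single_le_sum (f := fun i => k r (x - ν.x i)) (fun j _ => k_nonneg _ _)
        (Finset.mem_univ i)
      rwa [k_of_lt hi] at this
    calc |Φ (ν.m r x)| ≤ C := hC _ (ν.m_nonneg _ _) (h.m_le_one _ _)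
      _ ≤ _ := le_mul_of_one_le_right hC0 h1

/-- a window splits into its two halves, away from the atoms -/
theorem m_split (ν : FM.{u} ℝ) (r : ℝ) (_hr : 0 < r) :
    ∀ᵐ x, ν.m (2 * r) x = ν.m r (x - r / 2) + ν.m r (x + r / 2) := by
  have h0 : (volume : Measure ℝ) (range ν.x) = 0 := (finite_range ν.x).measure_zero _
  have : ∀ᵐ x ∂(volume : Measure ℝ), x ∉ range ν.x := measure_eq_zero_iff_ae_notMem.1 h0
  filter_upwards [this] with x hx
  unfold FM.m
  rw [← ev_add]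
  refine ν.ev_congr' (fun i _ => ?_)
  have hne : x - ν.x i ≠ 0 := fun e => hx ⟨i, by linarith⟩
  generalize hd : x - ν.x i = d at hne
  have e1 : x - r / 2 - ν.x i = d - r / 2 := by linarith
  have e2 : x + r / 2 - ν.x i = d + r / 2 := by linarith
  rw [e1, e2]
  unfold k
  simp only [abs_lt]
  rcases lt_or_gt_of_ne hne with hd | hd
  · by_cases h1 : -r < d
    · rw [if_pos ⟨by linarith, by linarith⟩, if_neg (by rintro ⟨a, b⟩; linarith),
        if_pos ⟨by linarith, by linarith⟩]; norm_num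
    · rw [if_neg (by rintro ⟨a, b⟩; linarith), if_neg (by rintro ⟨a, b⟩; linarith),
        if_neg (by rintro ⟨a, b⟩; linarith)]; norm_num
  · by_cases h1 : d < r
    · rw [if_pos ⟨by linarith, by linarith⟩, if_pos ⟨by linarith, by linarith⟩,
        if_neg (by rintro ⟨a, b⟩; linarith)]; norm_num
    · rw [if_neg (by rintro ⟨a, b⟩; linarith), if_neg (by rintro ⟨a, b⟩; linarith),
        if_neg (by rintro ⟨a, b⟩; linarith)]; norm_num

end FM

end Vale.Agent.P114
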