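import Vale.Agent.P114.Moment
import Mathlib.Topology.MetricSpace.HausdorffDimension
import Mathlib.MeasureTheory.OuterMeasure.BorelCantelli
import Mathlib.MeasureTheory.Function.Floor

/-! From the good and bad splitting to a lower bound for the Hausdorff dimension. -/

namespace Vale.Agent.P114

open MeasureTheory Set Filter Topology
open scoped ENNReal NNReal

universe u

/-- grid cell -/
def cell (r : ℝ) (n : ℤ) : Set ℝ := {x | ⌊x / r⌋ = n}

theorem measurableSet_cell (r : ℝ) (n : ℤ) : MeasurableSet (cell r n) :=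
  (Int.measurable_floor.comp (measurable_id.div_const r)) (measurableSet_singleton n)

theorem abs_sub_le_of_mem_cell {r x : ℝ} {n : ℤ} (hr : 0 < r) (h : x ∈ cell r n) :
    |x - n * r| ≤ r := by
  have h : ⌊x / r⌋ = n := h
  rw [Int.floor_eq_iff, le_div_iff₀ hr, div_lt_iff₀ hr] at h
  rw [abs_le]; constructor <;> linarith [h.1, h.2]

theorem subset_three {r x y : ℝ} (hr : 0 < r) (h : |y - x| ≤ r) :
    y ∈ cell r (⌊x / r⌋ - 1) ∪ cell r ⌊x / r⌋ ∪ cell r (⌊x / r⌋ + 1) := by
  rw [abs_le] at h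
  have h1 : x / r - 1 ≤ y / r := by
    rw [le_div_iff₀ hr, sub_mul, div_mul_cancel₀ _ hr.ne']; linarith [h.1]
  have h2 : y / r ≤ x / r + 1 := by
    rw [div_le_iff₀ hr, add_mul, div_mul_cancel₀ _ hr.ne']; linarith [h.2]
  have h3 := Int.floor_mono h1
  have h4 := Int.floor_mono h2
  rw [Int.floor_sub_one] at h3
  rw [Int.floor_add_one] at h4
  simp only [cell, mem_union, mem_setOf_eq]
  omega

theorem frostman (μ : Measure ℝ) [IsFiniteMeasure μ] {ρ τ β C : ℝ} (hρ0 : 0 < ρ) (hρ1 : ρ < 1)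
    {s : ℝ≥0} (hs : 0 < s) (hτ0 : 0 ≤ τ) (hτ : τ ≤ ρ ^ (s : ℝ)) (hβ0 : 0 ≤ β) (hβ1 : β < 1)
    (H : ∀ (j : ℕ) (T : Finset ℤ),
      ∑ n ∈ T, μ.real (cell (ρ ^ j) n) ≤ T.card * τ ^ j + C * β ^ j)
    {E : Set ℝ} (hE : μ E ≠ 0) : (s : ℝ≥0∞) ≤ dimH E := by
  set Hv : ℕ → Set ℝ := fun j => ⋃ n ∈ {n | 2 * τ ^ j < μ.real (cell (ρ ^ j) n)}, cell (ρ ^ j) n
    with hHv
  have hm : ∀ j, MeasurableSet (Hv j) := fun j =>
    MeasurableSet.biUnion (to_countable _) (fun n _ => measurableSet_cell _ _)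
  have h1 : ∀ j, μ (Hv j) ≤ ENNReal.ofReal (2 * C * β ^ j) := by
    intro j
    refine (measure_biUnion_le μ (to_countable _) _).trans ?_
    rw [ENNReal.tsum_eq_iSup_sum]
    refine iSup_le (fun t => ?_)
    have h2 := H j (t.map (Function.Embedding.subtype _))
    rw [Finset.sum_map, Finset.card_map] at h2
    have h3 := Finset.card_nsmul_le_sum t (fun p => μ.real (cell (ρ ^ j) p.1)) (2 * τ ^ j)
      (fun p _ => le_of_lt p.2)
    rw [nsmul_eq_mul] at h3
    simp only [Function.Embedding.coe_subtype] at h2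
    calc ∑ p ∈ t, μ (cell (ρ ^ j) p.1)
        = ENNReal.ofReal (∑ p ∈ t, μ.real (cell (ρ ^ j) p.1)) := by
          rw [ENNReal.ofReal_sum_of_nonneg (fun _ _ => measureReal_nonneg)]
          exact Finset.sum_congr rfl (fun p _ => (ofReal_measureReal).symm)
      _ ≤ _ := ENNReal.ofReal_le_ofReal (by linarith)
  have h2 : ∑' j, μ (Hv j) ≠ ∞ :=
    ne_top_of_le_ne_top ((summable_geometric_of_lt_one hβ0 hβ1).mul_left
      (2 * C)).tsum_ofReal_ne_top (ENNReal.tsum_le_tsum h1)
  set G : ℕ → Set ℝ := fun j₀ => ⋂ j, ⋂ (_ : j₀ ≤ j), (Hv j)ᶜ with hG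
  have hGm : ∀ j₀, MeasurableSet (G j₀) := fun j₀ =>
    MeasurableSet.iInter (fun j => MeasurableSet.iInter (fun _ => (hm j).compl))
  obtain ⟨j₀, hj₀⟩ : ∃ j₀, μ (E ∩ G j₀) ≠ 0 := by
    by_contra hcon
    simp only [not_exists, not_not] at hcon
    have h3 := ae_eventually_notMem h2
    rw [ae_iff] at h3
    refine hE (measure_mono_null ?_ (measure_union_null (measure_iUnion_null hcon) h3))
    intro x hx
    by_cases hx' : ∀ᶠ n in atTop, x ∉ Hv n
    · obtain ⟨j₀, hj₀⟩ := eventually_atTop.1 hx'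
      exact Or.inl (mem_iUnion.2 ⟨j₀, hx, mem_iInter₂.2 hj₀⟩)
    · exact Or.inr hx'
  have h4 : ∀ j, j₀ ≤ j → ∀ n, μ.real (cell (ρ ^ j) n ∩ G j₀) ≤ 2 * τ ^ j := by
    intro j hj n
    by_cases hn : 2 * τ ^ j < μ.real (cell (ρ ^ j) n)
    · have : cell (ρ ^ j) n ∩ G j₀ = ∅ := by
        refine eq_empty_of_forall_notMem (fun x hx => ?_)
        exact mem_iInter₂.1 hx.2 j hj (mem_biUnion (show n ∈ {n | 2 * τ ^ j <
          μ.real (cell (ρ ^ j) n)} from hn) hx.1)
      rw [this, measureReal_empty]; positivity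
    · exact (measureReal_mono inter_subset_left).trans (not_lt.1 hn)
  have h5 : ∀ j, j₀ ≤ j → ∀ S : Set ℝ, Metric.ediam S ≤ ENNReal.ofReal (ρ ^ j) →
      μ.real (S ∩ G j₀) ≤ 6 * τ ^ j := by
    intro j hj S hS
    rcases S.eq_empty_or_nonempty with rfl | ⟨x, hx⟩
    · rw [empty_inter, measureReal_empty]; positivity
    · have hr : 0 < ρ ^ j := by positivity
      have hsub : S ∩ G j₀ ⊆ (cell (ρ ^ j) (⌊x / ρ ^ j⌋ - 1) ∩ G j₀) ∪
          (cell (ρ ^ j) ⌊x / ρ ^ j⌋ ∩ G j₀) ∪ (cell (ρ ^ j) (⌊x / ρ ^ j⌋ + 1) ∩ G j₀) := by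
        rw [← union_inter_distrib_right, ← union_inter_distrib_right]
        refine inter_subset_inter_left _ (fun y hy => subset_three hr ?_)
        have := Metric.edist_le_of_ediam_le hy hx hS
        rwa [edist_dist, ENNReal.ofReal_le_ofReal_iff hr.le, Real.dist_eq] at this
      have a1 := measureReal_mono (μ := μ) hsub
      have a2 := measureReal_union_le (μ := μ) ((cell (ρ ^ j) (⌊x / ρ ^ j⌋ - 1) ∩ G j₀) ∪
          (cell (ρ ^ j) ⌊x / ρ ^ j⌋ ∩ G j₀)) (cell (ρ ^ j) (⌊x / ρ ^ j⌋ + 1) ∩ G j₀)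
      have a3 := measureReal_union_le (μ := μ) (cell (ρ ^ j) (⌊x / ρ ^ j⌋ - 1) ∩ G j₀)
          (cell (ρ ^ j) ⌊x / ρ ^ j⌋ ∩ G j₀)
      linarith [h4 j hj (⌊x / ρ ^ j⌋ - 1), h4 j hj ⌊x / ρ ^ j⌋, h4 j hj (⌊x / ρ ^ j⌋ + 1)]
  have hs' : (0 : ℝ) < s := hs
  have hρs : 0 < ρ ^ (s : ℝ) := Real.rpow_pos_of_pos hρ0 _
  have hτ1 : τ < 1 := hτ.trans_lt (Real.rpow_lt_one hρ0.le hρ1 hs')
  have h6 := Measure.le_hausdorffMeasure (s : ℝ)
    (ENNReal.ofReal (ρ ^ (s : ℝ) / 6) • μ.restrict (G j₀)) (ENNReal.ofReal (ρ ^ j₀))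
    (ENNReal.ofReal_pos.2 (by positivity)) (fun S hS => by
      rw [Measure.smul_apply, Measure.restrict_apply' (hGm j₀), smul_eq_mul,
        ← ofReal_measureReal (μ := μ) (s := S ∩ G j₀), ← ENNReal.ofReal_mul (by positivity)]
      have hne : Metric.ediam S ≠ ∞ := ne_top_of_le_ne_top ENNReal.ofReal_ne_top hS
      obtain ⟨δ, hδ⟩ : ∃ δ : ℝ, 0 ≤ δ ∧ Metric.ediam S = ENNReal.ofReal δ :=
        ⟨_, ENNReal.toReal_nonneg, (ENNReal.ofReal_toReal hne).symm⟩
      obtain ⟨hδ0, hδ⟩ := hδ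
      rw [hδ, ENNReal.ofReal_rpow_of_nonneg hδ0 hs'.le]
      refine ENNReal.ofReal_le_ofReal ?_
      rcases hδ0.eq_or_lt with h0 | h0
      · have h7 : μ.real (S ∩ G j₀) ≤ 6 * 0 := by
          refine ge_of_tendsto ((tendsto_pow_atTop_nhds_zero_of_lt_one hτ0 hτ1).const_mul 6) ?_
          filter_upwards [eventually_ge_atTop j₀] with j hj
          refine h5 j hj S ?_
          rw [hδ, ← h0]
          exact ENNReal.ofReal_le_ofReal (by positivity)
        have h8 : 0 ≤ δ ^ (s : ℝ) := Real.rpow_nonneg hδ0 _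
        nlinarith
      · rw [hδ, ENNReal.ofReal_le_ofReal_iff (by positivity)] at hS
        obtain ⟨j, hj1, hj2⟩ := exists_nat_pow_near_of_lt_one h0
          (hS.trans (pow_le_one₀ hρ0.le hρ1.le)) hρ0 hρ1
        have hj : j₀ ≤ j := by
          have := (pow_lt_pow_iff_right_of_lt_one₀ hρ0 hρ1).1 (hj1.trans_le hS)
          omega
        have h7 := h5 j hj S (by rw [hδ]; exact ENNReal.ofReal_le_ofReal hj2)
        have h8 : τ ^ j ≤ (ρ ^ (s : ℝ)) ^ j := pow_le_pow_left₀ hτ0 hτ j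
        have h9 : (ρ ^ (s : ℝ)) ^ (j + 1) ≤ δ ^ (s : ℝ) := by
          rw [← Real.rpow_natCast, ← Real.rpow_mul hρ0.le, mul_comm, Real.rpow_mul hρ0.le,
            Real.rpow_natCast]
          exact Real.rpow_le_rpow (by positivity) hj1.le hs'.le
        rw [pow_succ] at h9
        nlinarith)
  refine le_dimH_of_hausdorffMeasure_ne_zero (fun h0 => ?_)
  have h7 := Measure.le_iff'.1 h6 E
  rw [h0, Measure.smul_apply, Measure.restrict_apply' (hGm j₀), smul_eq_mul, nonpos_iff_eq_zero,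
    mul_eq_zero] at h7
  rcases h7 with h7 | h7
  · rw [ENNReal.ofReal_eq_zero] at h7
    linarith
  · exact hj₀ h7

namespace Model

variable (M : Model.{u})

/-- iterated self-similarity -/
def SS (μ : Measure ℝ) : Prop := ∀ (n : ℕ) (S : Set ℝ), MeasurableSet S →
  μ.real S = M.E n (fun l => (M.ζ l).ev (fun z => μ.real {u | (u + z) / M.κ l ∈ S}))

theorem κ_ge {g : ℝ} (hg0 : 0 ≤ g) (hg : ∀ ω, g ≤ |(M.lam ω)⁻¹|) (l : List M.Ω) :
    g ^ l.length ≤ |M.κ l| := by
  induction l with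
  | nil => simp [κ]
  | cons ω l ih =>
    rw [κ, abs_mul, List.length_cons, pow_succ']
    exact mul_le_mul (hg ω) ih (by positivity) (abs_nonneg _)

theorem supp {μ : Measure ℝ} [IsProbabilityMeasure μ] (hS : M.SS μ) {D : ℝ}
    (hD : ∀ ω i, |(M.σ ω).x i| ≤ D * (1 - |M.lam ω|)) (hD0 : 0 ≤ D) :
    μ.real {u | D + 1 < |u|} = 0 := by
  obtain ⟨g, hg1, hg⟩ := M.exists_g
  have hm : ∀ t : ℝ, MeasurableSet {u : ℝ | t < |u|} := fun t =>
    measurableSet_lt measurable_const continuous_abs.measurable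
  have h1 : ∀ n : ℕ, μ.real {u | D + 1 < |u|} ≤ μ.real {u | g ^ n < |u|} := by
    intro n
    rw [hS n _ (hm _)]
    refine M.E_le (fun l hl => (M.ζ_prob l).ev_le (fun i _ => measureReal_mono (fun u hu => ?_)))
    have hu : D + 1 < |(u + (M.ζ l).x i) / M.κ l| := hu
    have h2 := M.κ_ge (by linarith) hg l
    have h3 := M.ζ_bound hD l i
    have h4 := M.one_le_κ l
    rw [abs_div, lt_div_iff₀ (by linarith)] at hu
    have h5 := abs_add_le u ((M.ζ l).x i)
    rw [hl] at h2
    show g ^ n < |u|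
    nlinarith
  have h2 := tendsto_measure_iInter_atTop (μ := μ) (s := fun n : ℕ => {u : ℝ | g ^ n < |u|})
    (fun n => (hm _).nullMeasurableSet)
    (fun a b hab u hu => lt_of_le_of_lt (pow_le_pow_right₀ hg1.le hab) hu) ⟨0, measure_ne_top _ _⟩
  have h3 : (⋂ n : ℕ, {u : ℝ | g ^ n < |u|}) = ∅ := by
    refine eq_empty_of_forall_notMem (fun u hu => ?_)
    obtain ⟨n, hn⟩ := pow_unbounded_of_one_lt |u| hg1
    exact lt_asymm hn (mem_iInter.1 hu n)
  rw [h3, measure_empty] at h2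
  have h4 := (ENNReal.tendsto_toReal ENNReal.zero_ne_top).comp h2
  exact le_antisymm (ge_of_tendsto' h4 h1) measureReal_nonneg

theorem lower_aux {μ : Measure ℝ} [IsProbabilityMeasure μ] (hS : M.SS μ) {h : ℝ}
    (hh : ∀ m : ℕ, h * m ≤ M.E m (fun l => (M.ζ l).Sh)) {η : ℝ} (hη : 0 < η) {s : ℝ≥0}
    (hs0 : 0 < s) (hs : s * (M.chi + η) ≤ min h M.chi - η) {E : Set ℝ} (hE : μ E ≠ 0) :
    (s : ℝ≥0∞) ≤ dimH E := by
  classical
  obtain ⟨D, hD0, hD⟩ := M.exists_D
  have hsupp := M.supp hS hD hD0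
  obtain ⟨L, hL, β, C, hβ0, hβ1, hbad⟩ := M.bad_small hh hη (4 * D + 9)
  have hL' : (0 : ℝ) < L := by exact_mod_cast hL
  have hc := M.chi_pos
  refine frostman μ (ρ := Real.exp (-((M.chi + η) * L)))
    (τ := Real.exp (-((min h M.chi - η) * L))) (C := C) (Real.exp_pos _)
    (Real.exp_lt_one_iff.2 (by
      have : 0 < (M.chi + η) * L := by positivity
      linarith)) hs0 (Real.exp_pos _).le ?_ hβ0 hβ1 (fun j T => ?_) hE
  · rw [← Real.exp_mul, Real.exp_le_exp]
    nlinarith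
  · set r : ℝ := Real.exp (-((M.chi + η) * L)) ^ j with hr
    set τ : ℝ := Real.exp (-((min h M.chi - η) * L)) ^ j with hτ
    have hr0 : 0 < r := by positivity
    have hτ0 : 0 < τ := by positivity
    have hra : Real.exp ((M.chi + η) * L) ^ j * r = 1 := by
      rw [hr, ← mul_pow, ← Real.exp_add]; simp
    refine le_trans ?_ (add_le_add le_rfl (hbad j))
    simp only [hS (j * L) _ (measurableSet_cell _ _)]
    rw [← E_sum, ← M.E_const (j * L) (T.card * τ), ← E_add]
    refine M.E_mono (fun l _ => ?_)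
    have hp := M.ζ_prob l
    set Gd : ℝ → Prop := fun z => |M.κ l| ≤ Real.exp ((M.chi + η) * L) ^ j ∧
      (M.ζ l).m (4 * D + 9) z ≤ τ with hGd
    rw [← FM.ev_sum]
    calc _ ≤ (M.ζ l).ev (fun z => (∑ n ∈ T, if Gd z ∧ |z - M.κ l * (n * r)| ≤ D + 2 then 1 else 0) +
          if Gd z then 0 else 1) := by
          refine FM.ev_mono _ (fun z => ?_)
          by_cases hz : Gd z
          · rw [if_pos hz, add_zero]
            refine Finset.sum_le_sum (fun n _ => ?_)
            split_ifs with hn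
            · exact measureReal_le_one
            · rw [← hsupp]
              refine measureReal_mono (fun u hu => ?_)
              have h1 := abs_sub_le_of_mem_cell hr0 (show (u + z) / M.κ l ∈ cell r n from hu)
              have h2 : D + 2 < |z - M.κ l * (n * r)| := by
                by_contra h3; exact hn ⟨hz, not_lt.1 h3⟩
              have h3 : z - M.κ l * (n * r) = M.κ l * ((u + z) / M.κ l - n * r) - u := by
                have := M.κ_ne l
                field_simp; ring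
              have h4 := abs_sub (M.κ l * ((u + z) / M.κ l - n * r)) u
              have h5 : |M.κ l * ((u + z) / M.κ l - n * r)| ≤ 1 := by
                rw [abs_mul, ← hra]
                exact mul_le_mul hz.1 h1 (abs_nonneg _) (by positivity)
              show D + 1 < |u|
              rw [h3] at h2
              linarith
          · rw [if_neg hz]
            have h1 : ∑ n ∈ T, μ.real {u | (u + z) / M.κ l ∈ cell r n} ≤ μ.real univ := by
              refine sum_measureReal_le_measureReal_univ (fun n _ =>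
                ((measurable_id.add_const z).div_const _) (measurableSet_cell r n)) ?_
              intro a _ b _ hab
              refine Set.disjoint_left.2 (fun u hu hu' => hab ?_)
              exact (show ⌊(u + z) / M.κ l / r⌋ = a from hu).symm.trans hu'
            have h2 : (0 : ℝ) ≤ ∑ n ∈ T, if Gd z ∧ |z - M.κ l * (n * r)| ≤ D + 2 then 1 else 0 :=
              Finset.sum_nonneg (fun n _ => by split_ifs <;> norm_num)
            rw [probReal_univ] at h1
            linarith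
      _ ≤ _ := by
          rw [FM.ev_add, FM.ev_sum]
          refine add_le_add ?_ le_rfl
          rw [← nsmul_eq_mul]
          refine Finset.sum_le_card_nsmul _ _ _ (fun n _ => ?_)
          by_cases hex : ∃ z, Gd z ∧ |z - M.κ l * (n * r)| ≤ D + 2
          · obtain ⟨z₀, hz₀, hz₁⟩ := hex
            refine le_trans (FM.ev_mono _ (fun z => ?_)) hz₀.2
            split_ifs with hz
            · refine (k_of_lt ?_).ge
              have := abs_sub (z₀ - M.κ l * (n * r)) (z - M.κ l * (n * r))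
              rw [sub_sub_sub_cancel_right] at this
              linarith [hz.2]
            · exact k_nonneg _ _
          · refine hp.ev_le (fun i _ => ?_)
            rw [if_neg (fun h => hex ⟨_, h⟩)]
            exact hτ0.le

/-- lower bound for the dimension in the model -/
theorem lower {μ : Measure ℝ} [IsProbabilityMeasure μ] (hS : M.SS μ) {h : ℝ}
    (hh : ∀ m : ℕ, h * m ≤ M.E m (fun l => (M.ζ l).Sh)) {s : ℝ≥0}
    (hs : s * M.chi < min h M.chi) {E : Set ℝ} (hE : μ E ≠ 0) : (s : ℝ≥0∞) ≤ dimH E := by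
  rcases eq_zero_or_pos s with rfl | hs0
  · simp
  · have hs1 : (0 : ℝ) < s + 1 := by positivity
    refine M.lower_aux hS hh (η := (min h M.chi - s * M.chi) / (s + 1))
      (div_pos (by linarith) hs1) hs0 (le_of_eq ?_) hE
    field_simp
    ring

end Model

end Vale.Agent.P114
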