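import Vale.Agent.P114.Model

/-! Packing disjoint blocks of letters: the entropy at the natural scale grows at the rate
`min h χ`. -/

namespace Vale.Agent.P114

open MeasureTheory Set Real FM

universe u

namespace Model

variable (M : Model.{u})

/-- expected shift total variation -/
noncomputable def fT (N : ℕ) (y ρ z : ℝ) : ℝ := M.E N (fun l => ((M.ζ l).scale y).T ρ z)

/-- starting below `2ˢ`, any amount of variance up to `B` can be collected -/
def Chain (s : ℕ) (B : ℝ) : Prop :=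
  ∀ ρ K V₀ v : ℝ, 0 < ρ → 0 < K → 0 < V₀ → 0 ≤ v → v ≤ B → v ≤ V₀ →
    ∃ N₀, ∀ N, N₀ ≤ N → ∀ y, 1 ≤ |y| → |y| ≤ 2 ^ s → Good 1 ρ K V₀ v (M.fT N y ρ)

/-- expected normalised variance of a block of length `m` at scale `2⁻ˢ` -/
noncomputable def Γ (m s : ℕ) : ℝ := M.E m (fun l => (M.ζ l).Vf s)

theorem Γ_nonneg (m s : ℕ) : 0 ≤ M.Γ m s := M.E_nonneg (fun l _ => ((M.ζ_prob l).Vf_spec s).1)
theorem Γ_le_one (m s : ℕ) : M.Γ m s ≤ 1 := M.E_le (fun l _ => ((M.ζ_prob l).Vf_spec s).2.1)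

theorem fT_le_one (N : ℕ) (y : ℝ) {ρ : ℝ} (hρ : 0 < ρ) (z : ℝ) : M.fT N y ρ z ≤ 1 :=
  M.E_le (fun l _ => ((M.ζ_prob l).scale y).T_le_one hρ z)

theorem fT_le_div (N : ℕ) (y : ℝ) {ρ : ℝ} (hρ : 0 < ρ) (z : ℝ) (hz : 0 ≤ z) :
    M.fT N y ρ z ≤ z / ρ :=
  M.E_le (fun l _ => ((M.ζ_prob l).scale y).T_le_div hρ hz)

theorem chain_zero (s : ℕ) : M.Chain s 0 := by
  intro ρ K V₀ v hρ hK hV h0 h1 _
  obtain rfl : v = 0 := le_antisymm h1 h0
  exact ⟨0, fun N _ y _ _ => good_zero zero_le_one hρ hK hV (M.fT_le_one N y hρ)⟩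

variable {M}

theorem Chain.mono {s s' : ℕ} {B B' : ℝ} (h : M.Chain s' B) (hs : s ≤ s') (hB : B' ≤ B) :
    M.Chain s B' := by
  intro ρ K V₀ v hρ hK hV h0 h1 h2
  obtain ⟨N₀, hN⟩ := h ρ K V₀ v hρ hK hV h0 (h1.trans hB) h2
  exact ⟨N₀, fun N hN' y hy1 hy2 => hN N hN' y hy1
    (hy2.trans (pow_le_pow_right₀ one_le_two hs))⟩

theorem fT_skip (N : ℕ) (y : ℝ) {ρ : ℝ} (hρ : 0 < ρ) (z : ℝ) :
    M.fT (N + 1) y ρ z ≤ ∑ ω, M.P ω * M.fT N (y * (M.lam ω)⁻¹) ρ z := by
  unfold fT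
  rw [E_succ]
  refine Finset.sum_le_sum (fun ω _ => mul_le_mul_of_nonneg_left (M.E_mono (fun l _ => ?_))
    (M.P_pos ω).le)
  have := (M.ζ_append [ω] l y).T
  simp only [List.singleton_append, κ, mul_one] at this
  rw [this]
  exact ((M.ζ_prob [ω]).scale y).T_conv_le _ hρ z

theorem Chain.step {b : ℕ} (hb : ∀ ω, |(M.lam ω)⁻¹| ≤ 2 ^ b) {s m : ℕ} {B : ℝ} (hB : 0 ≤ B)
    (h : M.Chain (s + m * b) B) : M.Chain s (B + (1 / 4) ^ b * M.Γ m s) := by
  intro ρ K V₀ v hρ hK hV h0 h1 h2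
  set γ := (1 / 4 : ℝ) ^ b * M.Γ m s with hγ
  have hγ0 : 0 ≤ γ := mul_nonneg (by positivity) (M.Γ_nonneg m s)
  obtain ⟨N₁, hN₁⟩ := h ρ K V₀ (max 0 (v - γ)) hρ hK hV (le_max_left _ _)
    (max_le hB (by linarith)) (max_le hV.le (by linarith))
  have block : ∀ N, N₁ + m ≤ N → ∀ y : ℝ, 1 ≤ |y| → |y| ≤ 2 ^ s → 2 ^ s ≤ |y| * 2 ^ b →
      Good 1 ρ K V₀ v (M.fT N y ρ) := by
    intro N hN y hy1 hy2 hy3
    obtain ⟨N', rfl⟩ : ∃ N', N = m + N' := ⟨N - m, by omega⟩
    refine good_of_mid zero_le_one hρ hK hV h2 (M.fT_le_one _ y hρ) (M.fT_le_div _ y hρ)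
      (fun z hz1 hz2 => ?_)
    unfold fT
    rw [E_append]
    have hl : ∀ l₁ : List M.Ω, l₁.length = m →
        M.E N' (fun l₂ => ((M.ζ (l₁ ++ l₂)).scale y).T ρ z) ≤
          psi 1 ρ K V₀ (max 0 (v - γ)) z - ((1 / 4) ^ b / V₀) * (M.ζ l₁).Vf s := by
      intro l₁ hl₁
      have hsp := (M.ζ_prob l₁).Vf_spec s
      have hc : ((M.ζ l₁).scale y).Cpl 1 ((1 / 4) ^ b * (M.ζ l₁).Vf s) := by
        refine (hsp.2.2.1.scale y).mono ?_ ?_
        · rw [one_div, inv_pow, ← div_eq_mul_inv, div_le_one (by positivity)]; exact hy2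
        · have e1 : (1 / 2 : ℝ) ^ b ≤ |y| * (1 / 2) ^ s := by
            rw [one_div, inv_pow, inv_pow, ← div_eq_mul_inv, inv_eq_one_div,
              div_le_div_iff₀ (by positivity) (by positivity), one_mul]
            exact hy3
          have e2 : (1 / 4 : ℝ) ^ b = ((1 / 2) ^ b) ^ 2 := by
            rw [← pow_mul, mul_comm, pow_mul]; norm_num
          have e3 : ((1 / 2 : ℝ) ^ b) ^ 2 ≤ (|y| * (1 / 2) ^ s) ^ 2 :=
            pow_le_pow_left₀ (by positivity) e1 2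
          rw [mul_pow, sq_abs] at e3
          rw [e2]
          have := mul_le_mul_of_nonneg_right e3 hsp.1
          linarith
      obtain ⟨W, hW, hWv⟩ := hc
      have hy' : |y * M.κ l₁| ≤ 2 ^ (s + m * b) := by
        rw [abs_mul, pow_add]
        exact mul_le_mul hy2 (hl₁ ▸ M.κ_le hb l₁) (abs_nonneg _) (by positivity)
      have hy'' : 1 ≤ |y * M.κ l₁| := by
        rw [abs_mul]; exact one_le_mul_of_one_le_of_one_le hy1 (M.one_le_κ l₁)
      have hG := hN₁ N' (by omega) _ hy'' hy'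
      calc M.E N' (fun l₂ => ((M.ζ (l₁ ++ l₂)).scale y).T ρ z)
          ≤ M.E N' (fun l₂ => W.ev (fun p =>
              ((M.ζ l₂).scale (y * M.κ l₁)).T ρ (z + (p.1 - p.2)))) := by
            refine M.E_mono (fun l₂ _ => ?_)
            rw [(M.ζ_append l₁ l₂ y).T]
            exact T_conv_cpl hW _ hρ z
        _ = W.ev (fun p => M.fT N' (y * M.κ l₁) ρ (z + (p.1 - p.2))) := M.E_ev _ _ _
        _ ≤ _ := psi_step ((M.ζ_prob l₁).scale y) hW hG hz1 hz2
        _ ≤ _ := by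
            have : ((1 / 4) ^ b * (M.ζ l₁).Vf s) / V₀ ≤ W.ev (fun p => (p.1 - p.2) ^ 2) / V₀ := by
              gcongr
            have e : ((1 / 4) ^ b / V₀) * (M.ζ l₁).Vf s = ((1 / 4) ^ b * (M.ζ l₁).Vf s) / V₀ := by
              ring
            linarith
    refine (M.E_mono hl).trans ?_
    rw [E_sub, E_const, E_const_mul]
    have e : psi 1 ρ K V₀ (max 0 (v - γ)) z - (1 / 4) ^ b / V₀ * M.E m (fun l => (M.ζ l).Vf s) =
        psi 1 ρ K V₀ (max 0 (v - γ) + γ) z := by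
      unfold psi; rw [hγ]; unfold Γ; ring
    rw [e]
    exact psi_anti hV (by linarith [le_max_right 0 (v - γ)])
  obtain ⟨g, hg1, hg⟩ := M.exists_g
  have skip : ∀ n : ℕ, ∀ N, N₁ + m + n ≤ N → ∀ y : ℝ, 1 ≤ |y| → |y| ≤ 2 ^ s →
      2 ^ s ≤ |y| * 2 ^ b * g ^ n → Good 1 ρ K V₀ v (M.fT N y ρ) := by
    intro n
    induction n with
    | zero => intro N hN y hy1 hy2 hy3; exact block N hN y hy1 hy2 (by simpa using hy3)
    | succ n ih =>
      intro N hN y hy1 hy2 hy3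
      by_cases hc : 2 ^ s ≤ |y| * 2 ^ b
      · exact block N (by omega) y hy1 hy2 hc
      · obtain ⟨N', rfl⟩ : ∃ N', N = N' + 1 := ⟨N - 1, by omega⟩
        intro z hz1 hz2
        refine (fT_skip N' y hρ z).trans ?_
        calc _ ≤ ∑ ω, M.P ω * psi 1 ρ K V₀ v z := by
              refine Finset.sum_le_sum (fun ω _ => mul_le_mul_of_nonneg_left ?_ (M.P_pos ω).le)
              refine ih N' (by omega) _ ?_ ?_ ?_ z hz1 hz2
              · rw [abs_mul]; exact one_le_mul_of_one_le_of_one_le hy1 (M.one_le_inv ω)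
              · rw [abs_mul]
                exact (mul_le_mul_of_nonneg_left (hb ω) (abs_nonneg y)).trans (not_le.1 hc).le
              · rw [abs_mul]
                refine hy3.trans ?_
                have : |y| * g ≤ |y| * |(M.lam ω)⁻¹| :=
                  mul_le_mul_of_nonneg_left (hg ω) (abs_nonneg y)
                have h3 : (0 : ℝ) ≤ 2 ^ b * g ^ n := by positivity
                calc |y| * 2 ^ b * g ^ (n + 1) = (|y| * g) * (2 ^ b * g ^ n) := by ring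
                  _ ≤ (|y| * |(M.lam ω)⁻¹|) * (2 ^ b * g ^ n) :=
                      mul_le_mul_of_nonneg_right this h3
                  _ = _ := by ring
          _ = _ := by rw [← Finset.sum_mul, M.P_sum, one_mul]
  obtain ⟨n, hn⟩ := ((tendsto_pow_atTop_atTop_of_one_lt hg1).eventually_ge_atTop
    ((2 : ℝ) ^ s)).exists
  refine ⟨N₁ + m + n, fun N hN y hy1 hy2 => skip n N hN y hy1 hy2 (hn.trans ?_)⟩
  have : (1 : ℝ) ≤ |y| * 2 ^ b := one_le_mul_of_one_le_of_one_le hy1 (one_le_pow₀ one_le_two)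
  exact le_mul_of_one_le_left (by positivity) this

theorem Chain.steps {b : ℕ} (hb : ∀ ω, |(M.lam ω)⁻¹| ≤ 2 ^ b) (s m j : ℕ) {B : ℝ} (hB : 0 ≤ B)
    (h : M.Chain (s + j * (m * b)) B) :
    M.Chain s (B + (1 / 4) ^ b * ∑ i ∈ Finset.range j, M.Γ m (s + i * (m * b))) := by
  induction j generalizing B with
  | zero => simpa using h
  | succ j ih =>
    have h1 : M.Chain (s + j * (m * b) + m * b) B := by
      rwa [show s + j * (m * b) + m * b = s + (j + 1) * (m * b) by ring]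
    have h2 := ih (add_nonneg hB (mul_nonneg (by positivity) (M.Γ_nonneg _ _))) (h1.step hb hB)
    refine h2.mono le_rfl (le_of_eq ?_)
    rw [Finset.sum_range_succ]; ring

theorem sum_range_mul_aux (f : ℕ → ℝ) (D S : ℕ) : ∑ s ∈ Finset.range (S * D), f s =
    ∑ u ∈ Finset.range D, ∑ j ∈ Finset.range S, f (u + j * D) := by
  induction S with
  | zero => simp
  | succ S ih =>
    rw [Nat.succ_mul, Finset.sum_range_add, ih, ← Finset.sum_add_distrib]
    refine Finset.sum_congr rfl (fun u _ => ?_)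
    rw [Finset.sum_range_succ, add_comm u (S * D)]

theorem chain_all {c : ℝ} (hc : 0 < c)
    (h : ∀ m₀, ∃ m, m₀ ≤ m ∧ ∃ S, c * m ≤ ∑ s ∈ Finset.range S, M.Γ m s) (B : ℝ) :
    M.Chain 0 B := by
  obtain ⟨b, hb1, hb⟩ := M.exists_b
  have hb0 : (0 : ℝ) < b := by exact_mod_cast hb1
  set c' : ℝ := (1 / 4) ^ b * (c / (2 * b)) with hc'
  have hc0 : 0 < c' := by positivity
  have level : ∀ s₀, ∃ s', ∀ B, 0 ≤ B → M.Chain s' B → M.Chain s₀ (B + c') := by
    intro s₀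
    obtain ⟨m₀, hm₀⟩ := exists_nat_ge (2 * s₀ / c)
    obtain ⟨m, hm, S, hS⟩ := h (m₀ + 1)
    have hm1 : (0 : ℝ) < m := by exact_mod_cast (by omega : 0 < m)
    have hm2 : (s₀ : ℝ) ≤ c * m / 2 := by
      rw [div_le_iff₀ hc] at hm₀
      have : (m₀ : ℝ) ≤ m := by exact_mod_cast (by omega : m₀ ≤ m)
      nlinarith
    have hD : 1 ≤ m * b := Nat.mul_pos (by omega) hb1
    have h1 : ∑ s ∈ Finset.range S, M.Γ m s ≤
        s₀ + ∑ s ∈ Finset.range (S * (m * b)), M.Γ m (s₀ + s) := by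
      calc _ ≤ ∑ s ∈ Finset.range (s₀ + S * (m * b)), M.Γ m s :=
            Finset.sum_le_sum_of_subset_of_nonneg
              (Finset.range_subset_range.2 (by nlinarith)) (fun s _ _ => M.Γ_nonneg m s)
        _ ≤ _ := by
            rw [Finset.sum_range_add]
            refine add_le_add ?_ le_rfl
            calc _ ≤ ∑ _s ∈ Finset.range s₀, (1 : ℝ) :=
                  Finset.sum_le_sum (fun s _ => M.Γ_le_one m s)
              _ = s₀ := by simp
    rw [sum_range_mul_aux] at h1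
    have h2 : ∑ _u ∈ Finset.range (m * b), c / (2 * b) ≤ ∑ u ∈ Finset.range (m * b),
        ∑ j ∈ Finset.range S, M.Γ m (s₀ + (u + j * (m * b))) := by
      rw [Finset.sum_const, Finset.card_range, nsmul_eq_mul]
      have : ((m * b : ℕ) : ℝ) * (c / (2 * b)) = c * m / 2 := by push_cast; field_simp
      linarith
    obtain ⟨u, -, hu⟩ := Finset.exists_le_of_sum_le ⟨0, Finset.mem_range.2 hD⟩ h2
    refine ⟨s₀ + u + S * (m * b), fun B hB hch => (hch.steps hb (s₀ + u) m S hB).mono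
      (Nat.le_add_right _ _) ?_⟩
    simp only [add_assoc s₀]
    have := mul_le_mul_of_nonneg_left hu (show (0 : ℝ) ≤ (1 / 4) ^ b by positivity)
    linarith
  have all : ∀ n : ℕ, ∃ s', ∀ B, 0 ≤ B → M.Chain s' B → M.Chain 0 (B + n * c') := by
    intro n
    induction n with
    | zero => exact ⟨0, fun B _ h => by simpa using h⟩
    | succ n ih =>
      obtain ⟨s₁, h₁⟩ := ih
      obtain ⟨s₂, h₂⟩ := level s₁
      refine ⟨s₂, fun B hB hch => (h₁ _ (by linarith) (h₂ B hB hch)).mono le_rfl (le_of_eq ?_)⟩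
      push_cast; ring
  obtain ⟨n, hn⟩ := exists_nat_ge (B / c')
  obtain ⟨s', hs'⟩ := all n
  refine (hs' 0 le_rfl (M.chain_zero s')).mono le_rfl ?_
  rw [div_le_iff₀ hc0] at hn
  linarith

theorem T_small (h : ∀ B, M.Chain 0 B) {ρ ε : ℝ} (hρ : 0 < ρ) (hε : 0 < ε) (hε1 : ε ≤ 1)
    (hρε : 1 / ρ ≤ ε) : ∀ᶠ N in Filter.atTop, M.E N (fun l => (M.ζ l).T ρ ρ) ≤ 3 * ε := by
  have hK : 0 < ρ / ε := by positivity
  have hV : 0 < (ρ / ε + 1) ^ 2 / ε := by positivity
  obtain ⟨N₀, hN⟩ := h _ ρ (ρ / ε) _ _ hρ hK hV hV.le le_rfl le_rfl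
  filter_upwards [Filter.eventually_ge_atTop N₀] with N hN'
  have h1 : ρ ≤ ρ / ε := by rw [le_div_iff₀ hε]; nlinarith
  have h2 := hN N hN' 1 (by simp) (by simp) ρ hρ.le (by linarith)
  have h3 : M.fT N 1 ρ ρ = M.E N (fun l => (M.ζ l).T ρ ρ) :=
    M.E_congr (fun l _ => by rw [← (eqv_scale_one (M.ζ l)).T])
  rw [← h3]
  refine h2.trans ?_
  unfold psi
  have a1 : ρ / (ρ / ε) = ε := by field_simp
  have a2 : ((ρ / ε + 1) ^ 2 - ρ ^ 2) / ((ρ / ε + 1) ^ 2 / ε) ≤ ε := by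
    rw [div_le_iff₀ hV, mul_div_cancel₀ _ hε.ne']
    nlinarith [sq_nonneg ρ]
  rw [a1, sub_self, zero_div]
  linarith

variable (M)

/-- expected entropy at the natural scale -/
noncomputable def a (n : ℕ) : ℝ := M.E n (fun l => (M.ζ l).H 1)

theorem a_nonneg (n : ℕ) : 0 ≤ M.a n := M.E_nonneg (fun l _ => (M.ζ_prob l).H_nonneg one_pos)

theorem sum_I_up (ν : FM.{u} ℝ) (j : ℕ) :
    ∑ i ∈ Finset.range j, ν.I (2 ^ i) = ν.H 1 - ν.H (2 ^ j) := by
  induction j with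
  | zero => simp
  | succ j ih => rw [Finset.sum_range_succ, ih, FM.I, pow_succ' 2 j]; ring

theorem H_append {b : ℕ} (hb : ∀ ω, |(M.lam ω)⁻¹| ≤ 2 ^ b) (l₁ l₂ : List M.Ω) :
    (M.ζ l₂).H 1 + Real.log |M.κ l₁| - Real.log 2 - Real.log 2 *
      ∑ i ∈ Finset.range (l₁.length * b), (M.ζ (l₁ ++ l₂)).T (2 ^ i) (2 ^ i) ≤
        (M.ζ (l₁ ++ l₂)).H 1 := by
  obtain ⟨j, hj1, hj2⟩ := exists_nat_pow_near (M.one_le_κ l₁) (one_lt_two (α := ℝ))
  have hκ : 0 < |M.κ l₁| := abs_pos.2 (M.κ_ne l₁)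
  have hl : 0 < Real.log 2 := Real.log_pos (by norm_num)
  have hjL : j ≤ l₁.length * b :=
    (pow_le_pow_iff_right₀ (one_lt_two (α := ℝ))).1 (hj1.trans (M.κ_le hb l₁))
  set ν := M.ζ (l₁ ++ l₂) with hν
  have hp : ν.Prob := M.ζ_prob _
  have h1 := sum_I_up ν j
  have h2 : ∑ i ∈ Finset.range j, Real.log 2 * (1 - ν.T (2 ^ i) (2 ^ i)) ≤
      ∑ i ∈ Finset.range j, ν.I (2 ^ i) :=
    Finset.sum_le_sum (fun i _ => hp.I_ge (by positivity))
  rw [← Finset.mul_sum, Finset.sum_sub_distrib, Finset.sum_const, Finset.card_range,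
    nsmul_eq_mul, mul_one] at h2
  have h3 : ∑ i ∈ Finset.range j, ν.T (2 ^ i) (2 ^ i) ≤
      ∑ i ∈ Finset.range (l₁.length * b), ν.T (2 ^ i) (2 ^ i) :=
    Finset.sum_le_sum_of_subset_of_nonneg (Finset.range_subset_range.2 hjL)
      (fun i _ _ => ν.T_nonneg (by positivity) _)
  have h4 : (M.ζ l₂).H 1 ≤ ν.H (2 ^ j) := by
    rw [hν, (M.ζ_append' l₁ l₂).H]
    refine le_trans ?_ ((M.ζ_prob l₁).H_conv_ge ((M.ζ_prob l₂).scale _) (by positivity))
    have e : (2 : ℝ) ^ j = |M.κ l₁| * (2 ^ j / |M.κ l₁|) := by field_simp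
    rw [e, H_scale (M.κ_ne l₁)]
    exact (M.ζ_prob l₂).H_anti (by positivity) ((div_le_one hκ).2 hj1)
  have h5 : Real.log |M.κ l₁| ≤ (j + 1) * Real.log 2 := by
    have := Real.log_le_log hκ hj2.le
    rw [Real.log_pow] at this
    exact_mod_cast this
  have h6 := mul_le_mul_of_nonneg_left h3 hl.le
  nlinarith

theorem a_step (h : ∀ B, M.Chain 0 B) {η : ℝ} (hη : 0 < η) :
    ∃ L : ℕ, 0 < L ∧ ∀ᶠ N in Filter.atTop, M.a N + (M.chi - η) * L ≤ M.a (L + N) := by
  obtain ⟨b, hb1, hb⟩ := M.exists_b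
  have hb0 : (0 : ℝ) < b := by exact_mod_cast hb1
  set ε : ℝ := min 1 (η / (6 * b)) with hε
  have hε0 : 0 < ε := lt_min one_pos (by positivity)
  have hεb : 3 * ε * b ≤ η / 2 := by
    have : ε ≤ η / (6 * b) := min_le_right _ _
    rw [le_div_iff₀ (by positivity)] at this
    linarith
  obtain ⟨a₀, ha₀⟩ := ((tendsto_pow_atTop_atTop_of_one_lt (one_lt_two (α := ℝ))).eventually_ge_atTop
    (1 / ε)).exists
  obtain ⟨L₀, hL₀⟩ := exists_nat_ge (2 * (1 + a₀) / η)
  refine ⟨L₀ + 1, Nat.succ_pos _, ?_⟩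
  set L := L₀ + 1 with hL
  have hL1 : (1 + a₀ : ℝ) ≤ η / 2 * L := by
    rw [div_le_iff₀ hη] at hL₀
    rw [hL]; push_cast; nlinarith
  have hev : ∀ᶠ N in Filter.atTop, ∀ i ∈ Finset.range (L * b),
      M.E N (fun l => (M.ζ l).T (2 ^ i) (2 ^ i)) ≤ (if i < a₀ then 1 else 0) + 3 * ε := by
    rw [Filter.eventually_all_finset]
    intro i _
    by_cases hi : i < a₀
    · refine Filter.Eventually.of_forall (fun N => ?_)
      rw [if_pos hi]
      have := M.E_le (n := N) (fun l _ => (M.ζ_prob l).T_le_one (ρ := 2 ^ i) (by positivity) (2 ^ i))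
      linarith
    · rw [if_neg hi, zero_add]
      refine T_small h (by positivity) hε0 (min_le_left _ _) ?_
      rw [div_le_iff₀ hε0] at ha₀
      rw [div_le_iff₀ (by positivity)]
      have : (2 : ℝ) ^ a₀ ≤ 2 ^ i := pow_le_pow_right₀ one_le_two (not_lt.1 hi)
      nlinarith
  filter_upwards [(Filter.tendsto_add_atTop_nat L).eventually hev] with N hN
  rw [add_comm N L] at hN
  have hl : 0 < Real.log 2 := Real.log_pos (by norm_num)
  have hl1 : Real.log 2 ≤ 1 := by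
    have := Real.log_le_sub_one_of_pos (x := 2) (by norm_num); linarith
  have h1 : ∑ i ∈ Finset.range (L * b), M.E (L + N) (fun l => (M.ζ l).T (2 ^ i) (2 ^ i)) ≤
      a₀ + η / 2 * L := by
    refine (Finset.sum_le_sum hN).trans ?_
    rw [Finset.sum_add_distrib, Finset.sum_const, Finset.card_range, nsmul_eq_mul]
    refine add_le_add ?_ ?_
    · rw [← Finset.sum_filter, Finset.sum_const, nsmul_eq_mul, mul_one]
      have : ((Finset.range (L * b)).filter (fun i => i < a₀)).card ≤ (Finset.range a₀).card :=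
        Finset.card_le_card (fun i hi => Finset.mem_range.2 (Finset.mem_filter.1 hi).2)
      rw [Finset.card_range] at this
      exact_mod_cast this
    · push_cast
      have := mul_le_mul_of_nonneg_right hεb (Nat.cast_nonneg (α := ℝ) L)
      linarith
  have h2 : M.a N + L * M.chi - Real.log 2 - Real.log 2 *
      ∑ i ∈ Finset.range (L * b), M.E (L + N) (fun l => (M.ζ l).T (2 ^ i) (2 ^ i)) ≤
        M.a (L + N) := by
    rw [← E_sum, ← E_const_mul]
    unfold a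
    rw [← E_log_κ, M.E_append L N (fun l => (M.ζ l).H 1), M.E_append L N,
      ← M.E_const L (M.E N (fun l => (M.ζ l).H 1)), ← E_add, ← M.E_const L (Real.log 2),
      ← E_sub, ← E_sub]
    refine M.E_mono (fun l₁ hl₁ => ?_)
    rw [← M.E_const N (Real.log |M.κ l₁|), ← E_add, M.E_const L, ← M.E_const N (Real.log 2),
      ← E_sub, ← E_sub]
    refine M.E_mono (fun l₂ _ => ?_)
    rw [M.E_const N, ← hl₁]
    exact M.H_append hb l₁ l₂
  have h3 : 0 ≤ ∑ i ∈ Finset.range (L * b), M.E (L + N) (fun l => (M.ζ l).T (2 ^ i) (2 ^ i)) :=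
    Finset.sum_nonneg (fun i _ => M.E_nonneg (fun l _ => (M.ζ l).T_nonneg (by positivity) _))
  nlinarith

/-- The entropy at the natural scale grows at rate at least `min h χ`. -/
theorem growth {h : ℝ} (hh : ∀ m : ℕ, h * m ≤ M.E m (fun l => (M.ζ l).Sh)) {η : ℝ} (hη : 0 < η)
    (n₀ : ℕ) : ∃ n, n₀ ≤ n ∧ (min h M.chi - η) * n ≤ M.a n := by
  by_contra hcon
  simp only [not_exists, not_and, not_le] at hcon
  have hA : (0 : ℝ) < Fintype.card M.A + 1 := by positivity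
  obtain ⟨C, hC, hex⟩ := excess.{u} (η := η / (2 * (Fintype.card M.A + 1))) (by positivity)
  have hch : ∀ B, M.Chain 0 B := by
    refine chain_all (c := η / (4 * C)) (by positivity) (fun m₀ => ?_)
    obtain ⟨m₁, hm₁⟩ := exists_nat_ge (4 / η)
    set m := m₀ + m₁ + n₀ with hm
    have hm2 : 4 ≤ η * m := by
      rw [div_le_iff₀ hη] at hm₁
      have : (m₁ : ℝ) ≤ m := by exact_mod_cast (by omega : m₁ ≤ m)
      nlinarith
    refine ⟨m, by omega, ?_⟩
    have hev := M.E_eventually (f := Filter.atTop) m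
      (F := fun l (_ : ℕ) => (M.ζ l).Sh - (M.ζ l).H 1)
      (G := fun l S => C * ∑ s ∈ Finset.range S, (M.ζ l).Vf s + (η / 2 * m + 1))
      (fun l hl => by
        obtain ⟨B, _, θ, hB, hθ⟩ := M.ζ_sp l
        filter_upwards [hex _ (M.ζ_prob l) B θ hθ] with S hS
        rw [hB, hl] at hS
        have : η / (2 * (Fintype.card M.A + 1)) * ((m * Fintype.card M.A : ℕ) : ℝ) ≤
            η / 2 * m := by
          push_cast
          rw [div_mul_eq_mul_div, div_le_iff₀ (by positivity)]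
          have : (0 : ℝ) ≤ η * m := by positivity
          nlinarith
        linarith)
    obtain ⟨S, hS⟩ := hev.exists
    refine ⟨S, ?_⟩
    rw [E_sub, E_add, E_const, E_const_mul, E_sum] at hS
    have h1 := hcon m (by omega)
    have h2 := hh m
    have h3 : (min h M.chi - η) * m ≤ (h - η) * m :=
      mul_le_mul_of_nonneg_right (by linarith [min_le_left h M.chi]) (Nat.cast_nonneg m)
    unfold a at h1
    unfold Γ
    rw [div_mul_eq_mul_div, div_le_iff₀ (by positivity)]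
    linarith
  obtain ⟨L, hL, hev⟩ := M.a_step hch (η := η / 2) (by positivity)
  obtain ⟨N₀, hN₀⟩ := Filter.eventually_atTop.1 (hev.and (Filter.eventually_ge_atTop n₀))
  have hj : ∀ j : ℕ, (M.chi - η / 2) * (j * L) ≤ M.a (j * L + N₀) := by
    intro j
    induction j with
    | zero => simpa using M.a_nonneg N₀
    | succ j ih =>
      have := (hN₀ (j * L + N₀) (by omega)).1
      rw [show (j + 1) * L + N₀ = L + (j * L + N₀) by ring]
      push_cast
      linarith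
  obtain ⟨j, hj'⟩ := exists_nat_ge (2 * M.chi * N₀ / η)
  have h1 := hj j
  have h2 := hcon (j * L + N₀) ((hN₀ N₀ le_rfl).2.trans (by omega))
  have h3 : (min h M.chi - η) * ((j * L + N₀ : ℕ) : ℝ) ≤ (M.chi - η) * ((j * L + N₀ : ℕ) : ℝ) :=
    mul_le_mul_of_nonneg_right (by linarith [min_le_right h M.chi]) (Nat.cast_nonneg _)
  rw [div_le_iff₀ hη] at hj'
  have hL' : (1 : ℝ) ≤ L := by exact_mod_cast hL
  have h4 : (j : ℝ) * η ≤ j * L * η := by
    have : (0 : ℝ) ≤ j * η := by positivity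
    nlinarith
  have h5 : (0 : ℝ) ≤ η * N₀ := by positivity
  push_cast at h2 h3
  nlinarith

end Model

end Vale.Agent.P114
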