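import Vale.Agent.P114.TV
import Mathlib.Analysis.Convex.SpecificFunctions.Basic

/-! Entropy increments between the scales `r` and `2 r`. -/

namespace Vale.Agent.P114

open MeasureTheory Set Real

universe u

noncomputable def J (p q : ℝ) : ℝ := negMulLog p + negMulLog q - negMulLog (p + q)

theorem J_comm (p q : ℝ) : J p q = J q p := by unfold J; rw [add_comm p q]; ring

theorem J_lower_aux {p q : ℝ} (hp : 0 ≤ p) (hq : p ≤ q) : 2 * Real.log 2 * p ≤ J p q := by
  rcases hp.eq_or_lt with rfl | hp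
  · simp [J]
  have hq0 : 0 < q := hp.trans_le hq
  have h1 : Real.log 2 + Real.log p ≤ Real.log (p + q) := by
    rw [← Real.log_mul (by norm_num) hp.ne']
    exact Real.log_le_log (by positivity) (by linarith)
  have h2 : p / q * Real.log 2 ≤ Real.log (p + q) - Real.log q := by
    have hu0 : 0 ≤ p / q := by positivity
    have hu1 : p / q ≤ 1 := by rw [div_le_one hq0]; exact hq
    have := strictConcaveOn_log_Ioi.concaveOn.2 (show (1 : ℝ) ∈ Ioi 0 by simp)
      (show (2 : ℝ) ∈ Ioi 0 by simp) (show 0 ≤ 1 - p / q by linarith) hu0 (by ring)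
    simp only [smul_eq_mul, Real.log_one, mul_zero, zero_add] at this
    rw [← Real.log_div (by positivity) hq0.ne']
    have e : (p + q) / q = (1 - p / q) * 1 + p / q * 2 := by field_simp; ring
    rw [e]; exact this
  have h3 : p * Real.log 2 ≤ q * (Real.log (p + q) - Real.log q) := by
    have := mul_le_mul_of_nonneg_left h2 hq0.le
    rwa [← mul_assoc, mul_div_cancel₀ _ hq0.ne'] at this
  have h4 := mul_le_mul_of_nonneg_left h1 hp.le
  unfold J negMulLog
  nlinarith

theorem J_lower {p q : ℝ} (hp : 0 ≤ p) (hq : 0 ≤ q) :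
    Real.log 2 * (p + q - |p - q|) ≤ J p q := by
  rcases le_total p q with h | h
  · have := J_lower_aux hp h
    rw [abs_of_nonpos (by linarith)]
    linarith
  · have := J_lower_aux hq h
    rw [abs_of_nonneg (by linarith), J_comm]
    linarith

theorem eta_upper {a κ : ℝ} (h0 : 0 ≤ a) (h1 : a ≤ 1) (hκ : 0 < κ) (hκ1 : κ ≤ 1) :
    negMulLog a ≤ κ + 2 * (a * (1 - a)) / κ := by
  have hb : 0 ≤ a * (1 - a) := mul_nonneg h0 (by linarith)
  by_cases ha : 1 / 2 ≤ a
  · have h2 := negMulLog_le_one_sub_self h0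
    have h3 : 2 * (a * (1 - a)) ≤ 2 * (a * (1 - a)) / κ := by
      rw [le_div_iff₀ hκ]; nlinarith
    nlinarith
  · rcases h0.eq_or_lt with rfl | h0
    · simp [hκ.le]
    have h2 : Real.log (κ / a) ≤ κ / a - 1 := Real.log_le_sub_one_of_pos (by positivity)
    have h3 : Real.log κ⁻¹ ≤ κ⁻¹ - 1 := Real.log_le_sub_one_of_pos (by positivity)
    rw [Real.log_div hκ.ne' h0.ne'] at h2
    rw [Real.log_inv] at h3
    have h4 : a * (Real.log κ - Real.log a) ≤ κ - a := by
      have := mul_le_mul_of_nonneg_left h2 h0.le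
      rwa [mul_sub a (κ / a), mul_div_cancel₀ _ h0.ne', mul_one] at this
    have h5 : a * (-Real.log κ) ≤ a * κ⁻¹ := mul_le_mul_of_nonneg_left (by linarith) h0.le
    have h6 : a * κ⁻¹ ≤ 2 * (a * (1 - a)) / κ := by
      rw [div_eq_mul_inv]
      exact mul_le_mul_of_nonneg_right (by nlinarith) (by positivity)
    unfold negMulLog
    nlinarith

theorem J_upper {p q κ : ℝ} (hp : 0 ≤ p) (hq : 0 ≤ q) (hκ : 0 < κ) (hκ1 : κ ≤ 1) :
    J p q ≤ 2 * κ * (p + q) + 4 / κ * (p * q / (p + q)) := by
  rcases (add_nonneg hp hq).eq_or_lt with hs | hs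
  · have h1 : p = 0 := by linarith
    have h2 : q = 0 := by linarith
    simp [J, h1, h2]
  set s := p + q with hsdef
  have ea : p = s * (p / s) := by field_simp
  have eb : q = s * (q / s) := by field_simp
  have e1 : 1 - p / s = q / s := by field_simp; rw [hsdef]; ring
  have e2 : 1 - q / s = p / s := by field_simp; rw [hsdef]; ring
  have ha := eta_upper (a := p / s) (by positivity) (by rw [div_le_one hs]; linarith) hκ hκ1
  have hb := eta_upper (a := q / s) (by positivity) (by rw [div_le_one hs]; linarith) hκ hκ1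
  rw [e1] at ha
  rw [e2] at hb
  have h1 : J p q = s * (negMulLog (p / s) + negMulLog (q / s)) := by
    unfold J
    rw [← hsdef]
    conv_lhs => rw [ea, eb, negMulLog_mul, negMulLog_mul]
    have : p / s + q / s = 1 := by field_simp; rw [hsdef]
    linear_combination (negMulLog s) * this
  rw [h1]
  calc _ ≤ s * ((κ + 2 * (p / s * (q / s)) / κ) + (κ + 2 * (q / s * (p / s)) / κ)) :=
        mul_le_mul_of_nonneg_left (add_le_add ha hb) hs.le
    _ = _ := by field_simp; ring

theorem ne_zero_of_div_ne_zero_aux {a b : ℝ} (h : a / b ≠ 0) : a ≠ 0 := by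
  rintro rfl; simp at h

namespace FM

/-- entropy increment -/
noncomputable def I (ν : FM.{u} ℝ) (r : ℝ) : ℝ := ν.H r - ν.H (2 * r)

variable {ν : FM.{u} ℝ}

theorem Prob.integrable_J (h : ν.Prob) {r : ℝ} (hr : 0 < r) :
    Integrable (fun x => J (ν.m r (x - r / 2)) (ν.m r (x + r / 2))) := by
  have h3 : Integrable (fun x => negMulLog (ν.m r (x - r / 2) + ν.m r (x + r / 2))) :=
    (h.integrable_eta (2 * r)).congr (by
      filter_upwards [ν.m_split r hr] with x hx using by rw [hx])
  exact (((h.integrable_eta r).comp_sub_right _).add ((h.integrable_eta r).comp_add_right _)).sub h3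

theorem Prob.I_eq (h : ν.Prob) {r : ℝ} (hr : 0 < r) :
    ν.I r = (1 / (2 * r)) * ∫ x, J (ν.m r (x - r / 2)) (ν.m r (x + r / 2)) := by
  have h3 : (fun x => negMulLog (ν.m (2 * r) x)) =ᵐ[volume]
      (fun x => negMulLog (ν.m r (x - r / 2) + ν.m r (x + r / 2))) := by
    filter_upwards [ν.m_split r hr] with x hx using by rw [hx]
  have h1 := (h.integrable_eta r).comp_sub_right (r / 2)
  have h2 := (h.integrable_eta r).comp_add_right (r / 2)
  have h12 : Integrable (fun x => negMulLog (ν.m r (x - r / 2)) + negMulLog (ν.m r (x + r / 2))) :=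
    h1.add h2
  unfold J
  rw [integral_sub h12 ((h.integrable_eta (2 * r)).congr h3), integral_add h1 h2,
    integral_sub_right_eq_self (fun x => negMulLog (ν.m r x)),
    integral_add_right_eq_self (fun x => negMulLog (ν.m r x)), ← integral_congr_ae h3]
  unfold FM.I FM.H
  field_simp
  ring

theorem Prob.integral_halves (h : ν.Prob) {r : ℝ} (hr : 0 < r) :
    ∫ x, (ν.m r (x - r / 2) + ν.m r (x + r / 2)) = 2 * r := by
  rw [integral_add ((ν.integrable_m r).comp_sub_right _) ((ν.integrable_m r).comp_add_right _),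
    integral_sub_right_eq_self (ν.m r), integral_add_right_eq_self (ν.m r), h.integral_m hr.le]
  ring

theorem Prob.I_ge (h : ν.Prob) {r : ℝ} (hr : 0 < r) : Real.log 2 * (1 - ν.T r r) ≤ ν.I r := by
  have h1 : Integrable (fun x => ν.m r (x - r / 2) + ν.m r (x + r / 2)) :=
    ((ν.integrable_m r).comp_sub_right _).add ((ν.integrable_m r).comp_add_right _)
  have h2 : Integrable (fun x => |ν.m r (x - r / 2) - ν.m r (x + r / 2)|) :=
    (((ν.integrable_m r).comp_sub_right _).sub ((ν.integrable_m r).comp_add_right _)).abs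
  have h3 : ∫ x, |ν.m r (x - r / 2) - ν.m r (x + r / 2)| = ∫ x, |ν.m r x - ν.m r (x + r)| := by
    rw [← integral_sub_right_eq_self (fun x => |ν.m r x - ν.m r (x + r)|) (r / 2)]
    congr 1; funext x; congr 3; ring
  have h4 := integral_mono ((h1.sub h2).const_mul (Real.log 2)) (h.integrable_J hr)
    (fun x => J_lower (ν.m_nonneg _ _) (ν.m_nonneg _ _))
  simp only [Pi.sub_apply] at h4
  rw [integral_const_mul, integral_sub h1 h2, h.integral_halves hr, h3] at h4
  rw [h.I_eq hr]
  refine le_trans (le_of_eq ?_) (mul_le_mul_of_nonneg_left h4 (by positivity))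
  unfold FM.T
  field_simp

theorem Prob.I_nonneg (h : ν.Prob) {r : ℝ} (hr : 0 < r) : 0 ≤ ν.I r :=
  le_trans (mul_nonneg (Real.log_nonneg (by norm_num)) (by linarith [h.T_le_one hr r]))
    (h.I_ge hr)

/-- a self-coupling from symmetric weights -/
theorem cpl_of_weights (ν : FM.{u} ℝ) (R : ℝ) (hR : 0 ≤ R) (w : ν.ι → ν.ι → ℝ)
    (h0 : ∀ i j, 0 ≤ w i j) (hs : ∀ i j, w i j = w j i) (hq : ∀ i, ∑ j, w i j ≤ ν.q i)
    (hR' : ∀ i j, w i j ≠ 0 → |ν.x i - ν.x j| ≤ R) :
    ν.Cpl R (∑ i, ∑ j, w i j * (ν.x i - ν.x j) ^ 2) := by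
  let W : FM.{u} (ℝ × ℝ) := ⟨(ν.ι × ν.ι) ⊕ ν.ι, inferInstance,
    Sum.elim (fun p => w p.1 p.2) (fun i => ν.q i - ∑ j, w i j),
    Sum.elim (fun p => (ν.x p.1, ν.x p.2)) (fun i => (ν.x i, ν.x i)),
    fun p => by
      cases p with
      | inl p => exact h0 _ _
      | inr i => exact sub_nonneg.2 (hq i)⟩
  have hev : ∀ G : ℝ × ℝ → ℝ, W.ev G = ∑ i, ∑ j, w i j * G (ν.x i, ν.x j) +
      ∑ i, (ν.q i - ∑ j, w i j) * G (ν.x i, ν.x i) := by
    intro G
    unfold FM.ev
    rw [show (∑ i : W.ι, W.q i * G (W.x i)) = ∑ p : (ν.ι × ν.ι) ⊕ ν.ι, W.q p * G (W.x p) from rfl,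
      Fintype.sum_sum_type, Fintype.sum_prod_type]
    rfl
  refine ⟨W, ⟨fun F => ?_, fun F => ?_, fun p hp => ?_⟩, ?_⟩
  · rw [hev, ← Finset.sum_add_distrib]
    refine Finset.sum_congr rfl (fun i _ => ?_)
    simp only [← Finset.sum_mul]; ring
  · rw [hev, Finset.sum_comm, ← Finset.sum_add_distrib]
    refine Finset.sum_congr rfl (fun i _ => ?_)
    simp only [← Finset.sum_mul]
    rw [Finset.sum_congr rfl (fun j _ => hs j i)]; ring
  · cases p with
    | inl p => exact hR' _ _ hp
    | inr i =>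
      show |ν.x i - ν.x i| ≤ R
      simpa using hR
  · rw [hev]; simp

/-- The explicit coupling: small variance forces a small entropy increment. -/
theorem Prob.exists_V (h : ν.Prob) {r : ℝ} (hr : 0 < r) : ∃ V, 0 ≤ V ∧ V ≤ 1 ∧
    ν.Cpl (2 * r) (V * (2 * r) ^ 2) ∧
      ∀ i : ℕ, V ≤ (1 / 64) ^ i → ν.I r ≤ 18 * (1 / 2) ^ i := by
  set P : ℝ → ℝ := fun x => ν.m r (x - r / 2) with hP
  set Q : ℝ → ℝ := fun x => ν.m r (x + r / 2) with hQ
  have hP0 : ∀ x, 0 ≤ P x := fun x => ν.m_nonneg _ _
  have hQ0 : ∀ x, 0 ≤ Q x := fun x => ν.m_nonneg _ _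
  have hPm : Measurable P := (ν.measurable_m r).comp (measurable_id.sub_const _)
  have hQm : Measurable Q := (ν.measurable_m r).comp (measurable_id.add_const _)
  set g : ν.ι → ν.ι → ℝ → ℝ := fun i j x =>
    ν.q i * k r (x - r / 2 - ν.x i) * (ν.q j * k r (x + r / 2 - ν.x j) / (P x + Q x)) with hg
  have hfr : ∀ (a : ℝ) (x : ℝ), 0 ≤ a → a ≤ P x + Q x → a / (P x + Q x) ≤ 1 := fun a x _ h2 =>
    div_le_one_of_le₀ h2 (add_nonneg (hP0 x) (hQ0 x))
  have hqL : ∀ i x, ν.q i * k r (x - r / 2 - ν.x i) ≤ P x := fun i x =>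
    ν.single_le_ev (F := fun y => k r (x - r / 2 - y)) (fun _ => k_nonneg _ _) i
  have hqR : ∀ j x, ν.q j * k r (x + r / 2 - ν.x j) ≤ Q x := fun j x =>
    ν.single_le_ev (F := fun y => k r (x + r / 2 - y)) (fun _ => k_nonneg _ _) j
  have hk0 : ∀ i d, 0 ≤ ν.q i * k r d := fun i d => mul_nonneg (ν.q_nonneg i) (k_nonneg _ _)
  have hg0 : ∀ i j x, 0 ≤ g i j x := fun i j x =>
    mul_nonneg (hk0 _ _) (div_nonneg (hk0 _ _) (add_nonneg (hP0 x) (hQ0 x)))
  have hkL : ∀ i, Integrable (fun x => ν.q i * k r (x - r / 2 - ν.x i)) := fun i => by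
    simp only [sub_sub]; exact (integrable_k_sub r _).const_mul _
  have hkR : ∀ i, Integrable (fun x => ν.q i * k r (x + r / 2 - ν.x i)) := fun i => by
    simp only [add_sub_assoc]; exact ((integrable_k r).comp_add_right _).const_mul _
  have hkLv : ∀ i, ∫ x, ν.q i * k r (x - r / 2 - ν.x i) = ν.q i * r := fun i => by
    simp only [sub_sub]; rw [integral_const_mul, integral_k_sub hr.le]
  have hkRv : ∀ i, ∫ x, ν.q i * k r (x + r / 2 - ν.x i) = ν.q i * r := fun i => by
    simp only [add_sub_assoc]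
    rw [integral_const_mul, integral_add_right_eq_self (k r), integral_k hr.le]
  have hgi : ∀ i j, Integrable (g i j) := fun i j => by
    refine (hkL i).mono' (Measurable.aestronglyMeasurable ?_)
      (Filter.Eventually.of_forall (fun x => ?_))
    · exact (((measurable_k r).comp ((measurable_id.sub_const _).sub_const _)).const_mul _).mul
        ((((measurable_k r).comp ((measurable_id.add_const _).sub_const _)).const_mul _).div
          (hPm.add hQm))
    · rw [Real.norm_eq_abs, abs_of_nonneg (hg0 i j x)]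
      exact mul_le_of_le_one_right (hk0 _ _)
        (hfr _ x (hk0 _ _) ((hqR j x).trans (le_add_of_nonneg_left (hP0 x))))
  have hsumj : ∀ i x, ∑ j, g i j x = ν.q i * k r (x - r / 2 - ν.x i) * (Q x / (P x + Q x)) := by
    intro i x
    simp only [hg]
    rw [← Finset.mul_sum, ← Finset.sum_div]
    rfl
  have hsumi : ∀ j x, ∑ i, g i j x = ν.q j * k r (x + r / 2 - ν.x j) * (P x / (P x + Q x)) := by
    intro j x
    simp only [hg]
    rw [← Finset.sum_mul]
    have : ∑ i, ν.q i * k r (x - r / 2 - ν.x i) = P x := rfl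
    rw [this]; ring
  set a : ν.ι → ν.ι → ℝ := fun i j => (1 / (2 * r)) * ∫ x, g i j x with ha
  have ha0 : ∀ i j, 0 ≤ a i j := fun i j =>
    mul_nonneg (by positivity) (integral_nonneg (hg0 i j))
  have hrow : ∀ i, ∑ j, (a i j + a j i) ≤ ν.q i := by
    intro i
    have e : ∑ j, (a i j + a j i) = (1 / (2 * r)) * ∫ x, (∑ j, g i j x + ∑ j, g j i x) := by
      rw [integral_add (integrable_finsetSum _ (fun j _ => hgi i j))
        (integrable_finsetSum _ (fun j _ => hgi j i)), integral_finsetSum _ (fun j _ => hgi i j),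
        integral_finsetSum _ (fun j _ => hgi j i), Finset.sum_add_distrib, mul_add,
        Finset.mul_sum, Finset.mul_sum]
    rw [e]
    have h1 : ∫ x, (∑ j, g i j x + ∑ j, g j i x) ≤
        ∫ x, (ν.q i * k r (x - r / 2 - ν.x i) + ν.q i * k r (x + r / 2 - ν.x i)) := by
      refine integral_mono ((integrable_finsetSum _ (fun j _ => hgi i j)).add
        (integrable_finsetSum _ (fun j _ => hgi j i))) ((hkL i).add (hkR i)) (fun x => ?_)
      simp only [hsumj, hsumi]
      exact add_le_add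
        (mul_le_of_le_one_right (hk0 _ _) (hfr _ x (hQ0 x) (le_add_of_nonneg_left (hP0 x))))
        (mul_le_of_le_one_right (hk0 _ _) (hfr _ x (hP0 x) (le_add_of_nonneg_right (hQ0 x))))
    rw [integral_add (hkL i) (hkR i), hkLv, hkRv] at h1
    rw [one_div, inv_mul_le_iff₀ (by positivity)]
    linarith
  have hsupp : ∀ i j, a i j ≠ 0 → |ν.x i - ν.x j| ≤ 2 * r := by
    intro i j hij
    have : ∃ x, g i j x ≠ 0 := by
      by_contra hcon
      simp only [not_exists, not_not] at hcon
      exact hij (by simp [ha, hcon])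
    obtain ⟨x, hx⟩ := this
    have h1 := lt_of_k_ne (right_ne_zero_of_mul (left_ne_zero_of_mul hx))
    have h2 := lt_of_k_ne (right_ne_zero_of_mul
      (ne_zero_of_div_ne_zero_aux (right_ne_zero_of_mul hx)))
    rw [abs_lt] at h1 h2
    rw [abs_le]
    constructor <;> linarith [h1.1, h1.2, h2.1, h2.2]
  have hsupp' : ∀ i j, a i j + a j i ≠ 0 → |ν.x i - ν.x j| ≤ 2 * r := by
    intro i j hij
    by_cases h1 : a i j = 0
    · rw [abs_sub_comm]; exact hsupp j i (by simpa [h1] using hij)
    · exact hsupp i j h1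
  have hc := ν.cpl_of_weights (2 * r) (by positivity) (fun i j => a i j + a j i)
    (fun i j => add_nonneg (ha0 _ _) (ha0 _ _)) (fun i j => add_comm _ _) hrow hsupp'
  set S := ∑ i, ∑ j, (a i j + a j i) * (ν.x i - ν.x j) ^ 2 with hS
  have hS2 : S = 2 * ∑ i, ∑ j, a i j * (ν.x i - ν.x j) ^ 2 := by
    simp only [hS, add_mul, Finset.sum_add_distrib]
    rw [Finset.sum_comm (f := fun i j => a j i * (ν.x i - ν.x j) ^ 2), two_mul]
    congr 1
    exact Finset.sum_congr rfl (fun i _ => Finset.sum_congr rfl (fun j _ => by ring))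
  have hr2 : 0 < (2 * r) ^ 2 := by positivity
  refine ⟨S / (2 * r) ^ 2, ?_, ?_, ?_, fun n hn => ?_⟩
  · exact div_nonneg (Finset.sum_nonneg (fun i _ => Finset.sum_nonneg (fun j _ =>
      mul_nonneg (add_nonneg (ha0 _ _) (ha0 _ _)) (sq_nonneg _)))) hr2.le
  · rw [div_le_one hr2]
    calc S ≤ ∑ i, ∑ j, (a i j + a j i) * (2 * r) ^ 2 := by
          refine Finset.sum_le_sum (fun i _ => Finset.sum_le_sum (fun j _ => ?_))
          by_cases hij : a i j + a j i = 0
          · simp [hij]
          · refine mul_le_mul_of_nonneg_left ?_ (add_nonneg (ha0 _ _) (ha0 _ _))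
            rw [← sq_abs]
            exact pow_le_pow_left₀ (abs_nonneg _) (hsupp' i j hij) 2
      _ ≤ ∑ i, ν.q i * (2 * r) ^ 2 := Finset.sum_le_sum (fun i _ => by
          rw [← Finset.sum_mul]; exact mul_le_mul_of_nonneg_right (hrow i) hr2.le)
      _ = (2 * r) ^ 2 := by rw [← Finset.sum_mul, h, one_mul]
  · rwa [div_mul_cancel₀ _ hr2.ne']
  · set τ : ℝ := (1 / 4) ^ n with hτ
    set κ : ℝ := (1 / 2) ^ n with hκ
    have hτ0 : 0 < τ := by positivity
    have hτ1 : τ ≤ 1 := pow_le_one₀ (by norm_num) (by norm_num)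
    have hκ0 : 0 < κ := by positivity
    have hκ1 : κ ≤ 1 := pow_le_one₀ (by norm_num) (by norm_num)
    have hτκ : τ = κ ^ 2 := by rw [hτ, hκ, ← pow_mul, mul_comm, pow_mul]; norm_num
    have h64 : ((1 : ℝ) / 64) ^ n = τ ^ 3 := by rw [hτ, ← pow_mul, mul_comm, pow_mul]; norm_num
    have hall : ∀ x, ∑ i, ∑ j, g i j x = P x * Q x / (P x + Q x) := by
      intro x
      simp only [hsumj]
      rw [← Finset.sum_mul]
      have : ∑ i, ν.q i * k r (x - r / 2 - ν.x i) = P x := rfl
      rw [this]; ring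
    have hGi : Integrable (fun x => ∑ i, ∑ j, g i j x) :=
      integrable_finsetSum _ (fun i _ => integrable_finsetSum _ (fun j _ => hgi i j))
    have hpt : ∀ x, ∑ i, ∑ j, g i j x ≤ ν.m (τ * r) (x - τ * r / 2) +
        (1 / (τ * r) ^ 2) * ∑ i, ∑ j, g i j x * (ν.x i - ν.x j) ^ 2 := by
      intro x
      have hterm : ∀ i j, g i j x ≤ ν.q i * k (τ * r) (x - τ * r / 2 - ν.x i) *
          (ν.q j * k r (x + r / 2 - ν.x j) / (P x + Q x)) +
          (1 / (τ * r) ^ 2) * (g i j x * (ν.x i - ν.x j) ^ 2) := by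
        intro i j
        have hA : 0 ≤ ν.q i * k (τ * r) (x - τ * r / 2 - ν.x i) *
            (ν.q j * k r (x + r / 2 - ν.x j) / (P x + Q x)) :=
          mul_nonneg (mul_nonneg (ν.q_nonneg i) (k_nonneg _ _))
            (div_nonneg (hk0 _ _) (add_nonneg (hP0 x) (hQ0 x)))
        have hB : 0 ≤ (1 / (τ * r) ^ 2) * (g i j x * (ν.x i - ν.x j) ^ 2) :=
          mul_nonneg (by positivity) (mul_nonneg (hg0 i j x) (sq_nonneg _))
        by_cases hx : g i j x = 0
        · rw [hx] at hB ⊢; linarith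
        have h1 := lt_of_k_ne (right_ne_zero_of_mul (left_ne_zero_of_mul hx))
        have h2 := lt_of_k_ne (right_ne_zero_of_mul
          (ne_zero_of_div_ne_zero_aux (right_ne_zero_of_mul hx)))
        by_cases hd : ν.x j - ν.x i ≤ τ * r
        · have h3 : |x - τ * r / 2 - ν.x i| < τ * r / 2 := by
            rw [abs_lt] at h1 h2 ⊢
            constructor <;> linarith [h1.1, h1.2, h2.1, h2.2]
          have : g i j x = ν.q i * k (τ * r) (x - τ * r / 2 - ν.x i) *
              (ν.q j * k r (x + r / 2 - ν.x j) / (P x + Q x)) := by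
            simp only [hg]; rw [k_of_lt h1, k_of_lt h3]
          linarith
        · have h3 : (τ * r) ^ 2 ≤ (ν.x i - ν.x j) ^ 2 := by
            have : 0 < τ * r := by positivity
            nlinarith
          have : g i j x ≤ (1 / (τ * r) ^ 2) * (g i j x * (ν.x i - ν.x j) ^ 2) := by
            rw [one_div, ← div_eq_inv_mul, le_div_iff₀ (by positivity)]
            exact mul_le_mul_of_nonneg_left h3 (hg0 i j x)
          linarith
      refine (Finset.sum_le_sum (fun i _ => Finset.sum_le_sum (fun j _ => hterm i j))).trans ?_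
      simp only [Finset.sum_add_distrib, ← Finset.mul_sum]
      refine add_le_add ?_ le_rfl
      refine Finset.sum_le_sum (fun i _ => ?_)
      refine mul_le_of_le_one_right (mul_nonneg (ν.q_nonneg i) (k_nonneg _ _)) ?_
      rw [← Finset.sum_div]
      exact hfr _ x (hQ0 x) (le_add_of_nonneg_left (hP0 x))
    have hG2 : Integrable (fun x => ∑ i, ∑ j, g i j x * (ν.x i - ν.x j) ^ 2) :=
      integrable_finsetSum _ (fun i _ => integrable_finsetSum _ (fun j _ => (hgi i j).mul_const _))
    have hG2v : ∫ x, ∑ i, ∑ j, g i j x * (ν.x i - ν.x j) ^ 2 = r * S := by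
      rw [integral_finsetSum _ (fun i _ =>
        integrable_finsetSum _ (fun j _ => (hgi i j).mul_const _)), hS2, Finset.mul_sum,
        Finset.mul_sum]
      refine Finset.sum_congr rfl (fun i _ => ?_)
      rw [integral_finsetSum _ (fun j _ => (hgi i j).mul_const _), Finset.mul_sum, Finset.mul_sum]
      refine Finset.sum_congr rfl (fun j _ => ?_)
      rw [integral_mul_const]
      simp only [ha]
      field_simp
    have hmi : Integrable (fun x => ν.m (τ * r) (x - τ * r / 2)) :=
      (ν.integrable_m _).comp_sub_right _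
    have hPint : ∫ x, ∑ i, ∑ j, g i j x ≤ τ * r + (1 / (τ * r) ^ 2) * (r * S) := by
      have := integral_mono hGi (hmi.add (hG2.const_mul _)) hpt
      simp only [Pi.add_apply] at this
      rwa [integral_add hmi (hG2.const_mul _), integral_const_mul, hG2v,
        integral_sub_right_eq_self (ν.m (τ * r)), h.integral_m (by positivity)] at this
    have hhalf : Integrable (fun x => P x + Q x) :=
      ((ν.integrable_m r).comp_sub_right _).add ((ν.integrable_m r).comp_add_right _)
    have hJ : ∫ x, J (P x) (Q x) ≤ 2 * κ * (2 * r) + 4 / κ * ∫ x, ∑ i, ∑ j, g i j x := by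
      have := integral_mono (h.integrable_J hr)
        ((hhalf.const_mul (2 * κ)).add (hGi.const_mul (4 / κ))) (fun x => by
          simp only [Pi.add_apply, hall]
          exact J_upper (hP0 x) (hQ0 x) hκ0 hκ1)
      simp only [Pi.add_apply] at this
      rwa [integral_add (hhalf.const_mul _) (hGi.const_mul _), integral_const_mul,
        integral_const_mul, h.integral_halves hr] at this
    rw [h64, div_le_iff₀ hr2] at hn
    have hS' : (1 / (τ * r) ^ 2) * (r * S) ≤ 4 * τ * r := by
      rw [one_div, ← div_eq_inv_mul, div_le_iff₀ (by positivity)]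
      calc r * S ≤ r * (τ ^ 3 * (2 * r) ^ 2) := mul_le_mul_of_nonneg_left hn hr.le
        _ = _ := by ring
    have hfin : 4 / κ * ∫ x, ∑ i, ∑ j, g i j x ≤ 4 / κ * (5 * τ * r) :=
      mul_le_mul_of_nonneg_left (by linarith) (by positivity)
    have e5 : 4 / κ * (5 * τ * r) = 20 * κ * r := by rw [hτκ]; field_simp; ring
    rw [h.I_eq hr, one_div, inv_mul_le_iff₀ (by positivity)]
    have : 0 < κ * r := by positivity
    nlinarith

end FM

end Vale.Agent.P114
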