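import Vale.Agent.P114.Frostman
import Vale.Agent.P114.Defs

/-! Words, the random composed map, and the block models attached to an iterated system. -/

namespace Vale.Agent.P114

open MeasureTheory Set Filter Topology FM
open scoped ENNReal NNReal

universe u

namespace Model

variable (M : Model.{u})

theorem E_eq_sum (n : ℕ) (F : List M.Ω → ℝ) :
    M.E n F = ∑ w : Fin n → M.Ω, (∏ j, M.P (w j)) * F (List.ofFn w) := by
  induction n generalizing F with
  | zero => simp [E_zero]
  | succ n ih =>
    rw [E_succ, ← (Fin.consEquiv (fun _ : Fin (n + 1) => M.Ω)).sum_comp, Fintype.sum_prod_type]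
    refine Finset.sum_congr rfl (fun ω _ => ?_)
    rw [ih, Finset.mul_sum]
    refine Finset.sum_congr rfl (fun w _ => ?_)
    simp [Fin.consEquiv, Fin.prod_univ_succ, List.ofFn_succ, mul_assoc]

theorem single_le_E {F : List M.Ω → ℝ} (hF : ∀ l, 0 ≤ F l) (l : List M.Ω) :
    (l.map M.P).prod * F l ≤ M.E l.length F := by
  induction l generalizing F with
  | nil => simp [E_zero]
  | cons ω l ih =>
    rw [List.length_cons, E_succ, List.map_cons, List.prod_cons, mul_assoc]
    refine le_trans (mul_le_mul_of_nonneg_left (ih (F := fun l => F (ω :: l)) (fun l => hF _))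
      (M.P_pos ω).le) ?_
    exact Finset.single_le_sum (f := fun ω => M.P ω * M.E l.length (fun l => F (ω :: l)))
      (fun ω _ => mul_nonneg (M.P_pos ω).le (M.E_nonneg (fun l _ => hF _))) (Finset.mem_univ ω)

theorem prod_P_pos (l : List M.Ω) : 0 < (l.map M.P).prod := by
  induction l with
  | nil => simp
  | cons ω l ih => rw [List.map_cons, List.prod_cons]; exact mul_pos (M.P_pos ω) ih

theorem E_log_P (n : ℕ) :
    M.E n (fun l => -Real.log (l.map M.P).prod) ≤ n * Real.log (Fintype.card M.Ω) := by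
  have hne : Nonempty M.Ω := by
    by_contra h
    rw [not_nonempty_iff] at h
    have := M.P_sum
    simp at this
  have hc : (0 : ℝ) < Fintype.card M.Ω := by exact_mod_cast Fintype.card_pos
  have h1 : ∑ ω, M.P ω * -Real.log (M.P ω) ≤ Real.log (Fintype.card M.Ω) := by
    calc ∑ ω, M.P ω * -Real.log (M.P ω) ≤ ∑ ω, (M.P ω * (Real.log (Fintype.card M.Ω) - 1) +
          (Fintype.card M.Ω : ℝ)⁻¹) := by
          refine Finset.sum_le_sum (fun ω _ => ?_)
          have hp := M.P_pos ω
          have := Real.log_le_sub_one_of_pos (x := (Fintype.card M.Ω : ℝ)⁻¹ * (M.P ω)⁻¹)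
            (by positivity)
          rw [Real.log_mul (by positivity) (by positivity), Real.log_inv, Real.log_inv] at this
          have h2 := mul_le_mul_of_nonneg_left this hp.le
          have h3 : M.P ω * ((Fintype.card M.Ω : ℝ)⁻¹ * (M.P ω)⁻¹) = (Fintype.card M.Ω : ℝ)⁻¹ := by
            field_simp
          nlinarith
      _ = _ := by
          rw [Finset.sum_add_distrib, ← Finset.sum_mul, M.P_sum, Finset.sum_const, Finset.card_univ,
            nsmul_eq_mul, mul_inv_cancel₀ hc.ne']
          ring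
  induction n with
  | zero => simp [E_zero]
  | succ n ih =>
    rw [E_succ]
    have : ∀ ω, M.E n (fun l => -Real.log ((ω :: l).map M.P).prod) =
        -Real.log (M.P ω) + M.E n (fun l => -Real.log (l.map M.P).prod) := by
      intro ω
      rw [← M.E_const n (-Real.log (M.P ω)), ← E_add]
      refine M.E_congr (fun l _ => ?_)
      rw [List.map_cons, List.prod_cons, Real.log_mul (M.P_pos ω).ne' (M.prod_P_pos l).ne']
      ring
    simp only [this, mul_add, Finset.sum_add_distrib, ← Finset.sum_mul, M.P_sum]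
    push_cast
    linarith

end Model

/-- an iterated function system with probabilities -/
structure Sys (Λ : Type u) [Fintype Λ] where
  r : Λ → ℝ
  t : Λ → ℝ
  p : Λ → ℝ
  r_ne : ∀ i, r i ≠ 0
  r_lt : ∀ i, |r i| < 1
  p_pos : ∀ i, 0 < p i
  p_sum : ∑ i, p i = 1

theorem wordMap_append {Λ : Type*} (r t : Λ → ℝ) (l₁ l₂ : List Λ) :
    wordMap r t (l₁ ++ l₂) = wordMap r t l₁ ∘ wordMap r t l₂ := by
  funext x; simp [wordMap, List.foldr_append]

theorem wordMap_affine {Λ : Type*} (r t : Λ → ℝ) (l : List Λ) (u : ℝ) :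
    wordMap r t l u = (l.map r).prod * u + wordMap r t l 0 := by
  induction l with
  | nil => simp [wordMap]
  | cons i l ih =>
    show r i * wordMap r t l u + t i = _ * u + (r i * wordMap r t l 0 + t i)
    rw [ih, List.map_cons, List.prod_cons]; ring

theorem measurable_wordMap {Λ : Type*} (r t : Λ → ℝ) (l : List Λ) :
    Measurable (wordMap r t l) := by
  rw [show wordMap r t l = fun u => (l.map r).prod * u + wordMap r t l 0 from
    funext (wordMap_affine r t l)]
  exact (measurable_id.const_mul _).add_const _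

namespace Sys

variable {Λ : Type u} [Fintype Λ] (S : Sys Λ)

/-- the model whose letters are the maps themselves -/
noncomputable abbrev base : Model.{u} where
  Ω := Λ
  fin := inferInstance
  P := S.p
  P_pos := S.p_pos
  P_sum := S.p_sum
  lam := S.r
  lam_ne := S.r_ne
  lam_lt := S.r_lt
  σ := fun _ => dirac 0
  σ_prob := fun _ => prob_dirac _
  A := Λ
  finA := inferInstance
  θ := fun _ => 0
  σ_sp := fun _ _ => ⟨fun _ => 0, fun _ => zero_le_one, by simp [dirac]⟩

/-- expectation over the random composed map -/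
noncomputable def G (n : ℕ) (Φ : (ℝ → ℝ) → ℝ) : ℝ :=
  S.base.E n (fun l : List Λ => Φ (wordMap S.r S.t l))

theorem G_eq_sum (n : ℕ) (Φ : (ℝ → ℝ) → ℝ) :
    S.G n Φ = ∑ w : Fin n → Λ, (∏ j, S.p (w j)) * Φ (wordMap S.r S.t (List.ofFn w)) :=
  S.base.E_eq_sum n _

theorem G_add (m n : ℕ) (Φ : (ℝ → ℝ) → ℝ) :
    S.G (m + n) Φ = S.G m (fun f => S.G n (fun g => Φ (f ∘ g))) := by
  unfold G
  rw [Model.E_append]
  refine S.base.E_congr (fun l₁ _ => S.base.E_congr (fun l₂ _ => ?_))
  exact congrArg Φ (wordMap_append _ _ _ _)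

theorem κ_base (l : List Λ) : S.base.κ l = ((l.map S.r).prod)⁻¹ := by
  induction l with
  | nil => simp [Model.κ]
  | cons i l ih =>
    show (S.r i)⁻¹ * S.base.κ l = _
    rw [ih, List.map_cons, List.prod_cons, mul_inv]

open Classical in
theorem probG_eq (n : ℕ) (g : ℝ → ℝ) :
    probG S.r S.t S.p n g = S.G n (fun f => if f = g then 1 else 0) := by
  rw [G_eq_sum]
  unfold probG
  simp only [mul_ite, mul_one, mul_zero]

theorem probG_nonneg (n : ℕ) (g : ℝ → ℝ) : 0 ≤ probG S.r S.t S.p n g := by
  rw [probG_eq]; exact S.base.E_nonneg (fun l _ => by dsimp only; split_ifs <;> norm_num)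

theorem probG_le_one (n : ℕ) (g : ℝ → ℝ) : probG S.r S.t S.p n g ≤ 1 := by
  rw [probG_eq]; exact S.base.E_le (fun l _ => by dsimp only; split_ifs <;> norm_num)

theorem probG_pos (l : List Λ) : 0 < probG S.r S.t S.p l.length (wordMap S.r S.t l) := by
  classical
  rw [probG_eq]
  have := S.base.single_le_E (F := fun l' : List Λ =>
    if wordMap S.r S.t l' = wordMap S.r S.t l then (1 : ℝ) else 0)
    (fun l => by split_ifs <;> norm_num) l
  rw [if_pos rfl, mul_one] at this
  refine (S.base.prod_P_pos l).trans_le (this.trans (le_of_eq ?_))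
  unfold G
  congr!

/-- entropy of the composed map, natural logarithm -/
noncomputable def Ent (n : ℕ) : ℝ := S.G n (fun f => -Real.log (probG S.r S.t S.p n f))

theorem Ent_nonneg (n : ℕ) : 0 ≤ S.Ent n :=
  S.base.E_nonneg (fun _ _ => neg_nonneg.2 (Real.log_nonpos (S.probG_nonneg _ _)
    (S.probG_le_one _ _)))

theorem entG_eq (n : ℕ) : entG S.r S.t S.p n = S.Ent n / Real.log 2 := by
  classical
  unfold entG Ent
  rw [G_eq_sum, Finset.sum_div]
  have : ∀ g, -(probG S.r S.t S.p n g * Real.logb 2 (probG S.r S.t S.p n g)) =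
      ∑ w : Fin n → Λ, if wordMap S.r S.t (List.ofFn w) = g then
        (∏ j, S.p (w j)) * -Real.log (probG S.r S.t S.p n g) / Real.log 2 else 0 := by
    intro g
    generalize hL : Real.logb 2 (probG S.r S.t S.p n g) = L
    have hL' : -Real.log (probG S.r S.t S.p n g) / Real.log 2 = -L := by
      rw [← hL, Real.logb, neg_div]
    simp only [mul_div_assoc, hL']
    unfold probG
    rw [Finset.sum_mul, ← Finset.sum_neg_distrib]
    refine Finset.sum_congr rfl (fun w _ => ?_)
    split_ifs <;> simp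
  simp only [this]
  rw [Finset.sum_comm]
  refine Finset.sum_congr rfl (fun w _ => ?_)
  rw [Finset.sum_ite_eq, if_pos (Finset.mem_image_of_mem _ (Finset.mem_univ w))]

theorem lyap_eq : lyap S.r S.p = S.base.chi / Real.log 2 := by
  unfold lyap Model.chi
  rw [Finset.sum_div, ← Finset.sum_neg_distrib]
  refine Finset.sum_congr rfl (fun i _ => ?_)
  show _ = S.p i * -Real.log |S.r i| / Real.log 2
  rw [Real.logb]; ring

theorem probG_comp (m n : ℕ) (f g : ℝ → ℝ) :
    probG S.r S.t S.p m f * probG S.r S.t S.p n g ≤ probG S.r S.t S.p (m + n) (f ∘ g) := by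
  rw [probG_eq, probG_eq, probG_eq, G_add]
  unfold G
  rw [← Model.E_mul_const]
  refine S.base.E_mono (fun l₁ _ => ?_)
  rw [← Model.E_const_mul]
  refine S.base.E_mono (fun l₂ _ => ?_)
  dsimp only
  split_ifs with h1 h2 h3
  any_goals norm_num
  exact h3 (by rw [h1, h2])

theorem Ent_add (m n : ℕ) : S.Ent (m + n) ≤ S.Ent m + S.Ent n := by
  unfold Ent
  rw [G_add]
  unfold G
  rw [← S.base.E_const m (S.base.E n _), ← Model.E_add]
  refine S.base.E_mono (fun l₁ h₁ => ?_)
  dsimp only
  rw [← S.base.E_const n (-Real.log (probG S.r S.t S.p m _)), ← Model.E_add]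
  refine S.base.E_mono (fun l₂ h₂ => ?_)
  have p1 := S.probG_pos l₁
  have p2 := S.probG_pos l₂
  rw [h₁] at p1
  rw [h₂] at p2
  have := Real.log_le_log (mul_pos p1 p2) (S.probG_comp m n _ _)
  rw [Real.log_mul p1.ne' p2.ne'] at this
  linarith

theorem Ent_mul (j n : ℕ) : S.Ent (j * n) ≤ j * S.Ent n := by
  classical
  induction j with
  | zero =>
    rw [Nat.zero_mul, Nat.cast_zero, zero_mul]
    show -Real.log (probG S.r S.t S.p 0 (wordMap S.r S.t [])) ≤ 0
    rw [probG_eq]
    show -Real.log (if wordMap S.r S.t [] = wordMap S.r S.t [] then 1 else 0) ≤ 0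
    simp
  | succ j ih =>
    rw [Nat.succ_mul]
    have := S.Ent_add (j * n) n
    push_cast
    linarith

/-- iterated self-similarity -/
theorem iter {μ : Measure ℝ} [IsProbabilityMeasure μ]
    (hμ : μ = ∑ i, ENNReal.ofReal (S.p i) • μ.map (fun x => S.r i * x + S.t i)) (n : ℕ)
    (A : Set ℝ) (hA : MeasurableSet A) : μ.real A = S.G n (fun f => μ.real (f ⁻¹' A)) := by
  induction n generalizing A with
  | zero => rfl
  | succ n ih =>
    have hm : ∀ i, Measurable (fun x => S.r i * x + S.t i) := fun i =>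
      (measurable_id.const_mul _).add_const _
    have h1 : μ.real A = ∑ i, S.p i * μ.real ((fun x => S.r i * x + S.t i) ⁻¹' A) := by
      conv_lhs => rw [hμ]
      rw [measureReal_def, Measure.finsetSum_apply, ENNReal.toReal_sum (fun i _ => by
        rw [Measure.smul_apply, smul_eq_mul]
        exact ENNReal.mul_ne_top ENNReal.ofReal_ne_top (measure_ne_top _ _))]
      refine Finset.sum_congr rfl (fun i _ => ?_)
      rw [Measure.smul_apply, smul_eq_mul, ENNReal.toReal_mul, ENNReal.toReal_ofReal (S.p_pos i).le,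
        Measure.map_apply (hm i) hA, measureReal_def]
    rw [h1]
    refine Finset.sum_congr rfl (fun i _ => ?_)
    rw [ih _ (hm i hA)]
    rfl

section block

variable (n : ℕ)

open Classical in
/-- number of occurrences of each letter -/
noncomputable def cnt (w : Fin n → Λ) : Λ → Fin (n + 1) := fun a =>
  ⟨(Finset.univ.filter (fun j => w j = a)).card,
    Nat.lt_succ_of_le ((Finset.card_le_univ _).trans (by simp))⟩

/-- the possible letter counts -/
def Cl (Λ : Type u) [Fintype Λ] (n : ℕ) : Type u :=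
  {c : Λ → Fin (n + 1) // ∃ w : Fin n → Λ, cnt n w = c}

noncomputable instance : Fintype (Cl Λ n) := by
  classical
  unfold Cl; infer_instance

/-- class of a word -/
noncomputable def cls (w : Fin n → Λ) : Cl Λ n := ⟨cnt n w, w, rfl⟩

theorem card_Cl : Fintype.card (Cl Λ n) ≤ (n + 1) ^ Fintype.card Λ := by
  classical
  have := Fintype.card_le_of_injective (fun c : Cl Λ n => c.1) Subtype.val_injective
  simpa using this

theorem prod_cnt (w : Fin n → Λ) : ∏ a, S.r a ^ ((cls n w).1 a : ℕ) = ∏ j, S.r (w j) := by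
  classical
  rw [← Finset.prod_fiberwise' Finset.univ w S.r]
  refine Finset.prod_congr rfl (fun a _ => ?_)
  rw [Finset.prod_const]
  congr!

open Classical in
/-- probability of a class -/
noncomputable def PC (c : Cl Λ n) : ℝ := ∑ w, if cls n w = c then ∏ j, S.p (w j) else 0

theorem PC_pos (c : Cl Λ n) : 0 < S.PC n c := by
  classical
  obtain ⟨w, rfl⟩ : ∃ w, cls n w = c := by
    obtain ⟨c, w, rfl⟩ := c
    exact ⟨w, rfl⟩
  have hp : ∀ w : Fin n → Λ, 0 < ∏ j, S.p (w j) := fun w => Finset.prod_pos (fun _ _ => S.p_pos _)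
  refine Finset.sum_pos' (fun w' _ => ?_) ⟨w, Finset.mem_univ _, ?_⟩
  · split_ifs
    · exact (hp _).le
    · exact le_rfl
  · rw [if_pos rfl]; exact hp w

theorem PC_sum : ∑ c, S.PC n c = 1 := by
  classical
  unfold PC
  rw [Finset.sum_comm]
  simp only [Finset.sum_ite_eq, Finset.mem_univ, if_true]
  have := S.G_eq_sum n (fun _ => 1)
  simp only [mul_one] at this
  rw [← this]
  exact S.base.E_const n 1

open Classical in
/-- the model of blocks of length `n + 1`, conditioned on the letter counts -/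
noncomputable def blk : Model.{u} where
  Ω := Cl Λ (n + 1)
  fin := inferInstance
  P := S.PC (n + 1)
  P_pos := S.PC_pos (n + 1)
  P_sum := S.PC_sum (n + 1)
  lam := fun c => ∏ a, S.r a ^ (c.1 a : ℕ)
  lam_ne := fun _ => Finset.prod_ne_zero_iff.2 (fun a _ => pow_ne_zero _ (S.r_ne a))
  lam_lt := by
    rintro ⟨c, w, rfl⟩
    show |∏ a, S.r a ^ ((cls (n + 1) w).1 a : ℕ)| < 1
    rw [S.prod_cnt, Finset.abs_prod, Fin.prod_univ_succ]
    exact mul_lt_one_of_nonneg_of_lt_one_left (abs_nonneg _) (S.r_lt _)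
      (Finset.prod_le_one (fun _ _ => abs_nonneg _) (fun _ _ => (S.r_lt _).le))
  σ := fun c => ⟨Fin (n + 1) → Λ, inferInstance,
    fun w => (if cls (n + 1) w = c then ∏ j, S.p (w j) else 0) / S.PC (n + 1) c,
    fun w => wordMap S.r S.t (List.ofFn w) 0,
    fun w => div_nonneg (by
      split_ifs
      · exact Finset.prod_nonneg (fun _ _ => (S.p_pos _).le)
      · exact le_rfl) (S.PC_pos _ c).le⟩
  σ_prob := fun c => by
    show ∑ w : Fin (n + 1) → Λ, _ / _ = 1
    rw [← Finset.sum_div]
    exact div_self (S.PC_pos _ c).ne'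
  A := Fin (n + 1) → Λ
  finA := inferInstance
  θ := fun w => wordMap S.r S.t (List.ofFn w) 0
  σ_sp := fun _ w => ⟨fun w' => if w' = w then 1 else 0, fun _ => by
    dsimp only; split_ifs <;> norm_num, by simp⟩

theorem G_blk (Φ : (ℝ → ℝ) → ℝ) : S.G (n + 1) Φ = ∑ c, (S.blk n).P c *
    ((S.blk n).σ c).ev (fun y => Φ (fun u => (S.blk n).lam c * u + y)) := by
  classical
  rw [G_eq_sum]
  symm
  calc _ = ∑ c : Cl Λ (n + 1), ∑ w : Fin (n + 1) → Λ, if cls (n + 1) w = c then
        (∏ j, S.p (w j)) * Φ (wordMap S.r S.t (List.ofFn w)) else 0 := by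
        refine Finset.sum_congr rfl (fun (c : Cl Λ (n + 1)) _ => ?_)
        unfold FM.ev
        rw [Finset.mul_sum]
        refine Finset.sum_congr rfl (fun (w : Fin (n + 1) → Λ) _ => ?_)
        show S.PC (n + 1) c * ((if cls (n + 1) w = c then ∏ j, S.p (w j) else 0) / S.PC (n + 1) c *
          Φ (fun u => (∏ a, S.r a ^ (c.1 a : ℕ)) * u + wordMap S.r S.t (List.ofFn w) 0)) = _
        rw [← mul_assoc, mul_div_cancel₀ _ (S.PC_pos _ c).ne']
        split_ifs with h
        · congr 2
          funext u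
          rw [← h, S.prod_cnt, wordMap_affine S.r S.t _ u, List.map_ofFn, List.prod_ofFn]
          rfl
        · simp
    _ = _ := by
        rw [Finset.sum_comm]
        simp only [Finset.sum_ite_eq, Finset.mem_univ, if_true]

theorem G_mul (m : ℕ) (Φ : (ℝ → ℝ) → ℝ) : S.G (m * (n + 1)) Φ = (S.blk n).E m (fun l =>
    ((S.blk n).ζ l).ev (fun z => Φ (fun u => (u + z) / (S.blk n).κ l))) := by
  induction m generalizing Φ with
  | zero =>
    rw [Nat.zero_mul, Model.E_zero]
    simp only [Model.ζ, Model.κ, ev_dirac, add_zero, div_one]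
    rfl
  | succ m ih =>
    rw [Nat.succ_mul, G_add, ih, Model.E_succ]
    simp only [G_blk, ← Model.E_const_mul]
    rw [← Model.E_sum]
    refine (S.blk n).E_congr (fun l _ => ?_)
    rw [ev_sum]
    refine Finset.sum_congr rfl (fun c _ => ?_)
    rw [ev_const_mul, ev_comm]
    simp only [Model.ζ, Model.κ, ev_scale, ev_conv]
    congr 2
    funext y
    congr 1
    funext z
    congr 1
    funext u
    have h1 := (S.blk n).lam_ne c
    have h2 := (S.blk n).κ_ne l
    simp only [Function.comp]
    field_simp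
    ring

theorem chi_blk : (S.blk n).chi = (n + 1 : ℕ) * S.base.chi := by
  rw [← Model.E_log_κ]
  have h1 := S.G_blk n (fun f => -Real.log |f 1 - f 0|)
  simp only [mul_one, mul_zero, zero_add, add_sub_cancel_right,
    ((S.blk n).σ_prob _).ev_const] at h1
  unfold Model.chi
  rw [← h1]
  refine S.base.E_congr (fun l _ => ?_)
  dsimp only
  rw [S.κ_base, wordMap_affine S.r S.t l 1, abs_inv, Real.log_inv, mul_one, add_sub_cancel_right]

theorem blk_SS {μ : Measure ℝ} [IsProbabilityMeasure μ]
    (hμ : μ = ∑ i, ENNReal.ofReal (S.p i) • μ.map (fun x => S.r i * x + S.t i)) :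
    (S.blk n).SS μ := fun m A hA => by
  rw [S.iter hμ (m * (n + 1)) A hA, G_mul]
  rfl

theorem Ent_blk (m : ℕ) : S.Ent (m * (n + 1)) ≤ m * Real.log (Fintype.card (Cl Λ (n + 1))) +
    (S.blk n).E m (fun l => ((S.blk n).ζ l).Sh) := by
  classical
  refine le_trans ?_ (add_le_add ((S.blk n).E_log_P m) le_rfl)
  unfold Ent
  rw [G_mul, ← Model.E_add]
  refine (S.blk n).E_mono (fun l hl => ?_)
  have hp := (S.blk n).ζ_prob l
  unfold FM.Sh
  rw [← hp.ev_const (-Real.log (l.map (S.blk n).P).prod), ← ev_add]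
  refine ev_mono' _ (fun i hi => ?_)
  have hq : 0 < ((S.blk n).ζ l).q i := lt_of_le_of_ne (FM.q_nonneg _ i) (Ne.symm hi)
  have h1 := hq.trans_le (q_le_pt _ i)
  have h2 := (S.blk n).prod_P_pos l
  rw [← neg_add, ← Real.log_mul h2.ne' h1.ne']
  refine neg_le_neg (Real.log_le_log (mul_pos h2 h1) ?_)
  rw [probG_eq, G_mul, ← hl]
  refine le_trans (mul_le_mul_of_nonneg_left ?_ h2.le) ((S.blk n).single_le_E
    (fun l' => ev_nonneg _ (fun z => by split_ifs <;> norm_num)) l)
  refine ev_mono _ (fun z => ?_)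
  split_ifs with h3 h4
  any_goals norm_num
  exact h4 (by rw [h3])

end block

end Sys

end Vale.Agent.P114
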