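import Vale.Agent.P114.Count

/-! The random model: independent letters, each with a slope and a conditional law of the
translation given the slope. Lists are read backwards in time. -/

namespace Vale.Agent.P114

open MeasureTheory Set Real FM

universe u

structure Model where
  Ω : Type u
  fin : Fintype Ω
  P : Ω → ℝ
  P_pos : ∀ ω, 0 < P ω
  P_sum : ∑ ω, P ω = 1
  lam : Ω → ℝ
  lam_ne : ∀ ω, lam ω ≠ 0
  lam_lt : ∀ ω, |lam ω| < 1
  σ : Ω → FM.{u} ℝ
  σ_prob : ∀ ω, (σ ω).Prob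
  A : Type u
  finA : Fintype A
  θ : A → ℝ
  σ_sp : ∀ ω, @Sp A finA θ (σ ω) 1

instance Model.instFintype (M : Model.{u}) : Fintype M.Ω := M.fin
instance Model.instFintypeA (M : Model.{u}) : Fintype M.A := M.finA

namespace Model

variable (M : Model.{u})

/-- expectation over slope sequences of length `n` -/
def E : ℕ → (List M.Ω → ℝ) → ℝ
  | 0, F => F []
  | n + 1, F => ∑ ω, M.P ω * E n (fun l => F (ω :: l))

/-- inverse of the product of the slopes -/
noncomputable def κ : List M.Ω → ℝ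
  | [] => 1
  | ω :: l => (M.lam ω)⁻¹ * κ l

/-- conditional law of the translation divided by the slope -/
noncomputable def ζ : List M.Ω → FM.{u} ℝ
  | [] => dirac 0
  | ω :: l => ((M.σ ω).conv (ζ l)).scale (M.lam ω)⁻¹

/-- Lyapunov exponent -/
noncomputable def chi : ℝ := ∑ ω, M.P ω * (-Real.log |M.lam ω|)

theorem E_zero (F : List M.Ω → ℝ) : M.E 0 F = F [] := rfl
theorem E_succ (n : ℕ) (F : List M.Ω → ℝ) :
    M.E (n + 1) F = ∑ ω, M.P ω * M.E n (fun l => F (ω :: l)) := rfl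

theorem E_mono {n : ℕ} {F G : List M.Ω → ℝ} (h : ∀ l, l.length = n → F l ≤ G l) :
    M.E n F ≤ M.E n G := by
  induction n generalizing F G with
  | zero => exact h [] rfl
  | succ n ih =>
    exact Finset.sum_le_sum (fun ω _ => mul_le_mul_of_nonneg_left
      (ih (fun l hl => h _ (by simp [hl]))) (M.P_pos ω).le)

theorem E_congr {n : ℕ} {F G : List M.Ω → ℝ} (h : ∀ l, l.length = n → F l = G l) :
    M.E n F = M.E n G :=
  le_antisymm (M.E_mono (fun l hl => (h l hl).le)) (M.E_mono (fun l hl => (h l hl).ge))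

theorem E_const (n : ℕ) (c : ℝ) : M.E n (fun _ => c) = c := by
  induction n with
  | zero => rfl
  | succ n ih => rw [E_succ, ih, ← Finset.sum_mul, M.P_sum, one_mul]

theorem E_add (n : ℕ) (F G : List M.Ω → ℝ) :
    M.E n (fun l => F l + G l) = M.E n F + M.E n G := by
  induction n generalizing F G with
  | zero => rfl
  | succ n ih => simp only [E_succ, ih, mul_add, Finset.sum_add_distrib]

theorem E_const_mul (n : ℕ) (c : ℝ) (F : List M.Ω → ℝ) :
    M.E n (fun l => c * F l) = c * M.E n F := by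
  induction n generalizing F with
  | zero => rfl
  | succ n ih =>
    simp only [E_succ, ih, Finset.mul_sum]
    exact Finset.sum_congr rfl (fun _ _ => by ring)

theorem E_mul_const (n : ℕ) (c : ℝ) (F : List M.Ω → ℝ) :
    M.E n (fun l => F l * c) = M.E n F * c := by
  simp only [mul_comm _ c, E_const_mul]

theorem E_sub (n : ℕ) (F G : List M.Ω → ℝ) :
    M.E n (fun l => F l - G l) = M.E n F - M.E n G := by
  have := M.E_add n F (fun l => (-1) * G l)
  rw [E_const_mul] at this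
  simpa [sub_eq_add_neg] using this

theorem E_sum {B : Type*} (n : ℕ) (s : Finset B) (F : B → List M.Ω → ℝ) :
    M.E n (fun l => ∑ j ∈ s, F j l) = ∑ j ∈ s, M.E n (F j) := by
  classical
  induction s using Finset.induction_on with
  | empty => simp [E_const]
  | insert a s ha ih => simp only [Finset.sum_insert ha, E_add, ih]

theorem E_ev {α : Type} (n : ℕ) (W : FM.{u} α) (F : List M.Ω → α → ℝ) :
    M.E n (fun l => W.ev (F l)) = W.ev (fun p => M.E n (fun l => F l p)) := by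
  unfold FM.ev
  rw [E_sum]
  simp only [E_const_mul]

theorem E_le {n : ℕ} {F : List M.Ω → ℝ} {c : ℝ} (h : ∀ l, l.length = n → F l ≤ c) :
    M.E n F ≤ c := (M.E_mono (G := fun _ => c) h).trans (M.E_const n c).le

theorem E_nonneg {n : ℕ} {F : List M.Ω → ℝ} (h : ∀ l, l.length = n → 0 ≤ F l) :
    0 ≤ M.E n F := (M.E_const n 0).ge.trans (M.E_mono h)

theorem E_append (m n : ℕ) (F : List M.Ω → ℝ) :
    M.E (m + n) F = M.E m (fun l₁ => M.E n (fun l₂ => F (l₁ ++ l₂))) := by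
  induction m generalizing F with
  | zero => simp [E_zero]
  | succ m ih =>
    rw [Nat.succ_add, E_succ, E_succ]
    simp only [ih, List.cons_append]

theorem E_eventually {α : Type*} {f : Filter α} (n : ℕ) {F G : List M.Ω → α → ℝ}
    (h : ∀ l, l.length = n → ∀ᶠ a in f, F l a ≤ G l a) :
    ∀ᶠ a in f, M.E n (fun l => F l a) ≤ M.E n (fun l => G l a) := by
  induction n generalizing F G with
  | zero => exact h [] rfl
  | succ n ih =>
    have : ∀ᶠ a in f, ∀ ω, M.E n (fun l => F (ω :: l) a) ≤ M.E n (fun l => G (ω :: l) a) :=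
      Filter.eventually_all.2 (fun ω => ih (fun l hl => h _ (by simp [hl])))
    filter_upwards [this] with a ha
    exact Finset.sum_le_sum (fun ω _ => mul_le_mul_of_nonneg_left (ha ω) (M.P_pos ω).le)

theorem ζ_prob (l : List M.Ω) : (M.ζ l).Prob := by
  induction l with
  | nil => exact prob_dirac 0
  | cons ω l ih => exact ((M.σ_prob ω).conv ih).scale _

theorem κ_append (l₁ l₂ : List M.Ω) : M.κ (l₁ ++ l₂) = M.κ l₁ * M.κ l₂ := by
  induction l₁ with
  | nil => simp [κ]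
  | cons ω l ih => simp only [List.cons_append, κ, ih, mul_assoc]

theorem ζ_append (l₁ l₂ : List M.Ω) (y : ℝ) : ((M.ζ (l₁ ++ l₂)).scale y).Eqv
    (((M.ζ l₁).scale y).conv ((M.ζ l₂).scale (y * M.κ l₁))) := by
  induction l₁ generalizing y with
  | nil => intro F; simp [ζ, κ, ev_conv]
  | cons ω l ih =>
    intro F
    have := fun a => ih (y * (M.lam ω)⁻¹) (fun z => F (y * ((M.lam ω)⁻¹ * a) + z))
    simp only [ev_conv, ev_scale] at this
    simp only [List.cons_append, ζ, κ, ev_conv, ev_scale, mul_add]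
    congr 1
    funext a
    simp only [← mul_assoc] at this ⊢
    rw [this a]
    simp only [add_assoc]

theorem eqv_scale_one (ν : FM.{u} ℝ) : ν.Eqv (ν.scale 1) := by intro F; simp

theorem ζ_append' (l₁ l₂ : List M.Ω) :
    (M.ζ (l₁ ++ l₂)).Eqv ((M.ζ l₁).conv ((M.ζ l₂).scale (M.κ l₁))) := by
  intro F
  have := M.ζ_append l₁ l₂ 1 F
  simpa [ev_conv] using this

theorem lam_pos (ω : M.Ω) : 0 < |M.lam ω| := abs_pos.2 (M.lam_ne ω)

theorem one_le_inv (ω : M.Ω) : 1 ≤ |(M.lam ω)⁻¹| := by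
  rw [abs_inv]; exact (one_le_inv₀ (M.lam_pos ω)).2 (M.lam_lt ω).le

theorem one_le_κ (l : List M.Ω) : 1 ≤ |M.κ l| := by
  induction l with
  | nil => simp [κ]
  | cons ω l ih => rw [κ, abs_mul]; exact one_le_mul_of_one_le_of_one_le (M.one_le_inv ω) ih

theorem κ_ne (l : List M.Ω) : M.κ l ≠ 0 := abs_pos.1 (lt_of_lt_of_le one_pos (M.one_le_κ l))

theorem exists_b : ∃ b : ℕ, 1 ≤ b ∧ ∀ ω, |(M.lam ω)⁻¹| ≤ 2 ^ b := by
  have : ∀ᶠ b : ℕ in Filter.atTop, ∀ ω, |(M.lam ω)⁻¹| ≤ 2 ^ b :=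
    Filter.eventually_all.2 (fun ω =>
      (tendsto_pow_atTop_atTop_of_one_lt (one_lt_two (α := ℝ))).eventually_ge_atTop _)
  exact ((Filter.eventually_ge_atTop 1).and this).exists

theorem exists_g : ∃ g : ℝ, 1 < g ∧ ∀ ω, g ≤ |(M.lam ω)⁻¹| := by
  have : ∀ᶠ g in nhdsWithin (1 : ℝ) (Ioi 1), ∀ ω, g ≤ |(M.lam ω)⁻¹| := by
    rw [Filter.eventually_all]
    intro ω
    have h0 : 1 < |(M.lam ω)⁻¹| := by
      rw [abs_inv]; exact (one_lt_inv₀ (M.lam_pos ω)).2 (M.lam_lt ω)
    filter_upwards [Ioo_mem_nhdsGT h0] with δ hδ using hδ.2.le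
  obtain ⟨g, h1, h2⟩ := (this.and self_mem_nhdsWithin).exists
  exact ⟨g, h2, h1⟩

theorem κ_le {b : ℕ} (hb : ∀ ω, |(M.lam ω)⁻¹| ≤ 2 ^ b) (l : List M.Ω) :
    |M.κ l| ≤ 2 ^ (l.length * b) := by
  induction l with
  | nil => simp [κ]
  | cons ω l ih =>
    rw [κ, abs_mul, List.length_cons, Nat.succ_mul, pow_add, mul_comm]
    exact mul_le_mul ih (hb ω) (abs_nonneg _) (by positivity)

theorem E_log_κ (n : ℕ) : M.E n (fun l => Real.log |M.κ l|) = n * M.chi := by
  induction n with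
  | zero => simp [E_zero, κ]
  | succ n ih =>
    rw [E_succ]
    have : ∀ ω, M.E n (fun l => Real.log |M.κ (ω :: l)|) = -Real.log |M.lam ω| + n * M.chi := by
      intro ω
      rw [← ih, ← M.E_const n (-Real.log |M.lam ω|), ← E_add]
      refine M.E_congr (fun l _ => ?_)
      rw [κ, abs_mul, Real.log_mul (abs_pos.2 (inv_ne_zero (M.lam_ne ω))).ne'
        (abs_pos.2 (M.κ_ne l)).ne', abs_inv, Real.log_inv]
    simp only [this, mul_add, Finset.sum_add_distrib, ← Finset.sum_mul, M.P_sum]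
    unfold chi
    push_cast; ring

theorem chi_pos : 0 < M.chi := by
  have hne : Nonempty M.Ω := by
    by_contra h
    rw [not_nonempty_iff] at h
    have := M.P_sum
    simp at this
  refine Finset.sum_pos (fun ω _ => mul_pos (M.P_pos ω) ?_) Finset.univ_nonempty
  have := Real.log_neg (M.lam_pos ω) (M.lam_lt ω)
  linarith

theorem ζ_sp (l : List M.Ω) : ∃ (B : Type u) (_ : Fintype B) (θ : B → ℝ),
    Fintype.card B = l.length * Fintype.card M.A ∧ Sp θ (M.ζ l) 1 := by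
  induction l with
  | nil => exact ⟨PEmpty, inferInstance, fun _ => 0, by simp,
      fun _ => ⟨fun _ => 0, fun _ => zero_le_one, by simp [ζ, dirac]⟩⟩
  | cons ω l ih =>
    obtain ⟨B, _, θ, hB, hθ⟩ := ih
    refine ⟨M.A ⊕ B, inferInstance, fun j => (M.lam ω)⁻¹ * Sum.elim M.θ θ j, ?_, ?_⟩
    · rw [Fintype.card_sum, hB, List.length_cons]; ring
    · rintro ⟨i, j⟩
      obtain ⟨c, hc, e⟩ := M.σ_sp ω i
      obtain ⟨c', hc', e'⟩ := hθ j
      refine ⟨Sum.elim c c', fun a => by cases a <;> simp [hc, hc'], ?_⟩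
      show (M.lam ω)⁻¹ * ((M.σ ω).x i + (M.ζ l).x j) = _
      rw [e, e', Fintype.sum_sum_type, mul_add, Finset.mul_sum, Finset.mul_sum]
      simp only [Sum.elim_inl, Sum.elim_inr]
      congr 1 <;> exact Finset.sum_congr rfl (fun _ _ => by ring)

theorem exists_D : ∃ D : ℝ, 0 ≤ D ∧ ∀ ω i, |(M.σ ω).x i| ≤ D * (1 - |M.lam ω|) := by
  have h0 : ∀ ω i, 0 ≤ |(M.σ ω).x i| / (1 - |M.lam ω|) := fun ω i =>
    div_nonneg (abs_nonneg _) (by linarith [M.lam_lt ω])
  refine ⟨∑ ω, ∑ i, |(M.σ ω).x i| / (1 - |M.lam ω|),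
    Finset.sum_nonneg (fun ω _ => Finset.sum_nonneg (fun i _ => h0 ω i)), fun ω i => ?_⟩
  rw [← div_le_iff₀ (by linarith [M.lam_lt ω])]
  refine le_trans ?_ (Finset.single_le_sum (f := fun ω => ∑ i, |(M.σ ω).x i| / (1 - |M.lam ω|))
    (fun ω _ => Finset.sum_nonneg (fun i _ => h0 ω i)) (Finset.mem_univ ω))
  exact Finset.single_le_sum (f := fun i => |(M.σ ω).x i| / (1 - |M.lam ω|))
    (fun i _ => h0 ω i) (Finset.mem_univ i)

theorem ζ_bound {D : ℝ} (hD : ∀ ω i, |(M.σ ω).x i| ≤ D * (1 - |M.lam ω|)) (l : List M.Ω) :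
    ∀ i, |(M.ζ l).x i| ≤ D * (|M.κ l| - 1) := by
  induction l with
  | nil => intro i; simp [ζ, κ, dirac]
  | cons ω l ih =>
    rintro ⟨i, j⟩
    show |(M.lam ω)⁻¹ * ((M.σ ω).x i + (M.ζ l).x j)| ≤ D * (|(M.lam ω)⁻¹ * M.κ l| - 1)
    have h1 := (abs_add_le _ _).trans (add_le_add (hD ω i) (ih j))
    have h2 := M.lam_pos ω
    rw [abs_mul, abs_mul, abs_inv]
    calc _ ≤ |M.lam ω|⁻¹ * (D * (1 - |M.lam ω|) + D * (|M.κ l| - 1)) :=
          mul_le_mul_of_nonneg_left h1 (by positivity)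
      _ = _ := by field_simp; ring

end Model

end Vale.Agent.P114
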