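import Vale.Agent.P114.Growth
import Mathlib.Analysis.MeanInequalities
import Mathlib.Analysis.MeanInequalitiesPow

/-! Moments of order `1 + θ` of the window mass and their submultiplicativity. -/

namespace Vale.Agent.P114

open MeasureTheory Set Real Filter Topology

universe u

theorem wjensen {B : Type*} (s : Finset B) (w f : B → ℝ) (hw : ∀ i, 0 ≤ w i) (hf : ∀ i, 0 ≤ f i)
    {θ : ℝ} (hθ : 0 < θ) :
    (∑ i ∈ s, w i * f i) ^ (1 + θ) ≤ (∑ i ∈ s, w i) ^ θ * ∑ i ∈ s, w i * f i ^ (1 + θ) := by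
  have h := Real.inner_le_weight_mul_Lp_of_nonneg s (p := 1 + θ) (by linarith) w f hw hf
  have h0 : 0 ≤ ∑ i ∈ s, w i := Finset.sum_nonneg (fun i _ => hw i)
  have h1 : 0 ≤ ∑ i ∈ s, w i * f i ^ (1 + θ) :=
    Finset.sum_nonneg (fun i _ => mul_nonneg (hw i) (Real.rpow_nonneg (hf i) _))
  have h2 : 0 ≤ ∑ i ∈ s, w i * f i := Finset.sum_nonneg (fun i _ => mul_nonneg (hw i) (hf i))
  refine (Real.rpow_le_rpow h2 h (by linarith)).trans (le_of_eq ?_)
  rw [Real.mul_rpow (Real.rpow_nonneg h0 _) (Real.rpow_nonneg h1 _), ← Real.rpow_mul h0,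
    ← Real.rpow_mul h1, inv_mul_cancel₀ (by linarith), Real.rpow_one]
  congr 2
  field_simp
  ring

theorem young_aux {a b θ : ℝ} (ha : 0 ≤ a) (hb : 0 ≤ b) (hθ : 0 < θ) :
    a * b ^ θ ≤ 1 / (1 + θ) * a ^ (1 + θ) + θ / (1 + θ) * b ^ (1 + θ) := by
  have h := Real.geom_mean_le_arith_mean2_weighted (w₁ := 1 / (1 + θ)) (w₂ := θ / (1 + θ))
    (p₁ := a ^ (1 + θ)) (p₂ := b ^ (1 + θ)) (by positivity) (by positivity) (by positivity)
    (by positivity) (by field_simp)
  rw [← Real.rpow_mul ha, ← Real.rpow_mul hb, show (1 + θ) * (1 / (1 + θ)) = 1 by field_simp,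
    show (1 + θ) * (θ / (1 + θ)) = θ by field_simp, Real.rpow_one] at h
  exact h

theorem exp_small {B η : ℝ} (hB : 0 ≤ B) (hη : 0 < η) :
    ∀ᶠ θ in 𝓝[>] (0 : ℝ), ∀ a : ℝ, |a| ≤ B → Real.exp (a * θ) ≤ 1 + θ * (a + η) := by
  have h1 : (0 : ℝ) < min (1 / (B + 1)) (η / (B + 1) ^ 2) := lt_min (by positivity) (by positivity)
  filter_upwards [Ioo_mem_nhdsGT h1] with θ hθ a ha
  obtain ⟨h0, h2⟩ := hθ
  have h3 : θ < 1 / (B + 1) := h2.trans_le (min_le_left _ _)
  have h4 : θ < η / (B + 1) ^ 2 := h2.trans_le (min_le_right _ _)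
  rw [lt_div_iff₀ (by positivity)] at h3 h4
  have h5 : |a * θ| ≤ 1 := by
    rw [abs_mul, abs_of_pos h0]; nlinarith
  have h6 := (abs_le.1 (Real.abs_exp_sub_one_sub_id_le h5)).2
  have h7 : a ^ 2 ≤ (B + 1) ^ 2 := by
    rw [← sq_abs a]; exact pow_le_pow_left₀ (abs_nonneg _) (by linarith) 2
  have h8 : θ * a ^ 2 ≤ η := by nlinarith
  have h9 : (a * θ) ^ 2 ≤ θ * η := by nlinarith
  linarith

namespace FM

/-- integral of the power `1 + θ` of the unit window mass -/
noncomputable def Xi (ν : FM.{u} ℝ) (θ : ℝ) : ℝ := ∫ x, ν.m 1 x ^ (1 + θ)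

/-- moment of order `θ` of the window mass at a random atom -/
noncomputable def Th (ν : FM.{u} ℝ) (θ r : ℝ) : ℝ := ν.ev (fun y => ν.m r y ^ θ)

variable {ν σ : FM.{u} ℝ}

theorem Eqv.Xi {ν ν' : FM.{u} ℝ} (h : ν.Eqv ν') : ν.Xi = ν'.Xi := by
  funext r; unfold FM.Xi; rw [h.m]

theorem Xi_nonneg (ν : FM.{u} ℝ) (θ : ℝ) : 0 ≤ ν.Xi θ :=
  integral_nonneg (fun x => Real.rpow_nonneg (ν.m_nonneg _ _) _)

theorem Prob.integrable_pow (h : ν.Prob) {θ : ℝ} (hθ : 0 < θ) :
    Integrable (fun x => ν.m 1 x ^ (1 + θ)) :=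
  h.integrable_comp 1 (Φ := fun t => t ^ (1 + θ)) (measurable_id.pow_const _)
    (Real.zero_rpow (by linarith)) (C := 1) (fun t h0 h1 => by
      rw [abs_of_nonneg (Real.rpow_nonneg h0 _)]
      exact Real.rpow_le_one h0 h1 (by linarith))

theorem m_le_sum (ν : FM.{u} ℝ) {r : ℝ} {K : ℕ} (hK : 2 * (r + 1) ≤ K) {x y : ℝ}
    (hxy : |x - y| < 1 / 2) :
    ν.m r y ≤ ∑ j ∈ Finset.range K, ν.m 1 (x + (-(r + 1) / 2 + j / 2)) := by
  unfold FM.m
  rw [← ev_sum]
  refine ν.ev_mono (fun y' => ?_)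
  by_cases hy : |y - y'| < r / 2
  · rw [k_of_lt hy]
    rw [abs_lt] at hxy hy
    set e : ℝ := y' - x + (r + 1) / 2 with he
    have he0 : 0 ≤ 2 * e := by linarith [hxy.1, hxy.2, hy.1, hy.2]
    have h1 := Nat.floor_le he0
    have h2 := Nat.lt_floor_add_one (2 * e)
    have h3 : ⌊2 * e⌋₊ < K := by
      have : ((⌊2 * e⌋₊ : ℕ) : ℝ) < K := by linarith [hxy.1, hxy.2, hy.1, hy.2]
      exact_mod_cast this
    have h4 := Finset.single_le_sum
      (f := fun j : ℕ => k 1 (x + (-(r + 1) / 2 + j / 2) - y')) (fun j _ => k_nonneg _ _)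
      (Finset.mem_range.2 h3)
    rwa [k_of_lt (by rw [abs_lt]; constructor <;> linarith)] at h4
  · rw [k, if_neg hy]
    exact Finset.sum_nonneg (fun j _ => k_nonneg _ _)

theorem Prob.Th_le (h : ν.Prob) {θ r : ℝ} (hθ : 0 < θ) {K : ℕ} (hK0 : 0 < K)
    (hK : 2 * (r + 1) ≤ K) : ν.Th θ r ≤ (K : ℝ) ^ θ * ν.Xi θ := by
  set c : ℕ → ℝ := fun j => -(r + 1) / 2 + j / 2 with hc
  set S : ℝ → ℝ := fun x => ∑ j ∈ Finset.range K, ν.m 1 (x + c j) with hS
  have hK' : (0 : ℝ) < K := by exact_mod_cast hK0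
  have hS0 : ∀ x, 0 ≤ S x := fun x => Finset.sum_nonneg (fun j _ => ν.m_nonneg _ _)
  have hSK : ∀ x, S x ≤ K := fun x => by
    have := Finset.sum_le_card_nsmul (Finset.range K) (fun j => ν.m 1 (x + c j)) 1
      (fun j _ => h.m_le_one _ _)
    simpa using this
  have hSm : Measurable (fun x => S x ^ θ) :=
    (Finset.measurable_sum _ (fun j _ =>
      (ν.measurable_m 1).comp (measurable_id.add_const _))).pow_const _
  have hSb : ∀ x, |S x ^ θ| ≤ (K : ℝ) ^ θ := fun x => by
    rw [abs_of_nonneg (Real.rpow_nonneg (hS0 x) _)]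
    exact Real.rpow_le_rpow (hS0 x) (hSK x) hθ.le
  have h1 := ν.integral_m_mul one_pos hSm hSb
  rw [one_div_one, one_mul] at h1
  have hi : ∀ j, Integrable (fun x => ν.m 1 (x + c j) ^ (1 + θ)) := fun j =>
    (h.integrable_pow hθ).comp_add_right (c j)
  calc ν.Th θ r ≤ ν.ev (fun y => ∫ u, k 1 u * S (y + 1 * u) ^ θ) := by
        refine ν.ev_mono (fun y => ?_)
        rw [← integral_k_one_const (ν.m r y ^ θ)]
        refine integral_k_one_le ((integrable_k 1).mul_const _)
          (integrable_k_one_mul hSm hSb 1 y) (fun u hu => ?_)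
        exact Real.rpow_le_rpow (ν.m_nonneg _ _) (ν.m_le_sum hK (by simpa using hu)) hθ.le
    _ = ∫ x, ν.m 1 x * S x ^ θ := h1.symm
    _ ≤ ∫ x, (K : ℝ) ^ θ * (1 / (1 + θ) * ν.m 1 x ^ (1 + θ) + θ / (1 + θ) *
          ∑ j ∈ Finset.range K, (1 / K) * ν.m 1 (x + c j) ^ (1 + θ)) := by
        refine integral_mono (ν.integrable_m_mul 1 hSm hSb)
          (((((h.integrable_pow hθ).const_mul _).add ((integrable_finsetSum _
            (fun j _ => (hi j).const_mul _)).const_mul _))).const_mul _) (fun x => ?_)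
        have e : S x = K * ∑ j ∈ Finset.range K, (1 / K) * ν.m 1 (x + c j) := by
          rw [← Finset.mul_sum, ← mul_assoc, mul_one_div_cancel hK'.ne', one_mul]
        have h0 : 0 ≤ ∑ j ∈ Finset.range K, (1 / K : ℝ) * ν.m 1 (x + c j) :=
          Finset.sum_nonneg (fun j _ => mul_nonneg (by positivity) (ν.m_nonneg _ _))
        have h2 := young_aux (ν.m_nonneg 1 x) h0 hθ
        have h3 := Real.rpow_arith_mean_le_arith_mean_rpow (Finset.range K) (fun _ => (1 / K : ℝ))
          (fun j => ν.m 1 (x + c j)) (fun _ _ => by positivity)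
          (by simp [hK'.ne']) (fun j _ => ν.m_nonneg _ _) (p := 1 + θ) (by linarith)
        have h4 := mul_le_mul_of_nonneg_left h3 (show 0 ≤ θ / (1 + θ) by positivity)
        show ν.m 1 x * S x ^ θ ≤ _
        rw [e, Real.mul_rpow hK'.le h0, mul_left_comm]
        exact mul_le_mul_of_nonneg_left (by linarith) (by positivity)
    _ = (K : ℝ) ^ θ * ν.Xi θ := by
        rw [integral_const_mul, integral_add ((h.integrable_pow hθ).const_mul _)
          ((integrable_finsetSum _ (fun j _ => (hi j).const_mul _)).const_mul _),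
          integral_const_mul, integral_const_mul,
          integral_finsetSum _ (fun j _ => (hi j).const_mul _)]
        simp only [integral_const_mul,
          integral_add_right_eq_self (fun x => ν.m 1 x ^ (1 + θ))]
        rw [Finset.sum_const, Finset.card_range, nsmul_eq_mul]
        unfold FM.Xi
        congr 1
        field_simp

theorem Prob.Xi_conv_le (hσ : σ.Prob) (h : ν.Prob) {θ c D : ℝ} (hθ : 0 < θ) (hc : 1 ≤ |c|)
    (hD : ∀ i, |σ.x i| ≤ D * |c|) :
    (σ.conv (ν.scale c)).Xi θ ≤ σ.Xi θ * ν.Th θ (4 * D + 2) := by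
  classical
  have hc0 : 0 < |c| := by linarith
  have hi : ∀ y, Integrable (fun x => ν.m (4 * D + 2) y ^ θ * σ.m 1 (x - c * y) ^ (1 + θ)) :=
    fun y => ((hσ.integrable_pow hθ).comp_sub_right (c * y)).const_mul _
  calc (σ.conv (ν.scale c)).Xi θ
      ≤ ∫ x, ν.ev (fun y => ν.m (4 * D + 2) y ^ θ * σ.m 1 (x - c * y) ^ (1 + θ)) := by
        refine integral_mono ((hσ.conv (h.scale c)).integrable_pow hθ)
          (ν.integrable_ev (F := fun y x => ν.m (4 * D + 2) y ^ θ * σ.m 1 (x - c * y) ^ (1 + θ))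
            hi) (fun x => ?_)
        have e : (σ.conv (ν.scale c)).m 1 x = ∑ i, (ν.q i * if σ.m 1 (x - c * ν.x i) = 0 then 0
            else 1) * σ.m 1 (x - c * ν.x i) := by
          have : (σ.conv (ν.scale c)).m 1 x = ν.ev (fun y => σ.m 1 (x - c * y)) := by
            unfold FM.m
            rw [ev_conv]
            simp only [ev_scale]
            rw [ev_comm]
            congr 1; funext y; congr 1; funext a; congr 1; ring
          rw [this]
          refine Finset.sum_congr rfl (fun i _ => ?_)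
          split_ifs with h0
          · simp [h0]
          · simp
        show (σ.conv (ν.scale c)).m 1 x ^ (1 + θ) ≤ _
        rw [e]
        refine (wjensen Finset.univ _ _ (fun i => mul_nonneg (ν.q_nonneg i)
          (by split_ifs <;> norm_num)) (fun i => σ.m_nonneg _ _) hθ).trans ?_
        rw [Finset.mul_sum]
        refine Finset.sum_le_sum (fun i _ => ?_)
        by_cases h0 : σ.m 1 (x - c * ν.x i) = 0
        · rw [if_pos h0, mul_zero, zero_mul, mul_zero]
          exact mul_nonneg (ν.q_nonneg i) (mul_nonneg (Real.rpow_nonneg (ν.m_nonneg _ _) _)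
            (Real.rpow_nonneg (σ.m_nonneg _ _) _))
        · rw [if_neg h0, mul_one, mul_left_comm]
          refine mul_le_mul_of_nonneg_left (mul_le_mul_of_nonneg_right
            (Real.rpow_le_rpow (Finset.sum_nonneg (fun j _ => mul_nonneg (ν.q_nonneg j)
              (by split_ifs <;> norm_num))) ?_ hθ.le) (Real.rpow_nonneg (σ.m_nonneg _ _) _))
            (ν.q_nonneg i)
          refine Finset.sum_le_sum (fun j _ => mul_le_mul_of_nonneg_left ?_ (ν.q_nonneg j))
          split_ifs with h1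
          · exact k_nonneg _ _
          · obtain ⟨a, -, ha⟩ := σ.exists_of_m_ne h0
            obtain ⟨a', -, ha'⟩ := σ.exists_of_m_ne h1
            refine (k_of_lt ?_).ge
            have e1 : c * (ν.x i - ν.x j) = (x - c * ν.x j - σ.x a') - (x - c * ν.x i - σ.x a) +
              (σ.x a' - σ.x a) := by ring
            have h2 : |c| * |ν.x i - ν.x j| < |c| * (2 * D + 1) := by
              rw [← abs_mul, e1]
              have h3 := abs_add_le ((x - c * ν.x j - σ.x a') - (x - c * ν.x i - σ.x a))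
                (σ.x a' - σ.x a)
              have h4 := abs_sub (x - c * ν.x j - σ.x a') (x - c * ν.x i - σ.x a)
              have h5 := abs_sub (σ.x a') (σ.x a)
              have h6 := hD a
              have h7 := hD a'
              linarith
            have := lt_of_mul_lt_mul_left h2 hc0.le
            linarith
    _ = σ.Xi θ * ν.Th θ (4 * D + 2) := by
        rw [ν.integral_ev (F := fun y x => ν.m (4 * D + 2) y ^ θ * σ.m 1 (x - c * y) ^ (1 + θ)) hi]
        simp only [integral_const_mul,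
          integral_sub_right_eq_self (fun x => σ.m 1 x ^ (1 + θ))]
        rw [ev_mul_const, mul_comm]
        rfl

theorem Prob.Xi_small (h : ν.Prob) {η : ℝ} (hη : 0 < η) :
    ∀ᶠ θ in 𝓝[>] (0 : ℝ), ν.Xi θ ≤ 1 - θ * (ν.H 1 - η) := by
  obtain ⟨B, hB0, hB⟩ := h.log_bdd
  filter_upwards [exp_small hB0 hη, self_mem_nhdsWithin] with θ hθ hθ0
  have hθ0 : 0 < θ := hθ0
  calc ν.Xi θ ≤ ∫ x, ((1 + θ * η) * ν.m 1 x - θ * negMulLog (ν.m 1 x)) := by
        refine integral_mono (h.integrable_pow hθ0) (((ν.integrable_m 1).const_mul _).sub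
          ((h.integrable_eta 1).const_mul _)) (fun x => ?_)
        show ν.m 1 x ^ (1 + θ) ≤ (1 + θ * η) * ν.m 1 x - θ * negMulLog (ν.m 1 x)
        rcases (ν.m_nonneg 1 x).eq_or_lt with h0 | h0
        · rw [← h0, Real.zero_rpow (by linarith)]; simp
        · rw [Real.rpow_add h0, Real.rpow_one, Real.rpow_def_of_pos h0]
          have := mul_le_mul_of_nonneg_left (hθ _ (hB 1 x)) h0.le
          simp only [negMulLog]
          linarith
    _ = _ := by
        rw [integral_sub ((ν.integrable_m 1).const_mul _) ((h.integrable_eta 1).const_mul _),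
          integral_const_mul, integral_const_mul, h.integral_m zero_le_one]
        unfold FM.H
        ring

end FM

namespace Model

variable (M : Model.{u})

theorem E_Xi_le {D θ : ℝ} (hD0 : 0 ≤ D) (hD : ∀ ω i, |(M.σ ω).x i| ≤ D * (1 - |M.lam ω|))
    (hθ : 0 < θ) {K : ℕ} (hK : 2 * (4 * D + 2 + 1) ≤ K) (L j : ℕ) :
    M.E (j * L) (fun l => (M.ζ l).Xi θ) ≤ ((K : ℝ) ^ θ * M.E L (fun l => (M.ζ l).Xi θ)) ^ j := by
  have hK0 : 0 < K := by
    have : (0 : ℝ) < K := by linarith
    exact_mod_cast this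
  have hE : 0 ≤ M.E L (fun l => (M.ζ l).Xi θ) := M.E_nonneg (fun l _ => FM.Xi_nonneg _ _)
  induction j with
  | zero =>
    rw [Nat.zero_mul, pow_zero, E_zero]
    have hp := M.ζ_prob []
    calc (M.ζ []).Xi θ ≤ ∫ x, (M.ζ []).m 1 x := by
          refine integral_mono (hp.integrable_pow hθ) (FM.integrable_m _ _) (fun x => ?_)
          exact Real.rpow_le_self_of_le_one (FM.m_nonneg _ _ _) (hp.m_le_one _ _) (by linarith)
      _ = 1 := hp.integral_m zero_le_one
  | succ j ih =>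
    rw [show (j + 1) * L = L + j * L by ring, E_append, pow_succ]
    calc _ ≤ M.E L (fun l₁ => M.E (j * L) (fun l₂ =>
            ((M.ζ l₁).Xi θ * (K : ℝ) ^ θ) * (M.ζ l₂).Xi θ)) := by
          refine M.E_mono (fun l₁ _ => M.E_mono (fun l₂ _ => ?_))
          rw [(M.ζ_append' l₁ l₂).Xi, mul_assoc]
          refine ((M.ζ_prob l₁).Xi_conv_le (M.ζ_prob l₂) (D := D) hθ (M.one_le_κ l₁)
            (fun i => (M.ζ_bound hD l₁ i).trans (by nlinarith))).trans ?_
          exact mul_le_mul_of_nonneg_left ((M.ζ_prob l₂).Th_le hθ hK0 hK) (FM.Xi_nonneg _ _)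
      _ = M.E (j * L) (fun l => (M.ζ l).Xi θ) * ((K : ℝ) ^ θ * M.E L (fun l => (M.ζ l).Xi θ)) := by
          simp only [E_const_mul, E_mul_const]
          ring
      _ ≤ _ := mul_le_mul_of_nonneg_right ih (by positivity)

theorem E_κ_pow (θ : ℝ) (n : ℕ) :
    M.E n (fun l => |M.κ l| ^ θ) = (∑ ω, M.P ω * |(M.lam ω)⁻¹| ^ θ) ^ n := by
  induction n with
  | zero => simp [E_zero, κ]
  | succ n ih =>
    rw [E_succ, pow_succ', Finset.sum_mul]
    refine Finset.sum_congr rfl (fun ω _ => ?_)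
    rw [mul_assoc, ← ih, ← M.E_const_mul n (|(M.lam ω)⁻¹| ^ θ)]
    congr 1
    refine M.E_congr (fun l _ => ?_)
    rw [κ, abs_mul, Real.mul_rpow (abs_nonneg _) (abs_nonneg _)]

theorem κ_small {η : ℝ} (hη : 0 < η) : ∀ᶠ θ in 𝓝[>] (0 : ℝ),
    ∑ ω, M.P ω * |(M.lam ω)⁻¹| ^ θ ≤ Real.exp (θ * (M.chi + η)) := by
  filter_upwards [exp_small (B := ∑ ω, |Real.log (|M.lam ω|)|)
    (Finset.sum_nonneg (fun _ _ => abs_nonneg _)) hη] with θ hθ
  calc ∑ ω, M.P ω * |(M.lam ω)⁻¹| ^ θ
      ≤ ∑ ω, M.P ω * (1 + θ * (-Real.log |M.lam ω| + η)) := by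
        refine Finset.sum_le_sum (fun ω _ => mul_le_mul_of_nonneg_left ?_ (M.P_pos ω).le)
        rw [abs_inv, Real.rpow_def_of_pos (inv_pos.2 (M.lam_pos ω)), Real.log_inv]
        refine hθ _ ?_
        rw [abs_neg]
        exact Finset.single_le_sum (f := fun ω => |Real.log (|M.lam ω|)|)
          (fun _ _ => abs_nonneg _) (Finset.mem_univ ω)
    _ = θ * (M.chi + η) + 1 := by
        have : ∀ ω, M.P ω * (1 + θ * (-Real.log |M.lam ω| + η)) =
            M.P ω * (1 + θ * η) + θ * (M.P ω * -Real.log |M.lam ω|) := fun ω => by ring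
        simp only [this, Finset.sum_add_distrib, ← Finset.sum_mul, ← Finset.mul_sum, M.P_sum]
        unfold chi
        ring
    _ ≤ _ := Real.add_one_le_exp _

open Classical in
/-- the bad pairs have exponentially small probability -/
theorem bad_small {h : ℝ} (hh : ∀ m : ℕ, h * m ≤ M.E m (fun l => (M.ζ l).Sh)) {η : ℝ}
    (hη : 0 < η) (R : ℝ) : ∃ L : ℕ, 0 < L ∧ ∃ β C : ℝ, 0 ≤ β ∧ β < 1 ∧ ∀ j : ℕ,
      M.E (j * L) (fun l => (M.ζ l).ev (fun z =>
        if |M.κ l| ≤ Real.exp ((M.chi + η) * L) ^ j ∧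
          (M.ζ l).m R z ≤ Real.exp (-((min h M.chi - η) * L)) ^ j then 0 else 1)) ≤ C * β ^ j := by
  obtain ⟨D, hD0, hD⟩ := M.exists_D
  obtain ⟨K, hK⟩ := exists_nat_ge (2 * (4 * D + 2 + 1))
  obtain ⟨K', hK'⟩ := exists_nat_ge (max 1 (2 * (R + 1)))
  have hK1 : (1 : ℝ) ≤ K := by linarith
  have hK'0 : 0 < K' := by
    have : (0 : ℝ) < K' := by linarith [le_max_left 1 (2 * (R + 1))]
    exact_mod_cast this
  obtain ⟨n₀, hn₀⟩ := exists_nat_ge (4 * (Real.log K + 1) / η)
  obtain ⟨L, hL, hLa⟩ := M.growth hh (η := η / 4) (by positivity) (n₀ + 1)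
  have hL1 : (n₀ : ℝ) + 1 ≤ L := by exact_mod_cast hL
  have hL0 : (0 : ℝ) < L := by linarith [Nat.cast_nonneg (α := ℝ) n₀]
  have hLK : Real.log K + 1 ≤ η / 4 * L := by
    rw [div_le_iff₀ hη] at hn₀; nlinarith
  have hev := M.E_eventually (f := 𝓝[>] (0 : ℝ)) L (F := fun l θ => (M.ζ l).Xi θ)
    (G := fun l θ => 1 - θ * ((M.ζ l).H 1 - 1)) (fun l _ => (M.ζ_prob l).Xi_small one_pos)
  obtain ⟨θ, ⟨h1, h2⟩, hθ⟩ := ((hev.and (M.κ_small (η := η / 2) (by positivity))).and
    self_mem_nhdsWithin).exists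
  have hθ : 0 < θ := hθ
  rw [E_sub, E_const, E_const_mul, E_sub, E_const] at h1
  set s : ℝ := min h M.chi with hs
  set β : ℝ := Real.exp (-(θ * (η / 2 * L))) with hβ
  have hβ0 : 0 < β := Real.exp_pos _
  refine ⟨L, by omega, β, 1 + (K' : ℝ) ^ θ, hβ0.le, Real.exp_lt_one_iff.2 (by
    have : 0 < θ * (η / 2 * L) := by positivity
    linarith), fun j => ?_⟩
  set a : ℝ := Real.exp ((M.chi + η) * L) ^ j with ha
  set τ : ℝ := Real.exp (-((s - η) * L)) ^ j with hτ
  have ha0 : 0 < a := by positivity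
  have hτ0 : 0 < τ := by positivity
  have h3 : (K : ℝ) ^ θ * M.E L (fun l => (M.ζ l).Xi θ) ≤
      Real.exp (-((s - η) * L)) ^ θ * β := by
    have h4 : M.E L (fun l => (M.ζ l).Xi θ) ≤ Real.exp (-(θ * (M.a L - 1))) := by
      have := Real.add_one_le_exp (-(θ * (M.a L - 1)))
      unfold Model.a at *
      linarith
    refine (mul_le_mul_of_nonneg_left h4 (by positivity)).trans ?_
    rw [Real.rpow_def_of_pos (by linarith), ← Real.exp_mul, hβ, ← Real.exp_add, ← Real.exp_add,
      Real.exp_le_exp]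
    have : Real.log K - (M.a L - 1) ≤ -((s - η) * L) - η / 2 * L := by linarith
    nlinarith
  calc _ ≤ M.E (j * L) (fun l => (a ^ θ)⁻¹ * |M.κ l| ^ θ + (τ ^ θ)⁻¹ * ((K' : ℝ) ^ θ *
          (M.ζ l).Xi θ)) := by
        refine M.E_mono (fun l _ => ?_)
        have hp := M.ζ_prob l
        calc _ ≤ (M.ζ l).ev (fun z => (a ^ θ)⁻¹ * |M.κ l| ^ θ + (τ ^ θ)⁻¹ * (M.ζ l).m R z ^ θ) := by
              refine FM.ev_mono _ (fun z => ?_)
              have p1 : 0 ≤ (a ^ θ)⁻¹ * |M.κ l| ^ θ := by positivity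
              have p2 : 0 ≤ (τ ^ θ)⁻¹ * (M.ζ l).m R z ^ θ :=
                mul_nonneg (by positivity) (Real.rpow_nonneg (FM.m_nonneg _ _ _) _)
              split_ifs with hg
              · linarith
              · rw [not_and_or, not_le, not_le] at hg
                rcases hg with hg | hg
                · have : 1 ≤ (a ^ θ)⁻¹ * |M.κ l| ^ θ := by
                    rw [le_inv_mul_iff₀ (by positivity), mul_one]
                    exact Real.rpow_le_rpow ha0.le hg.le hθ.le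
                  linarith
                · have : 1 ≤ (τ ^ θ)⁻¹ * (M.ζ l).m R z ^ θ := by
                    rw [le_inv_mul_iff₀ (by positivity), mul_one]
                    exact Real.rpow_le_rpow hτ0.le hg.le hθ.le
                  linarith
          _ = (a ^ θ)⁻¹ * |M.κ l| ^ θ + (τ ^ θ)⁻¹ * (M.ζ l).Th θ R := by
              rw [FM.ev_add, hp.ev_const, FM.ev_const_mul]; rfl
          _ ≤ _ := by
              refine add_le_add le_rfl (mul_le_mul_of_nonneg_left ?_ (by positivity))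
              exact hp.Th_le hθ hK'0 ((le_max_right _ _).trans hK')
    _ = (a ^ θ)⁻¹ * M.E (j * L) (fun l => |M.κ l| ^ θ) + (τ ^ θ)⁻¹ * ((K' : ℝ) ^ θ *
          M.E (j * L) (fun l => (M.ζ l).Xi θ)) := by
        rw [E_add, E_const_mul, E_const_mul, E_const_mul]
    _ ≤ β ^ j + (K' : ℝ) ^ θ * β ^ j := by
        refine add_le_add ?_ ?_
        · rw [E_κ_pow, inv_mul_le_iff₀ (by positivity)]
          refine (pow_le_pow_left₀ (Finset.sum_nonneg (fun ω _ =>
            mul_nonneg (M.P_pos ω).le (by positivity))) h2 _).trans (le_of_eq ?_)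
          rw [ha, hβ, ← Real.exp_nat_mul, ← Real.exp_nat_mul, ← Real.exp_nat_mul, ← Real.exp_mul,
            ← Real.exp_add]
          congr 1
          push_cast; ring
        · rw [mul_left_comm]
          refine mul_le_mul_of_nonneg_left ?_ (by positivity)
          rw [inv_mul_le_iff₀ (by positivity)]
          refine (M.E_Xi_le hD0 hD hθ hK L j).trans ((pow_le_pow_left₀
            (mul_nonneg (by positivity) (M.E_nonneg (fun l _ => FM.Xi_nonneg _ _))) h3 _).trans
            (le_of_eq ?_))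
          rw [mul_pow, hτ]
          congr 1
          rw [← Real.exp_mul, ← Real.exp_nat_mul, ← Real.exp_nat_mul, ← Real.exp_mul]
          congr 1
          ring
    _ = _ := by ring

end Model

end Vale.Agent.P114
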