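import Vale.Agent.P114.Ent

/-! Shift total variation after smoothing, self-couplings, and the reflection potential. -/

namespace Vale.Agent.P114

open MeasureTheory Set Real

universe u

namespace FM

/-- total variation between the smoothed measure and its shift by `z` -/
noncomputable def T (ν : FM.{u} ℝ) (ρ z : ℝ) : ℝ :=
  (1 / (2 * ρ)) * ∫ x, |ν.m ρ x - ν.m ρ (x + z)|

/-- `W` couples `σ` with itself and moves points by at most `R` -/
def IsCpl (W : FM.{u} (ℝ × ℝ)) (σ : FM.{u} ℝ) (R : ℝ) : Prop :=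
  (∀ F : ℝ → ℝ, W.ev (fun p => F p.1) = σ.ev F) ∧ (∀ F : ℝ → ℝ, W.ev (fun p => F p.2) = σ.ev F) ∧
    ∀ j, W.q j ≠ 0 → |(W.x j).1 - (W.x j).2| ≤ R

/-- a self-coupling of range `R` with mean square displacement at least `v` -/
def Cpl (σ : FM.{u} ℝ) (R v : ℝ) : Prop :=
  ∃ W : FM.{u} (ℝ × ℝ), W.IsCpl σ R ∧ v ≤ W.ev (fun p => (p.1 - p.2) ^ 2)

theorem Eqv.T {ν ν' : FM.{u} ℝ} (h : ν.Eqv ν') : ν.T = ν'.T := by
  funext r z; unfold FM.T; rw [h.m]

variable {ν σ : FM.{u} ℝ}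

theorem integrable_T (ν : FM.{u} ℝ) (ρ a b : ℝ) :
    Integrable (fun x => |ν.m ρ (x + a) - ν.m ρ (x + b)|) :=
  (((ν.integrable_m ρ).comp_add_right a).sub ((ν.integrable_m ρ).comp_add_right b)).abs

theorem integrable_T' (ν : FM.{u} ℝ) (ρ b : ℝ) :
    Integrable (fun x => |ν.m ρ x - ν.m ρ (x + b)|) := by
  simpa using ν.integrable_T ρ 0 b

theorem T_nonneg (ν : FM.{u} ℝ) {ρ : ℝ} (hρ : 0 < ρ) (z : ℝ) : 0 ≤ ν.T ρ z :=
  mul_nonneg (by positivity) (integral_nonneg (fun _ => abs_nonneg _))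

theorem Prob.T_le_one (h : ν.Prob) {ρ : ℝ} (hρ : 0 < ρ) (z : ℝ) : ν.T ρ z ≤ 1 := by
  have h1 : ∫ x, |ν.m ρ x - ν.m ρ (x + z)| ≤ ∫ x, (ν.m ρ x + ν.m ρ (x + z)) := by
    refine integral_mono (ν.integrable_T' ρ z)
      ((ν.integrable_m ρ).add ((ν.integrable_m ρ).comp_add_right z)) (fun x => ?_)
    have := ν.m_nonneg ρ x
    have := ν.m_nonneg ρ (x + z)
    simp only [abs_le]
    constructor <;> linarith
  rw [integral_add (ν.integrable_m ρ) ((ν.integrable_m ρ).comp_add_right z),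
    integral_add_right_eq_self (ν.m ρ) z, h.integral_m hρ.le] at h1
  unfold FM.T
  rw [one_div, inv_mul_le_iff₀ (by positivity)]
  linarith

theorem T_conv_cpl {W : FM.{u} (ℝ × ℝ)} {R : ℝ} (hW : W.IsCpl σ R) (ν : FM.{u} ℝ) {ρ : ℝ}
    (hρ : 0 < ρ) (z : ℝ) :
    (σ.conv ν).T ρ z ≤ W.ev (fun p => ν.T ρ (z + (p.1 - p.2))) := by
  unfold FM.T
  rw [ev_const_mul]
  refine mul_le_mul_of_nonneg_left ?_ (by positivity)
  have hi : ∀ p : ℝ × ℝ, Integrable (fun x => |ν.m ρ (x + -p.1) - ν.m ρ (x + (z - p.2))|) :=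
    fun p => ν.integrable_T ρ _ _
  calc ∫ x, |(σ.conv ν).m ρ x - (σ.conv ν).m ρ (x + z)|
      ≤ ∫ x, W.ev (fun p => |ν.m ρ (x + -p.1) - ν.m ρ (x + (z - p.2))|) := by
        refine integral_mono ((σ.conv ν).integrable_T' ρ z)
          (W.integrable_ev (F := fun p x => |ν.m ρ (x + -p.1) - ν.m ρ (x + (z - p.2))|) hi)
          (fun x => ?_)
        simp only [m_conv]
        rw [← hW.1 (fun y => ν.m ρ (x - y)), ← hW.2.1 (fun y => ν.m ρ (x + z - y)), ← ev_sub]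
        refine (W.abs_ev_le _).trans (le_of_eq ?_)
        simp only [sub_eq_add_neg, add_assoc]
    _ = W.ev (fun p => ∫ x, |ν.m ρ (x + -p.1) - ν.m ρ (x + (z - p.2))|) :=
        W.integral_ev (F := fun p x => |ν.m ρ (x + -p.1) - ν.m ρ (x + (z - p.2))|) hi
    _ = _ := by
        congr 1
        funext p
        rw [← integral_add_right_eq_self
          (fun x => |ν.m ρ (x + -p.1) - ν.m ρ (x + (z - p.2))|) p.1]
        congr 1
        funext x
        congr 3 <;> ring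

theorem isCpl_diag (σ : FM.{u} ℝ) {R : ℝ} (hR : 0 ≤ R) : (σ.map (fun y => (y, y))).IsCpl σ R :=
  ⟨fun _ => rfl, fun _ => rfl, fun j _ => by
    show |σ.x j - σ.x j| ≤ R
    simpa using hR⟩

theorem Prob.T_conv_le (hσ : σ.Prob) (ν : FM.{u} ℝ) {ρ : ℝ} (hρ : 0 < ρ) (z : ℝ) :
    (σ.conv ν).T ρ z ≤ ν.T ρ z := by
  have := T_conv_cpl (σ.isCpl_diag le_rfl) ν hρ z
  simpa [hσ.ev_const] using this

theorem eqv_conv_dirac (ν : FM.{u} ℝ) : ν.Eqv (ν.conv (dirac 0)) := by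
  intro F; rw [ev_conv]; simp

theorem Prob.T_le_div (h : ν.Prob) {ρ : ℝ} (hρ : 0 < ρ) {z : ℝ} (hz : 0 ≤ z) :
    ν.T ρ z ≤ z / ρ := by
  rw [(eqv_conv_dirac ν).T]
  refine (h.T_conv_le _ hρ z).trans ?_
  have hI : ∀ a : ℝ, Integrable (indicator (Icc (a - z) a) (fun _ => (1 : ℝ))) := fun a => by
    rw [integrable_indicator_iff measurableSet_Icc]
    exact integrableOn_const (by simp)
  have hv : ∀ a : ℝ, ∫ x, indicator (Icc (a - z) a) (fun _ => (1 : ℝ)) x = z := fun a => by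
    rw [integral_indicator measurableSet_Icc]; simp [hz]
  have h1 : ∫ x, |(dirac.{u} (0 : ℝ)).m ρ x - (dirac.{u} (0 : ℝ)).m ρ (x + z)| ≤
      ∫ x, (indicator (Icc (-(ρ / 2) - z) (-(ρ / 2))) (fun _ => (1 : ℝ)) x +
        indicator (Icc (ρ / 2 - z) (ρ / 2)) (fun _ => (1 : ℝ)) x) := by
    refine integral_mono ((dirac.{u} (0 : ℝ)).integrable_T' ρ z) ((hI _).add (hI _)) (fun x => ?_)
    simp only [FM.m, ev_dirac, sub_zero, k, indicator, mem_Icc, abs_lt]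
    by_cases h1 : -(ρ / 2) < x ∧ x < ρ / 2
    · by_cases h2 : -(ρ / 2) < x + z ∧ x + z < ρ / 2
      · rw [if_pos h1, if_pos h2]; split_ifs <;> norm_num
      · rw [if_pos h1, if_neg h2, if_pos (show ρ / 2 - z ≤ x ∧ x ≤ ρ / 2 from
          ⟨by by_contra h3; exact h2 ⟨by linarith [h1.1], by linarith⟩, h1.2.le⟩)]
        split_ifs <;> norm_num
    · by_cases h2 : -(ρ / 2) < x + z ∧ x + z < ρ / 2
      · rw [if_neg h1, if_pos h2, if_pos (show -(ρ / 2) - z ≤ x ∧ x ≤ -(ρ / 2) from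
          ⟨by linarith [h2.1], by by_contra h3; exact h1 ⟨by linarith, by linarith [h2.2]⟩⟩)]
        split_ifs <;> norm_num
      · rw [if_neg h1, if_neg h2]; split_ifs <;> norm_num
  rw [integral_add (hI _) (hI _), hv, hv] at h1
  unfold FM.T
  rw [one_div, inv_mul_le_iff₀ (by positivity)]
  calc _ ≤ z + z := h1
    _ = 2 * ρ * (z / ρ) := by field_simp; ring

theorem Cpl.mono {R v R' v' : ℝ} (h : σ.Cpl R v) (hR : R ≤ R') (hv : v' ≤ v) : σ.Cpl R' v' := by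
  obtain ⟨W, ⟨h1, h2, h3⟩, h4⟩ := h
  exact ⟨W, ⟨h1, h2, fun j hj => (h3 j hj).trans hR⟩, hv.trans h4⟩

theorem Cpl.scale {R v : ℝ} (h : σ.Cpl R v) (c : ℝ) : (σ.scale c).Cpl (|c| * R) (c ^ 2 * v) := by
  obtain ⟨W, ⟨h1, h2, h3⟩, h4⟩ := h
  refine ⟨W.map (fun p => (c * p.1, c * p.2)), ⟨fun F => h1 (fun y => F (c * y)),
    fun F => h2 (fun y => F (c * y)), fun j hj => ?_⟩, ?_⟩
  · show |c * (W.x j).1 - c * (W.x j).2| ≤ |c| * R
    rw [← mul_sub, abs_mul]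
    exact mul_le_mul_of_nonneg_left (h3 j hj) (abs_nonneg c)
  · rw [ev_map]
    simp only [← mul_sub, mul_pow]
    rw [ev_const_mul]
    exact mul_le_mul_of_nonneg_left h4 (sq_nonneg c)

end FM

/-- the potential of the reflection coupling -/
noncomputable def psi (R ρ M V₀ v z : ℝ) : ℝ :=
  R / ρ + z / M + ((M + R) ^ 2 - z ^ 2) / V₀ + (V₀ - v) / V₀

/-- `f` lies below the potential -/
def Good (R ρ M V₀ v : ℝ) (f : ℝ → ℝ) : Prop := ∀ z, 0 ≤ z → z ≤ M + R → f z ≤ psi R ρ M V₀ v z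

theorem psi_anti {R ρ M V₀ v v' z : ℝ} (hV : 0 < V₀) (h : v ≤ v') :
    psi R ρ M V₀ v' z ≤ psi R ρ M V₀ v z := by
  unfold psi
  have : (V₀ - v') / V₀ ≤ (V₀ - v) / V₀ := by gcongr
  linarith

theorem good_zero {R ρ M V₀ : ℝ} (hR : 0 ≤ R) (hρ : 0 < ρ) (hM : 0 < M) (hV : 0 < V₀) {f : ℝ → ℝ}
    (hf : ∀ z, f z ≤ 1) : Good R ρ M V₀ 0 f := by
  intro z h0 h1
  have a1 : 0 ≤ R / ρ := by positivity
  have a2 : 0 ≤ z / M := by positivity
  have a3 : 0 ≤ ((M + R) ^ 2 - z ^ 2) / V₀ := div_nonneg (by nlinarith) hV.le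
  have a4 : (V₀ - 0) / V₀ = 1 := by field_simp; ring
  unfold psi
  linarith [hf z]

/-- it suffices to check the potential bound strictly between `R` and `M` -/
theorem good_of_mid {R ρ M V₀ v : ℝ} (hR : 0 ≤ R) (hρ : 0 < ρ) (hM : 0 < M) (hV : 0 < V₀)
    (hv : v ≤ V₀) {f : ℝ → ℝ} (hf : ∀ z, f z ≤ 1) (hf' : ∀ z, 0 ≤ z → f z ≤ z / ρ)
    (hmid : ∀ z, R < z → z < M → f z ≤ psi R ρ M V₀ v z) : Good R ρ M V₀ v f := by
  intro z h0 h1
  have a1 : 0 ≤ R / ρ := by positivity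
  have a2 : 0 ≤ z / M := by positivity
  have a3 : 0 ≤ ((M + R) ^ 2 - z ^ 2) / V₀ := div_nonneg (by nlinarith) hV.le
  have a4 : 0 ≤ (V₀ - v) / V₀ := div_nonneg (by linarith) hV.le
  by_cases h2 : R < z
  · by_cases h3 : z < M
    · exact hmid z h2 h3
    · have : 1 ≤ z / M := by rw [le_div_iff₀ hM]; linarith
      unfold psi
      linarith [hf z]
  · have : z / ρ ≤ R / ρ := by gcongr; linarith
    unfold psi
    linarith [hf' z h0]

/-- averaging the potential along a self-coupling -/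
theorem psi_step {R ρ M V₀ v : ℝ} {σ : FM.{u} ℝ} (hσ : σ.Prob) {W : FM.{u} (ℝ × ℝ)}
    (hW : W.IsCpl σ R) {f : ℝ → ℝ} (hf : Good R ρ M V₀ v f) {z : ℝ} (h1 : R < z) (h2 : z < M) :
    W.ev (fun p => f (z + (p.1 - p.2))) ≤
      psi R ρ M V₀ v z - W.ev (fun p => (p.1 - p.2) ^ 2) / V₀ := by
  have hWp : W.Prob := by
    rw [FM.prob_iff, hW.1 (fun _ => 1)]; exact hσ.ev_const 1
  have h0 : W.ev (fun p => p.1 - p.2) = 0 := by
    rw [FM.ev_sub, hW.1 (fun y => y), hW.2.1 (fun y => y), sub_self]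
  calc W.ev (fun p => f (z + (p.1 - p.2)))
      ≤ W.ev (fun p => (psi R ρ M V₀ v z + (1 / M - 2 * z / V₀) * (p.1 - p.2)) -
          (1 / V₀) * (p.1 - p.2) ^ 2) := by
        refine W.ev_mono' (fun j hj => ?_)
        have := abs_le.1 (hW.2.2 j hj)
        refine (hf _ (by linarith [this.1]) (by linarith [this.2])).trans (le_of_eq ?_)
        unfold psi
        ring
    _ = _ := by
        rw [FM.ev_sub, FM.ev_add, FM.ev_const_mul, FM.ev_const_mul, h0, hWp.ev_const]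
        ring

end Vale.Agent.P114
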