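import Vale.Agent.P114.Link

/-! The upper bound for the dimension and the two final inequalities. -/

namespace Vale.Agent.P114

open MeasureTheory Set Filter Topology FM
open scoped ENNReal NNReal

universe u

theorem dimH_limsup_le {α : Type*} (T : ℕ → Finset α) (c ρ : α → ℝ) (hρ : ∀ g, 0 ≤ ρ g) {s : ℝ≥0}
    (hs : 0 < s) {C β : ℝ} (hβ0 : 0 ≤ β) (hβ1 : β < 1) (hC : 0 ≤ C)
    (h : ∀ j, ∑ g ∈ T j, (2 * ρ g) ^ (s : ℝ) ≤ C * β ^ j) :
    dimH (⋂ j₀, ⋃ j, ⋃ g ∈ T (j₀ + j), Icc (c g - ρ g) (c g + ρ g)) ≤ s := by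
  have hs' : (0 : ℝ) < s := hs
  refine dimH_le_of_hausdorffMeasure_ne_top (ne_top_of_le_ne_top
    ((summable_geometric_of_lt_one hβ0 hβ1).mul_left C).tsum_ofReal_ne_top ?_)
  have hd : ∀ g, Metric.ediam (Icc (c g - ρ g) (c g + ρ g)) = ENNReal.ofReal (2 * ρ g) := by
    intro g; rw [Real.ediam_Icc]; congr 1; ring
  have hr : Tendsto (fun j₀ : ℕ => ENNReal.ofReal ((C * β ^ j₀) ^ (s : ℝ)⁻¹)) atTop (𝓝 0) := by
    have h1 := (tendsto_pow_atTop_nhds_zero_of_lt_one hβ0 hβ1).const_mul C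
    rw [mul_zero] at h1
    have h2 := ENNReal.tendsto_ofReal (h1.rpow_const_nhds_zero (inv_pos.2 hs'))
    simpa using h2
  refine (Measure.hausdorffMeasure_le_liminf_tsum (ι := fun j₀ : ℕ => Σ j : ℕ, T (j₀ + j)) (s : ℝ)
    _ _ hr (fun j₀ p => Icc (c p.2 - ρ p.2) (c p.2 + ρ p.2)) (Eventually.of_forall ?_)
    (Eventually.of_forall ?_)).trans (liminf_le_of_frequently_le' (Frequently.of_forall ?_))
  · rintro j₀ ⟨j, g, hg⟩
    rw [hd]
    refine ENNReal.ofReal_le_ofReal ?_
    have h1 := Finset.single_le_sum (f := fun g => (2 * ρ g) ^ (s : ℝ))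
      (fun g _ => Real.rpow_nonneg (by linarith [hρ g]) _) hg
    have h2 : C * β ^ (j₀ + j) ≤ C * β ^ j₀ :=
      mul_le_mul_of_nonneg_left (pow_le_pow_of_le_one hβ0 hβ1.le (by omega)) hC
    rw [Real.le_rpow_inv_iff_of_pos (by linarith [hρ g]) (by positivity) hs']
    exact h1.trans ((h _).trans h2)
  · intro j₀ x hx
    obtain ⟨j, hj⟩ := mem_iUnion.1 (mem_iInter.1 hx j₀)
    obtain ⟨g, hg, hx⟩ := mem_iUnion₂.1 hj
    exact mem_iUnion.2 ⟨⟨j, g, hg⟩, hx⟩
  · intro j₀
    rw [ENNReal.tsum_sigma']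
    refine ENNReal.tsum_le_tsum (fun j => ?_)
    simp only [hd]
    rw [tsum_fintype, Finset.sum_coe_sort (T (j₀ + j))
      (fun g => ENNReal.ofReal (2 * ρ g) ^ (s : ℝ))]
    calc ∑ g ∈ T (j₀ + j), ENNReal.ofReal (2 * ρ g) ^ (s : ℝ)
        = ENNReal.ofReal (∑ g ∈ T (j₀ + j), (2 * ρ g) ^ (s : ℝ)) := by
          rw [ENNReal.ofReal_sum_of_nonneg (fun g _ => Real.rpow_nonneg (by linarith [hρ g]) _)]
          exact Finset.sum_congr rfl (fun g _ =>
            ENNReal.ofReal_rpow_of_nonneg (by linarith [hρ g]) hs'.le)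
      _ ≤ _ := ENNReal.ofReal_le_ofReal ((h _).trans
          (mul_le_mul_of_nonneg_left (pow_le_pow_of_le_one hβ0 hβ1.le (by omega)) hC))

theorem lowerDim_le {μ : Measure ℝ} {E : Set ℝ} (hE : MeasurableSet E) (h : 0 < μ E) :
    lowerDim μ ≤ dimH E := by
  unfold lowerDim
  exact iInf_le_of_le E (iInf_le_of_le hE (iInf_le_of_le h le_rfl))

namespace Sys

variable {Λ : Type u} [Fintype Λ] (S : Sys Λ)

theorem sum_probG_le (n : ℕ) (T : Finset (ℝ → ℝ)) : ∑ g ∈ T, probG S.r S.t S.p n g ≤ 1 := by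
  classical
  simp only [probG_eq]
  unfold G
  rw [← Model.E_sum]
  refine S.base.E_le (fun l _ => ?_)
  rw [Finset.sum_ite_eq]
  split_ifs <;> norm_num

/-- one level of the covering -/
theorem level {μ : Measure ℝ} [IsProbabilityMeasure μ]
    (hμ : μ = ∑ i, ENNReal.ofReal (S.p i) • μ.map (fun x => S.r i * x + S.t i))
    {D : ℝ} (hD0 : 0 ≤ D) (hD : μ.real {u | D < |u|} = 0) {b : ℕ}
    (hb : ∀ i, |(S.r i)⁻¹| ≤ 2 ^ b) {s δ : ℝ} (hs : 0 < s) (hδ : 0 < δ) {n : ℕ} (hn : 0 < n)
    (hE : S.Ent n ≤ n * (s * S.base.chi - 2 * δ)) :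
    ∃ T : Finset (ℝ → ℝ), ∑ g ∈ T, (2 * (D * |g 1 - g 0|)) ^ s ≤
        (2 * D) ^ s * Real.exp (-δ) ^ n ∧
      δ ≤ s * b * μ.real (⋃ g ∈ T, Icc (g 0 - D * |g 1 - g 0|) (g 0 + D * |g 1 - g 0|)) := by
  classical
  set X : (ℝ → ℝ) → ℝ := fun g => -Real.log (probG S.r S.t S.p n g) +
    s * Real.log |g 1 - g 0| + δ * n with hX
  set T : Finset (ℝ → ℝ) := (Finset.univ.image
    (fun w : Fin n → Λ => wordMap S.r S.t (List.ofFn w))).filter (fun g => X g ≤ 0) with hT
  have hsl : ∀ l : List Λ, |wordMap S.r S.t l 1 - wordMap S.r S.t l 0| = |S.base.κ l|⁻¹ := by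
    intro l
    rw [S.κ_base, wordMap_affine S.r S.t l 1, abs_inv, inv_inv, mul_one, add_sub_cancel_right]
  refine ⟨T, ?_, ?_⟩
  · calc _ ≤ ∑ g ∈ T, (2 * D) ^ s * Real.exp (-δ) ^ n * probG S.r S.t S.p n g := by
          refine Finset.sum_le_sum (fun g hg => ?_)
          obtain ⟨hg1, hg2⟩ := Finset.mem_filter.1 hg
          obtain ⟨w, -, rfl⟩ := Finset.mem_image.1 hg1
          have h1 := S.probG_pos (List.ofFn w)
          rw [List.length_ofFn] at h1
          have h2 : 0 < |wordMap S.r S.t (List.ofFn w) 1 - wordMap S.r S.t (List.ofFn w) 0| := by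
            rw [hsl]; exact inv_pos.2 (abs_pos.2 (S.base.κ_ne _))
          rw [← mul_assoc, Real.mul_rpow (by positivity) h2.le, mul_assoc]
          refine mul_le_mul_of_nonneg_left ?_ (by positivity)
          rw [Real.rpow_def_of_pos h2, ← Real.exp_log h1, ← Real.exp_nat_mul, ← Real.exp_add,
            Real.exp_le_exp]
          simp only [hX] at hg2
          linarith
      _ ≤ _ := by
          rw [← Finset.mul_sum]
          exact mul_le_of_le_one_right (by positivity) (S.sum_probG_le n T)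
  · set A : Set ℝ := ⋃ g ∈ T, Icc (g 0 - D * |g 1 - g 0|) (g 0 + D * |g 1 - g 0|) with hA
    have hAm : MeasurableSet A := T.measurableSet_biUnion (fun _ _ => measurableSet_Icc)
    have hn' : (0 : ℝ) < n := by exact_mod_cast hn
    have h1 : S.G n X ≤ -(δ * n) := by
      have : S.G n X = S.Ent n - s * (n * S.base.chi) + δ * n := by
        rw [← Model.E_log_κ]
        unfold Ent G
        rw [← Model.E_const_mul, ← Model.E_sub, ← S.base.E_const n (δ * n), ← Model.E_add]
        refine S.base.E_congr (fun l _ => ?_)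
        simp only [hX]
        rw [hsl, Real.log_inv]
        ring
      rw [this]; linarith
    have h2 : -(s * b * n) * μ.real A ≤ S.G n X := by
      rw [S.iter hμ n A hAm]
      unfold G
      rw [← Model.E_const_mul]
      refine S.base.E_mono (fun l hl => ?_)
      have h0 : 0 ≤ s * b * n := by positivity
      by_cases hx : X (wordMap S.r S.t l) ≤ 0
      · have hmem : wordMap S.r S.t l ∈ T := by
          refine Finset.mem_filter.2 ⟨Finset.mem_image.2 ⟨fun i => l.get (i.cast hl.symm),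
            Finset.mem_univ _, ?_⟩, hx⟩
          subst hl
          simp
        have h3 : 1 ≤ μ.real (wordMap S.r S.t l ⁻¹' A) := by
          have h4 : (univ : Set ℝ) ⊆ (wordMap S.r S.t l ⁻¹' A) ∪ {u | D < |u|} := by
            intro u _
            by_cases hu : D < |u|
            · exact Or.inr hu
            · refine Or.inl (mem_biUnion (show wordMap S.r S.t l ∈ (T : Set (ℝ → ℝ)) from hmem) ?_)
              rw [wordMap_affine S.r S.t l 1, wordMap_affine S.r S.t l u, mul_one,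
                add_sub_cancel_right]
              have h5 : |(l.map S.r).prod * u| ≤ D * |(l.map S.r).prod| := by
                rw [abs_mul, mul_comm]
                exact mul_le_mul_of_nonneg_right (not_lt.1 hu) (abs_nonneg _)
              rw [abs_le] at h5
              constructor <;> linarith [h5.1, h5.2]
          have h5 := (measureReal_mono (μ := μ) h4).trans (measureReal_union_le _ _)
          rw [probReal_univ, hD] at h5
          linarith
        have h4 : Real.log |S.base.κ l| ≤ b * n := by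
          have h5 := Real.log_le_log (abs_pos.2 (S.base.κ_ne l)) (S.base.κ_le hb l)
          rw [Real.log_pow, hl] at h5
          have hl1 : Real.log 2 ≤ 1 := by
            have := Real.log_le_sub_one_of_pos (x := 2) (by norm_num); linarith
          have h6 : (0 : ℝ) ≤ ((n * b : ℕ) : ℝ) := Nat.cast_nonneg _
          have h7 := mul_le_mul_of_nonneg_left hl1 h6
          push_cast at h5 h7
          linarith
        have h5 := Real.log_nonpos (S.probG_nonneg n (wordMap S.r S.t l)) (S.probG_le_one n _)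
        have h6 := mul_le_mul_of_nonneg_left h4 hs.le
        have h7 := mul_le_mul_of_nonneg_left h3 h0
        have h8 : 0 ≤ δ * n := by positivity
        simp only [hX]
        rw [hsl, Real.log_inv]
        linarith
      · have := mul_nonneg h0 (measureReal_nonneg (μ := μ) (s := wordMap S.r S.t l ⁻¹' A))
        dsimp only
        linarith
    have h3 : δ * n ≤ s * b * μ.real A * n := by linarith
    exact le_of_mul_le_mul_right h3 hn'

theorem hRW_le (n : ℕ) : hRW S.r S.t S.p * Real.log 2 * (n + 1 : ℕ) ≤ S.Ent (n + 1) := by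
  have hl : 0 < Real.log 2 := Real.log_pos (by norm_num)
  have h1 : hRW S.r S.t S.p ≤ entG S.r S.t S.p (n + 1) / ((n + 1 : ℕ) : ℝ) := by
    refine ciInf_le ⟨0, ?_⟩ n
    rintro _ ⟨m, rfl⟩
    dsimp only
    rw [entG_eq]
    have := S.Ent_nonneg (m + 1)
    positivity
  rw [entG_eq, le_div_iff₀ (by positivity), le_div_iff₀ hl] at h1
  linarith

theorem hRW_nonneg : 0 ≤ hRW S.r S.t S.p := by
  have hl : 0 < Real.log 2 := Real.log_pos (by norm_num)
  refine Real.iInf_nonneg (fun m => ?_)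
  rw [entG_eq]
  have := S.Ent_nonneg (m + 1)
  positivity

theorem upper {μ : Measure ℝ} [IsProbabilityMeasure μ]
    (hμ : μ = ∑ i, ENNReal.ofReal (S.p i) • μ.map (fun x => S.r i * x + S.t i)) {s : ℝ≥0}
    (hs : hRW S.r S.t S.p * Real.log 2 < s * S.base.chi) : lowerDim μ ≤ s := by
  have hl : 0 < Real.log 2 := Real.log_pos (by norm_num)
  have hc := S.base.chi_pos
  have hs0 : (0 : ℝ) < s := by
    have := mul_nonneg S.hRW_nonneg hl.le
    exact (mul_pos_iff_of_pos_right hc).1 (this.trans_lt hs)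
  obtain ⟨D, hD0, hD⟩ := (S.blk 0).exists_D
  have hsupp := (S.blk 0).supp (S.blk_SS 0 hμ) hD hD0
  obtain ⟨b, hb1, hb⟩ := S.base.exists_b
  set δ : ℝ := (s * S.base.chi - hRW S.r S.t S.p * Real.log 2) / 3 with hδ
  have hδ0 : 0 < δ := by rw [hδ]; linarith
  obtain ⟨n₁, hn₁⟩ := exists_lt_of_ciInf_lt (f := fun n : ℕ =>
    entG S.r S.t S.p (n + 1) / ((n + 1 : ℕ) : ℝ)) (a := hRW S.r S.t S.p + δ / Real.log 2)
    (lt_add_of_pos_right _ (by positivity))
  rw [entG_eq, div_lt_iff₀ (by positivity), div_lt_iff₀ hl] at hn₁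
  have hn₂ : S.Ent (n₁ + 1) ≤ (n₁ + 1 : ℕ) * (s * S.base.chi - 2 * δ) := by
    refine hn₁.le.trans (le_of_eq ?_)
    have : s * S.base.chi - 2 * δ = hRW S.r S.t S.p * Real.log 2 + δ := by rw [hδ]; ring
    rw [this]
    field_simp
  have hlev := fun j : ℕ => S.level hμ (D := D + 1) (by linarith) hsupp hb hs0 hδ0
    (n := (j + 1) * (n₁ + 1)) (by positivity) (by
      refine (S.Ent_mul (j + 1) (n₁ + 1)).trans ?_
      rw [Nat.cast_mul, mul_assoc]
      exact mul_le_mul_of_nonneg_left hn₂ (Nat.cast_nonneg _))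
  choose T hT1 hT2 using hlev
  have hβ1 : Real.exp (-δ) < 1 := Real.exp_lt_one_iff.2 (by linarith)
  have hdim := dimH_limsup_le T (fun g => g 0) (fun g => (D + 1) * |g 1 - g 0|)
    (fun g => by positivity) (s := s) hs0 (C := (2 * (D + 1)) ^ (s : ℝ)) (Real.exp_pos (-δ)).le hβ1
    (by positivity) (fun j => (hT1 j).trans (mul_le_mul_of_nonneg_left
      (pow_le_pow_of_le_one (Real.exp_pos _).le hβ1.le (by nlinarith)) (by positivity)))
  set A : ℕ → Set ℝ := fun j₀ => ⋃ j, ⋃ g ∈ T (j₀ + j),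
    Icc (g 0 - (D + 1) * |g 1 - g 0|) (g 0 + (D + 1) * |g 1 - g 0|) with hA
  have hAm : ∀ j₀, MeasurableSet (A j₀) := fun j₀ => MeasurableSet.iUnion (fun j =>
    (T (j₀ + j)).measurableSet_biUnion (fun _ _ => measurableSet_Icc))
  have hanti : Antitone A := by
    refine antitone_nat_of_succ_le (fun j₀ x hx => ?_)
    obtain ⟨j, hj⟩ := mem_iUnion.1 hx
    refine mem_iUnion.2 ⟨j + 1, ?_⟩
    rwa [show j₀ + (j + 1) = j₀ + 1 + j by ring]
  have h1 := (ENNReal.tendsto_toReal (measure_ne_top _ _)).comp (tendsto_measure_iInter_atTop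
    (μ := μ) (fun j => (hAm j).nullMeasurableSet) hanti ⟨0, measure_ne_top _ _⟩)
  have h2 : δ ≤ s * b * (μ (⋂ j, A j)).toReal := by
    refine ge_of_tendsto' (h1.const_mul (s * b : ℝ)) (fun j => (hT2 j).trans ?_)
    refine mul_le_mul_of_nonneg_left (measureReal_mono ?_) (by positivity)
    exact subset_iUnion (fun i => ⋃ g ∈ T (j + i),
      Icc (g 0 - (D + 1) * |g 1 - g 0|) (g 0 + (D + 1) * |g 1 - g 0|)) 0
  have h3 : 0 < μ (⋂ j, A j) := by
    rw [pos_iff_ne_zero]
    intro h0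
    rw [h0] at h2
    simp at h2
    linarith
  exact (lowerDim_le (MeasurableSet.iInter hAm) h3).trans hdim

theorem lower {μ : Measure ℝ} [IsProbabilityMeasure μ]
    (hμ : μ = ∑ i, ENNReal.ofReal (S.p i) • μ.map (fun x => S.r i * x + S.t i)) {s : ℝ≥0}
    (hs1 : (s : ℝ) < 1) (hs : s * S.base.chi < hRW S.r S.t S.p * Real.log 2) :
    (s : ℝ≥0∞) ≤ lowerDim μ := by
  have hc := S.base.chi_pos
  set h : ℝ := hRW S.r S.t S.p * Real.log 2 with hh
  set ε : ℝ := (h - s * S.base.chi) / (Fintype.card Λ + 1) with hε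
  have hε0 : 0 < ε := div_pos (by linarith) (by positivity)
  obtain ⟨n, hn⟩ : ∃ n : ℕ, Real.log ((n + 1 + 1 : ℕ) : ℝ) < ε * (n + 1 : ℕ) := by
    have h1 := (Real.tendsto_pow_log_div_mul_add_atTop 1 (-1) 1 one_ne_zero).comp
      (tendsto_natCast_atTop_atTop.comp (tendsto_add_atTop_nat 2))
    obtain ⟨n, hn⟩ := (h1.eventually (gt_mem_nhds hε0)).exists
    refine ⟨n, ?_⟩
    simp only [Function.comp, pow_one, one_mul] at hn
    rw [div_lt_iff₀ (by push_cast; linarith [Nat.cast_nonneg (α := ℝ) n])] at hn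
    push_cast at hn ⊢
    rw [show (n : ℝ) + 1 + 1 = n + 2 by ring]
    linarith
  have hn0 : (0 : ℝ) < (n + 1 : ℕ) := by positivity
  have hlog : Real.log (Fintype.card (Cl Λ (n + 1))) < (h - s * S.base.chi) * (n + 1 : ℕ) := by
    have h1 : Real.log (Fintype.card (Cl Λ (n + 1))) ≤
        Fintype.card Λ * Real.log ((n + 1 + 1 : ℕ) : ℝ) := by
      rcases Nat.eq_zero_or_pos (Fintype.card (Cl Λ (n + 1))) with h0 | h0
      · rw [h0, Nat.cast_zero, Real.log_zero]
        exact mul_nonneg (Nat.cast_nonneg _) (Real.log_natCast_nonneg _)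
      · rw [← Real.log_pow]
        exact Real.log_le_log (by exact_mod_cast h0) (by exact_mod_cast card_Cl (n + 1))
    have h2 : h - s * S.base.chi = ε * (Fintype.card Λ + 1) := by rw [hε]; field_simp
    have h3 := mul_le_mul_of_nonneg_left hn.le (Nat.cast_nonneg (α := ℝ) (Fintype.card Λ))
    have h4 : 0 < ε * (n + 1 : ℕ) := by positivity
    rw [h2]
    linarith
  refine le_iInf (fun E => le_iInf (fun _ => le_iInf (fun hE => ?_)))
  refine (S.blk n).lower (S.blk_SS n hμ)
    (h := h * (n + 1 : ℕ) - Real.log (Fintype.card (Cl Λ (n + 1)))) (fun m => ?_) ?_ hE.ne'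
  · rcases Nat.eq_zero_or_pos m with rfl | hm
    · rw [Nat.cast_zero, mul_zero]
      exact (S.blk n).E_nonneg (fun l _ => (((S.blk n).ζ_prob l).H_nonneg one_pos).trans
        (((S.blk n).ζ_prob l).H_le_Sh one_pos))
    · have h1 := S.Ent_blk n m
      obtain ⟨N, hN⟩ : ∃ N, m * (n + 1) = N + 1 :=
        Nat.exists_eq_succ_of_ne_zero (by positivity)
      have h2 := S.hRW_le N
      rw [← hN, Nat.cast_mul] at h2
      linarith
  · rw [chi_blk]
    refine lt_min (by linarith) ?_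
    have : 0 < ((n + 1 : ℕ) : ℝ) * S.base.chi := by positivity
    nlinarith

theorem main {μ : Measure ℝ} [IsProbabilityMeasure μ]
    (hμ : μ = ∑ i, ENNReal.ofReal (S.p i) • μ.map (fun x => S.r i * x + S.t i)) :
    lowerDim μ = ENNReal.ofReal (min 1 (hRW S.r S.t S.p / lyap S.r S.p)) := by
  have hl : 0 < Real.log 2 := Real.log_pos (by norm_num)
  have hc := S.base.chi_pos
  have e : hRW S.r S.t S.p / lyap S.r S.p = hRW S.r S.t S.p * Real.log 2 / S.base.chi := by
    rw [lyap_eq]; field_simp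
  rw [e]
  refine le_antisymm (le_of_forall_gt_imp_ge_of_dense (fun a ha => ?_))
    (ENNReal.le_of_forall_nnreal_lt (fun s hs => ?_))
  · induction a with
    | top => exact le_top
    | coe s =>
      have h0 := S.hRW_nonneg
      rw [ENNReal.ofReal_lt_coe_iff (le_min zero_le_one (by positivity)), min_lt_iff] at ha
      rcases ha with ha | ha
      · refine (lowerDim_le MeasurableSet.univ (by simp)).trans ?_
        rw [Real.dimH_univ]
        exact_mod_cast ha.le
      · exact S.upper hμ ((div_lt_iff₀ hc).1 ha)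
  · rw [ENNReal.coe_lt_ofReal, lt_min_iff, lt_div_iff₀ hc] at hs
    exact S.lower hμ hs.1 hs.2

end Sys

end Vale.Agent.P114
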